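import Mathlib.RingTheory.HopfAlgebra.Basic
import Mathlib.RingTheory.TensorProduct.Maps
import Mathlib.RingTheory.MvPolynomial.Basic
import Mathlib.Algebra.CharP.Lemmas
import Mathlib.Algebra.Field.ZMod
import Mathlib.Tactic

/-!
# P093, part N: the Hopf algebra `P_*` (block N1-P)

`PS p` is the polynomial algebra over `𝔽_p` on `t_1, t_2, …` with `t_0 = 1` and
`Δ t_n = ∑_{i + j = n} t_i ^ (p ^ j) ⊗ t_j`.

* `twMul p f g` : the composition product `(f ∗ g)_n = ∑_{i+j=n} f_i ^ (p ^ j) g_j` of sequences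
  (twisted power series `∑ f_n x ^ (p ^ n)`);
* `PS p`, `PS.t`, `PS.lift`, `PS.algHom_ext` ;
* `HopfAlgebra (ZMod p) (PS p)`.
-/

open TensorProduct Finset

namespace Vale.Agent.P093.N

/-! ### Twisted power series -/

section Tw

variable (p : ℕ) {A B : Type*} [CommRing A] [CommRing B]

/-- The composition product of twisted power series: if `F = ∑ f_n x ^ (p ^ n)` and
`G = ∑ g_n x ^ (p ^ n)` over a ring of characteristic `p`, then `twMul p f g` is the
coefficient sequence of `G ∘ F`. -/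
def twMul (f g : ℕ → A) (n : ℕ) : A :=
  ∑ ij ∈ antidiagonal n, f ij.1 ^ p ^ ij.2 * g ij.2

/-- The unit sequence `1, 0, 0, …`. -/
def twOne (A : Type*) [CommRing A] (n : ℕ) : A := if n = 0 then 1 else 0

@[simp] theorem twOne_zero : twOne A 0 = 1 := if_pos rfl

@[simp] theorem twOne_succ (n : ℕ) : twOne A (n + 1) = 0 := if_neg (Nat.succ_ne_zero n)

theorem twOne_of_ne {n : ℕ} (hn : n ≠ 0) : twOne A n = 0 := if_neg hn

theorem map_twOne (φ : A →+* B) (n : ℕ) : φ (twOne A n) = twOne B n := by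
  by_cases h : n = 0 <;> simp [twOne, h]

theorem map_twMul (φ : A →+* B) (f g : ℕ → A) (n : ℕ) :
    φ (twMul p f g n) = twMul p (fun i => φ (f i)) (fun i => φ (g i)) n := by
  simp [twMul, map_sum]

theorem twMul_zero_index (f g : ℕ → A) : twMul p f g 0 = f 0 * g 0 := by
  simp [twMul]

theorem one_twMul [hp : Fact p.Prime] (f : ℕ → A) : twMul p (twOne A) f = f := by
  funext n
  rw [twMul, Finset.sum_eq_single (0, n)]
  · simp
  · rintro ⟨i, j⟩ hij hne
    have hi : i ≠ 0 := by
      rintro rfl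
      rw [mem_antidiagonal] at hij
      exact hne (by simpa using hij)
    simp [twOne_of_ne hi, hp.out.ne_zero]
  · intro h
    exact absurd (mem_antidiagonal.2 (by simp)) h

theorem twMul_one (f : ℕ → A) : twMul p f (twOne A) = f := by
  funext n
  rw [twMul, Finset.sum_eq_single (n, 0)]
  · simp
  · rintro ⟨i, j⟩ hij hne
    have hj : j ≠ 0 := by
      rintro rfl
      rw [mem_antidiagonal] at hij
      exact hne (by simpa using hij)
    simp [twOne_of_ne hj]
  · intro h
    exact absurd (mem_antidiagonal.2 (by simp)) h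

theorem sum_pow_pow [Fact p.Prime] [Algebra (ZMod p) A] {ι : Type*} (s : Finset ι) (f : ι → A)
    (j : ℕ) : (∑ i ∈ s, f i) ^ p ^ j = ∑ i ∈ s, f i ^ p ^ j := by
  cases subsingleton_or_nontrivial A with
  | inl h => exact Subsingleton.elim _ _
  | inr h =>
    have : CharP A p := charP_of_injective_algebraMap (algebraMap (ZMod p) A).injective p
    exact sum_pow_char_pow p j s f

theorem twMul_assoc [Fact p.Prime] [Algebra (ZMod p) A] (f g h : ℕ → A) :
    twMul p (twMul p f g) h = twMul p f (twMul p g h) := by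
  funext n
  have h1 : twMul p (twMul p f g) h n = ∑ ij ∈ antidiagonal n, ∑ ab ∈ antidiagonal ij.1,
      f ab.1 ^ p ^ (ab.2 + ij.2) * g ab.2 ^ p ^ ij.2 * h ij.2 := by
    refine Finset.sum_congr rfl fun ij _ => ?_
    rw [twMul, sum_pow_pow, Finset.sum_mul]
    refine Finset.sum_congr rfl fun ab _ => ?_
    rw [mul_pow, ← pow_mul, ← pow_add]
  have h2 : twMul p f (twMul p g h) n = ∑ ij ∈ antidiagonal n, ∑ ab ∈ antidiagonal ij.2,
      f ij.1 ^ p ^ ij.2 * (g ab.1 ^ p ^ ab.2 * h ab.2) := by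
    refine Finset.sum_congr rfl fun ij _ => ?_
    rw [twMul, Finset.mul_sum]
  rw [h1, h2, Finset.sum_sigma', Finset.sum_sigma']
  refine Finset.sum_nbij' (fun x => ⟨(x.2.1, x.2.2 + x.1.2), (x.2.2, x.1.2)⟩)
    (fun x => ⟨(x.1.1 + x.2.1, x.2.2), (x.1.1, x.2.1)⟩) ?_ ?_ ?_ ?_ ?_
  · rintro ⟨⟨i, j⟩, ⟨a, b⟩⟩ hx
    simp only [mem_sigma, mem_antidiagonal] at hx ⊢
    obtain ⟨h1, h2⟩ := hx
    exact ⟨by rw [← h1, ← h2, add_assoc], trivial⟩
  · rintro ⟨⟨i, j⟩, ⟨a, b⟩⟩ hx
    simp only [mem_sigma, mem_antidiagonal] at hx ⊢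
    obtain ⟨h1, h2⟩ := hx
    exact ⟨by rw [← h1, ← h2, add_assoc], trivial⟩
  · rintro ⟨⟨i, j⟩, ⟨a, b⟩⟩ hx
    simp only [mem_sigma, mem_antidiagonal] at hx
    obtain ⟨_, rfl⟩ := hx
    rfl
  · rintro ⟨⟨i, j⟩, ⟨a, b⟩⟩ hx
    simp only [mem_sigma, mem_antidiagonal] at hx
    obtain ⟨_, rfl⟩ := hx
    rfl
  · rintro ⟨⟨i, j⟩, ⟨a, b⟩⟩ hx
    simp only [mul_assoc]

/-- The left inverse of a twisted power series with leading coefficient one. -/
def twInv (f : ℕ → A) : ℕ → A
  | 0 => 1
  | n + 1 => - ∑ i : Fin (n + 1), twInv f i.1 ^ p ^ (n + 1 - i.1) * f (n + 1 - i.1)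

@[simp] theorem twInv_zero (f : ℕ → A) : twInv p f 0 = 1 := by rw [twInv]

theorem twInv_succ (f : ℕ → A) (n : ℕ) :
    twInv p f (n + 1) =
      - ∑ i ∈ Finset.range (n + 1), twInv p f i ^ p ^ (n + 1 - i) * f (n + 1 - i) := by
  rw [twInv, Finset.sum_range]

theorem twMul_eq_range (f g : ℕ → A) (n : ℕ) :
    twMul p f g n = ∑ i ∈ Finset.range (n + 1), f i ^ p ^ (n - i) * g (n - i) :=
  Finset.Nat.sum_antidiagonal_eq_sum_range_succ (fun i j => f i ^ p ^ j * g j) n

theorem twInv_twMul (f : ℕ → A) (hf : f 0 = 1) : twMul p (twInv p f) f = twOne A := by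
  funext n
  cases n with
  | zero => simp [twMul_zero_index, hf]
  | succ n =>
    rw [twMul_eq_range, Finset.sum_range_succ, Nat.sub_self, pow_zero, pow_one, hf, mul_one,
      twInv_succ, add_neg_cancel, twOne_succ]

theorem twMul_twInv [Fact p.Prime] [Algebra (ZMod p) A] (f : ℕ → A) (hf : f 0 = 1) :
    twMul p f (twInv p f) = twOne A := by
  have h0 : twInv p f 0 = 1 := twInv_zero p f
  have h1 := twInv_twMul p f hf
  have h2 := twInv_twMul p (twInv p f) h0
  have h3 : twInv p (twInv p f) = f := by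
    calc twInv p (twInv p f) = twMul p (twInv p (twInv p f)) (twMul p (twInv p f) f) := by
          rw [h1, twMul_one]
      _ = f := by rw [← twMul_assoc, h2, one_twMul]
  rwa [h3] at h2

theorem map_twInv (φ : A →+* B) (f : ℕ → A) (n : ℕ) :
    φ (twInv p f n) = twInv p (fun i => φ (f i)) n := by
  induction n using Nat.strong_induction_on with
  | _ n ih =>
    cases n with
    | zero => simp
    | succ n =>
      rw [twInv_succ, twInv_succ, map_neg, map_sum]
      congr 1
      refine Finset.sum_congr rfl fun i hi => ?_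
      rw [map_mul, map_pow, ih i (Finset.mem_range.1 hi)]

end Tw

/-! ### The algebra `P_*` -/

/-- `P_*` : the polynomial algebra over `𝔽_p` on `t_1, t_2, …` (variable `k` is `t_{k+1}`). -/
def PS (p : ℕ) : Type := MvPolynomial ℕ (ZMod p)

namespace PS

variable (p : ℕ)

noncomputable instance : CommRing (PS p) := inferInstanceAs (CommRing (MvPolynomial ℕ (ZMod p)))

noncomputable instance : Algebra (ZMod p) (PS p) :=
  inferInstanceAs (Algebra (ZMod p) (MvPolynomial ℕ (ZMod p)))

/-- The identification of `PS p` with the polynomial algebra. -/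
noncomputable def equiv : PS p ≃ₐ[ZMod p] MvPolynomial ℕ (ZMod p) := AlgEquiv.refl

instance [Fact p.Prime] : IsDomain (PS p) :=
  inferInstanceAs (IsDomain (MvPolynomial ℕ (ZMod p)))

instance [Fact p.Prime] : CharP (PS p) p :=
  inferInstanceAs (CharP (MvPolynomial ℕ (ZMod p)) p)

instance [Fact p.Prime] : Nontrivial (PS p) :=
  inferInstanceAs (Nontrivial (MvPolynomial ℕ (ZMod p)))

/-- The generators: `t 0 = 1` and `t (k + 1)` is the variable `k`. -/
noncomputable def t : ℕ → PS p
  | 0 => 1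
  | k + 1 => (MvPolynomial.X k : MvPolynomial ℕ (ZMod p))

@[simp] theorem t_zero : t p 0 = 1 := rfl

theorem equiv_t_succ (k : ℕ) : equiv p (t p (k + 1)) = MvPolynomial.X k := rfl

theorem equiv_symm_X (k : ℕ) : (equiv p).symm (MvPolynomial.X k) = t p (k + 1) := rfl

variable {p}

/-- The algebra homomorphism with prescribed values on the generators. -/
noncomputable def lift {A : Type*} [CommSemiring A] [Algebra (ZMod p) A] (f : ℕ → A) :
    PS p →ₐ[ZMod p] A :=
  (MvPolynomial.aeval f : MvPolynomial ℕ (ZMod p) →ₐ[ZMod p] A)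

@[simp] theorem lift_t_succ {A : Type*} [CommSemiring A] [Algebra (ZMod p) A] (f : ℕ → A)
    (k : ℕ) : lift f (t p (k + 1)) = f k :=
  MvPolynomial.aeval_X f k

/-- Two algebra homomorphisms which agree on the generators are equal. -/
theorem algHom_ext {A : Type*} [Semiring A] [Algebra (ZMod p) A] {f g : PS p →ₐ[ZMod p] A}
    (h : ∀ k, f (t p (k + 1)) = g (t p (k + 1))) : f = g :=
  MvPolynomial.algHom_ext (σ := ℕ) (R := ZMod p) (A := A) (f := f) (g := g) h

/-- The same with all `t n`. -/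
theorem algHom_ext' {A : Type*} [Semiring A] [Algebra (ZMod p) A] {f g : PS p →ₐ[ZMod p] A}
    (h : ∀ n, f (t p n) = g (t p n)) : f = g :=
  algHom_ext fun k => h (k + 1)

theorem algHom_eqOn {A : Type*} [Semiring A] [Algebra (ZMod p) A] {f g : PS p →ₐ[ZMod p] A}
    (h : ∀ k, f (t p (k + 1)) = g (t p (k + 1))) (x : PS p) : f x = g x :=
  DFunLike.congr_fun (algHom_ext h) x

/-- Ring homomorphisms out of `PS p` are determined by their values on the generators. -/
theorem ringHom_ext {A : Type*} [CommRing A] {f g : PS p →+* A}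
    (h : ∀ k, f (t p (k + 1)) = g (t p (k + 1))) : f = g :=
  MvPolynomial.ringHom_ext (σ := ℕ) (R := ZMod p) (f := f) (g := g)
    (fun r => by
      have h1 : f.comp (algebraMap (ZMod p) (PS p)) = g.comp (algebraMap (ZMod p) (PS p)) :=
        Subsingleton.elim _ _
      exact DFunLike.congr_fun h1 r) h

/-- Induction on elements of `PS p`. -/
theorem induction_on {motive : PS p → Prop} (x : PS p)
    (C : ∀ a : ZMod p, motive (algebraMap (ZMod p) (PS p) a))
    (add : ∀ x y, motive x → motive y → motive (x + y))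
    (mul_t : ∀ x k, motive x → motive (x * t p (k + 1))) : motive x :=
  MvPolynomial.induction_on (motive := fun y : MvPolynomial ℕ (ZMod p) => motive y) x C
    (fun x y hx hy => add x y hx hy) fun x k hx => mul_t x k hx

variable (p)

/-! ### The comultiplication and the counit -/

variable [hp : Fact p.Prime]

/-- The comultiplication on generators. -/
noncomputable def cm (n : ℕ) : PS p ⊗[ZMod p] PS p :=
  ∑ ij ∈ antidiagonal n, (t p ij.1 ^ p ^ ij.2) ⊗ₜ[ZMod p] t p ij.2

/-- The left inclusion `x ↦ x ⊗ 1` of a tensor square. -/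
noncomputable abbrev inl (A : Type*) [CommRing A] [Algebra (ZMod p) A] :
    A →ₐ[ZMod p] A ⊗[ZMod p] A :=
  Algebra.TensorProduct.includeLeft

theorem cm_eq (n : ℕ) :
    cm p n = twMul p (fun i => (t p i) ⊗ₜ[ZMod p] (1 : PS p))
      (fun i => (1 : PS p) ⊗ₜ[ZMod p] (t p i)) n := by
  unfold cm twMul
  refine Finset.sum_congr rfl fun ij _ => ?_
  rw [Algebra.TensorProduct.tmul_pow, one_pow, Algebra.TensorProduct.tmul_mul_tmul, mul_one,
    one_mul]

/-- The comultiplication as an algebra homomorphism. -/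
noncomputable def comulHom : PS p →ₐ[ZMod p] PS p ⊗[ZMod p] PS p :=
  lift fun k => cm p (k + 1)

theorem cm_zero : cm p 0 = 1 := by
  simp [cm, Algebra.TensorProduct.one_def]

theorem comulHom_t (n : ℕ) : comulHom p (t p n) = cm p n := by
  cases n with
  | zero => rw [t_zero, map_one, cm_zero]
  | succ k => exact lift_t_succ _ k

/-- The counit as an algebra homomorphism. -/
noncomputable def counitHom : PS p →ₐ[ZMod p] ZMod p := lift fun _ => 0

theorem counitHom_t (n : ℕ) : counitHom p (t p n) = twOne (ZMod p) n := by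
  cases n with
  | zero => rw [t_zero, map_one, twOne_zero]
  | succ k => rw [twOne_succ]; exact lift_t_succ _ k

/-- The antipode as an algebra homomorphism. -/
noncomputable def antipodeHom : PS p →ₐ[ZMod p] PS p := lift fun k => twInv p (t p) (k + 1)

theorem antipodeHom_t (n : ℕ) : antipodeHom p (t p n) = twInv p (t p) n := by
  cases n with
  | zero => rw [t_zero, map_one, twInv_zero]
  | succ k => exact lift_t_succ _ k

/-- An algebra homomorphism applied to `cm`. -/
theorem map_cm {B : Type*} [CommRing B] [Algebra (ZMod p) B]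
    (φ : PS p ⊗[ZMod p] PS p →ₐ[ZMod p] B) (n : ℕ) :
    φ (cm p n) = twMul p (fun i => φ (t p i ⊗ₜ[ZMod p] (1 : PS p)))
      (fun i => φ ((1 : PS p) ⊗ₜ[ZMod p] t p i)) n := by
  rw [cm_eq]
  exact map_twMul p (φ : (PS p ⊗[ZMod p] PS p) →+* B) _ _ n

theorem coassoc_aux :
    (Algebra.TensorProduct.assoc (ZMod p) (ZMod p) (ZMod p) (PS p) (PS p) (PS p)).toAlgHom.comp
      ((Algebra.TensorProduct.map (comulHom p) (.id (ZMod p) (PS p))).comp (comulHom p))
      = (Algebra.TensorProduct.map (.id (ZMod p) (PS p)) (comulHom p)).comp (comulHom p) := by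
  refine algHom_ext' fun n => ?_
  let as := (Algebra.TensorProduct.assoc (ZMod p) (ZMod p) (ZMod p) (PS p) (PS p) (PS p)).toAlgHom
  let α : (PS p ⊗[ZMod p] PS p) →ₐ[ZMod p] PS p ⊗[ZMod p] (PS p ⊗[ZMod p] PS p) :=
    as.comp (Algebra.TensorProduct.map (comulHom p) (.id (ZMod p) (PS p)))
  let β : (PS p ⊗[ZMod p] PS p) →ₐ[ZMod p] PS p ⊗[ZMod p] (PS p ⊗[ZMod p] PS p) :=
    Algebra.TensorProduct.map (.id (ZMod p) (PS p)) (comulHom p)
  let a : ℕ → PS p ⊗[ZMod p] (PS p ⊗[ZMod p] PS p) :=
    fun i => t p i ⊗ₜ[ZMod p] ((1 : PS p) ⊗ₜ[ZMod p] (1 : PS p))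
  let b : ℕ → PS p ⊗[ZMod p] (PS p ⊗[ZMod p] PS p) :=
    fun i => (1 : PS p) ⊗ₜ[ZMod p] (t p i ⊗ₜ[ZMod p] (1 : PS p))
  let c : ℕ → PS p ⊗[ZMod p] (PS p ⊗[ZMod p] PS p) :=
    fun i => (1 : PS p) ⊗ₜ[ZMod p] ((1 : PS p) ⊗ₜ[ZMod p] t p i)
  have hα1 : ∀ i, α (t p i ⊗ₜ[ZMod p] 1) = twMul p a b i := by
    intro i
    have h : α (t p i ⊗ₜ[ZMod p] 1) = as (cm p i ⊗ₜ[ZMod p] (1 : PS p)) := by
      show as (Algebra.TensorProduct.map (comulHom p) (.id (ZMod p) (PS p)) _) = _
      rw [Algebra.TensorProduct.map_tmul, comulHom_t]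
      rfl
    exact h.trans (map_cm p (as.comp Algebra.TensorProduct.includeLeft) i)
  have hα2 : ∀ i, α ((1 : PS p) ⊗ₜ[ZMod p] t p i) = c i := by
    intro i
    show as (Algebra.TensorProduct.map (comulHom p) (.id (ZMod p) (PS p)) _) = _
    rw [Algebra.TensorProduct.map_tmul, map_one]
    rfl
  have hβ1 : ∀ i, β (t p i ⊗ₜ[ZMod p] 1) = a i := by
    intro i
    show Algebra.TensorProduct.map (.id (ZMod p) (PS p)) (comulHom p) _ = _
    rw [Algebra.TensorProduct.map_tmul, map_one]
    rfl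
  have hβ2 : ∀ i, β ((1 : PS p) ⊗ₜ[ZMod p] t p i) = twMul p b c i := by
    intro i
    have h : β ((1 : PS p) ⊗ₜ[ZMod p] t p i) = (1 : PS p) ⊗ₜ[ZMod p] cm p i := by
      show Algebra.TensorProduct.map (.id (ZMod p) (PS p)) (comulHom p) _ = _
      rw [Algebra.TensorProduct.map_tmul, comulHom_t]
      rfl
    exact h.trans (map_cm p (Algebra.TensorProduct.includeRight :
      (PS p ⊗[ZMod p] PS p) →ₐ[ZMod p] PS p ⊗[ZMod p] (PS p ⊗[ZMod p] PS p)) i)
  have hl : α (cm p n) = twMul p (twMul p a b) c n := by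
    rw [map_cm]
    exact congrArg₂ (fun f g => twMul p f g n) (funext hα1) (funext hα2)
  have hr : β (cm p n) = twMul p a (twMul p b c) n := by
    rw [map_cm]
    exact congrArg₂ (fun f g => twMul p f g n) (funext hβ1) (funext hβ2)
  show α (comulHom p (t p n)) = β (comulHom p (t p n))
  rw [comulHom_t, hl, hr, twMul_assoc]

theorem rTensor_aux :
    (Algebra.TensorProduct.map (counitHom p) (.id (ZMod p) (PS p))).comp (comulHom p)
      = (Algebra.TensorProduct.lid (ZMod p) (PS p)).symm := by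
  refine algHom_ext' fun n => ?_
  let α := Algebra.TensorProduct.map (counitHom p) (.id (ZMod p) (PS p))
  show α (comulHom p (t p n)) = (1 : ZMod p) ⊗ₜ[ZMod p] t p n
  rw [comulHom_t, map_cm]
  have h1 : (fun i => α (t p i ⊗ₜ[ZMod p] (1 : PS p))) = twOne _ := by
    funext i
    show Algebra.TensorProduct.map (counitHom p) (.id (ZMod p) (PS p)) _ = _
    rw [Algebra.TensorProduct.map_tmul, counitHom_t, map_one]
    cases i with
    | zero => rfl
    | succ i => rw [twOne_succ, twOne_succ, TensorProduct.zero_tmul]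
  rw [h1, one_twMul]
  show Algebra.TensorProduct.map (counitHom p) (.id (ZMod p) (PS p)) _ = _
  rw [Algebra.TensorProduct.map_tmul, map_one]
  rfl

theorem lTensor_aux :
    (Algebra.TensorProduct.map (.id (ZMod p) (PS p)) (counitHom p)).comp (comulHom p)
      = (Algebra.TensorProduct.rid (ZMod p) (ZMod p) (PS p)).symm := by
  refine algHom_ext' fun n => ?_
  let α := Algebra.TensorProduct.map (.id (ZMod p) (PS p)) (counitHom p)
  show α (comulHom p (t p n)) = t p n ⊗ₜ[ZMod p] (1 : ZMod p)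
  rw [comulHom_t, map_cm]
  have h1 : (fun i => α ((1 : PS p) ⊗ₜ[ZMod p] t p i)) = twOne _ := by
    funext i
    show Algebra.TensorProduct.map (.id (ZMod p) (PS p)) (counitHom p) _ = _
    rw [Algebra.TensorProduct.map_tmul, counitHom_t, map_one]
    cases i with
    | zero => rfl
    | succ i => rw [twOne_succ, twOne_succ, TensorProduct.tmul_zero]
  rw [h1, twMul_one]
  show Algebra.TensorProduct.map (.id (ZMod p) (PS p)) (counitHom p) _ = _
  rw [Algebra.TensorProduct.map_tmul, map_one]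
  rfl

noncomputable instance instBialgebra : Bialgebra (ZMod p) (PS p) :=
  Bialgebra.ofAlgHom (comulHom p) (counitHom p) (coassoc_aux p) (rTensor_aux p) (lTensor_aux p)

theorem comulAlgHom_eq : Bialgebra.comulAlgHom (ZMod p) (PS p) = comulHom p := by
  ext; rfl

theorem counitAlgHom_eq : Bialgebra.counitAlgHom (ZMod p) (PS p) = counitHom p := by
  ext; rfl

noncomputable instance instHopfAlgebra : HopfAlgebra (ZMod p) (PS p) :=
  HopfAlgebra.ofAlgHom (antipodeHom p)
    (by
      refine algHom_ext' fun n => ?_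
      let α : (PS p ⊗[ZMod p] PS p) →ₐ[ZMod p] PS p :=
        Algebra.TensorProduct.lift (antipodeHom p) (.id (ZMod p) (PS p))
          fun _ => Commute.all _
      show α (comulHom p (t p n)) = algebraMap (ZMod p) (PS p) (counitHom p (t p n))
      rw [comulHom_t, counitHom_t, map_cm, map_twOne]
      have h1 : (fun i => α (t p i ⊗ₜ[ZMod p] (1 : PS p))) =
          twInv p (t p) := by
        funext i
        refine (Algebra.TensorProduct.lift_tmul _ _ _ _ _).trans ?_
        rw [map_one, mul_one, antipodeHom_t]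
      have h2 : (fun i => α ((1 : PS p) ⊗ₜ[ZMod p] t p i)) =
          t p := by
        funext i
        refine (Algebra.TensorProduct.lift_tmul _ _ _ _ _).trans ?_
        rw [map_one, one_mul]
        rfl
      rw [h1, h2, twInv_twMul p (t p) (t_zero p)])
    (by
      refine algHom_ext' fun n => ?_
      let α : (PS p ⊗[ZMod p] PS p) →ₐ[ZMod p] PS p :=
        Algebra.TensorProduct.lift (.id (ZMod p) (PS p)) (antipodeHom p)
          fun _ _ => Commute.all _ _
      show α (comulHom p (t p n)) = algebraMap (ZMod p) (PS p) (counitHom p (t p n))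
      rw [comulHom_t, counitHom_t, map_cm, map_twOne]
      have h1 : (fun i => α ((1 : PS p) ⊗ₜ[ZMod p] t p i)) =
          twInv p (t p) := by
        funext i
        refine (Algebra.TensorProduct.lift_tmul _ _ _ _ _).trans ?_
        rw [map_one, one_mul, antipodeHom_t]
      have h2 : (fun i => α (t p i ⊗ₜ[ZMod p] (1 : PS p))) =
          t p := by
        funext i
        refine (Algebra.TensorProduct.lift_tmul _ _ _ _ _).trans ?_
        rw [map_one, mul_one]
        rfl
      rw [h1, h2, twMul_twInv p (t p) (t_zero p)])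

/-- `Δ t_n = ∑_{i + j = n} t_i ^ (p ^ j) ⊗ t_j`. -/
theorem comul_t (n : ℕ) : Coalgebra.comul (R := ZMod p) (t p n) =
    ∑ ij ∈ antidiagonal n, (t p ij.1 ^ p ^ ij.2) ⊗ₜ[ZMod p] t p ij.2 :=
  comulHom_t p n

theorem counit_t (n : ℕ) : Coalgebra.counit (R := ZMod p) (t p n) = if n = 0 then 1 else 0 :=
  counitHom_t p n

theorem counit_t_succ (k : ℕ) : Coalgebra.counit (R := ZMod p) (t p (k + 1)) = 0 := by
  rw [counit_t, if_neg (Nat.succ_ne_zero k)]

theorem antipode_t (n : ℕ) : HopfAlgebra.antipode (ZMod p) (t p n) = twInv p (t p) n :=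
  antipodeHom_t p n

theorem antipode_mul' (x y : PS p) : HopfAlgebra.antipode (ZMod p) (x * y) =
    HopfAlgebra.antipode (ZMod p) x * HopfAlgebra.antipode (ZMod p) y :=
  map_mul (antipodeHom p) x y

end PS

end Vale.Agent.P093.N
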