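import Mathlib.RingTheory.HopfAlgebra.Quotient
import Mathlib.RingTheory.MvPolynomial.Ideal
import Mathlib.Data.Finsupp.Interval
import Vale.Agent.P093.N.Hopf

/-!
# P093, part N: the finite quotient Hopf algebras `P(n)_*` (block N1-P)

`In p m` is the ideal of `P_* = PS p` generated by `t_i ^ (p ^ (m + 1 - i))`, `i ≥ 1` (truncated
subtraction), and `Pn p m = PS p ⧸ In p m` (so `P(n)_* = Pn p (n + 1)` and `Pn p 0 = 𝔽_p`).
-/

open TensorProduct Finset

namespace Vale.Agent.P093.N

variable (p m : ℕ)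

/-- The exponents of the monomial generators of `In p m`. -/
noncomputable def relE (k : ℕ) : ℕ →₀ ℕ := Finsupp.single k (p ^ (m - k))

/-- The ideal of `P_*` generated by `t_i ^ (p ^ (m + 1 - i))`, `i ≥ 1`. -/
noncomputable def In : Ideal (PS p) :=
  Ideal.span (Set.range fun k : ℕ => PS.t p (k + 1) ^ p ^ (m - k))

theorem t_pow_eq_monomial (k e : ℕ) : (PS.t p (k + 1) ^ e : PS p) =
    (MvPolynomial.monomial (Finsupp.single k e) (1 : ZMod p) : MvPolynomial ℕ (ZMod p)) :=
  MvPolynomial.X_pow_eq_monomial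

theorem In_eq : In p m = (Ideal.span ((fun s => (MvPolynomial.monomial s (1 : ZMod p) :
    MvPolynomial ℕ (ZMod p))) '' Set.range (relE p m)) : Ideal (MvPolynomial ℕ (ZMod p))) := by
  rw [← Set.range_comp]
  exact congrArg Ideal.span (congrArg Set.range (funext fun k => t_pow_eq_monomial p k _))

/-- The coefficient of a monomial. -/
noncomputable def PS.coeff (e : ℕ →₀ ℕ) : PS p →ₗ[ZMod p] ZMod p :=
  (MvPolynomial.lcoeff (ZMod p) e : MvPolynomial ℕ (ZMod p) →ₗ[ZMod p] ZMod p)

/-- A monomial. -/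
noncomputable def PS.mon (e : ℕ →₀ ℕ) : PS p :=
  (MvPolynomial.monomial e (1 : ZMod p) : MvPolynomial ℕ (ZMod p))

variable {p}

theorem PS.coeff_mon_self (e : ℕ →₀ ℕ) : PS.coeff p e (PS.mon p e) = 1 := by
  classical
  exact (MvPolynomial.coeff_monomial e e (1 : ZMod p)).trans (if_pos rfl)

theorem PS.coeff_mon_of_ne {e f : ℕ →₀ ℕ} (h : e ≠ f) : PS.coeff p f (PS.mon p e) = 0 := by
  classical
  exact (MvPolynomial.coeff_monomial f e (1 : ZMod p)).trans (if_neg h)

theorem PS.coeff_mul_mon (x : PS p) (e f : ℕ →₀ ℕ) :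
    PS.coeff p (f + e) (x * PS.mon p e) = PS.coeff p f x :=
  (MvPolynomial.coeff_mul_monomial f e (1 : ZMod p) x).trans (mul_one _)

theorem PS.mon_mul_mon (e f : ℕ →₀ ℕ) : PS.mon p e * PS.mon p f = PS.mon p (e + f) :=
  (MvPolynomial.monomial_mul (R := ZMod p) (s := e) (s' := f)).trans (by rw [mul_one]; rfl)

theorem PS.mon_zero : PS.mon p 0 = 1 := rfl

theorem PS.coeff_ext {x y : PS p} (h : ∀ e, PS.coeff p e x = PS.coeff p e y) : x = y :=
  MvPolynomial.ext (R := ZMod p) (σ := ℕ) x y h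

variable {m}

/-- The ideal `In p m` is spanned by the monomials divisible by one of the generators. -/
theorem mem_In {x : PS p} :
    x ∈ In p m ↔ ∀ e, PS.coeff p e x ≠ 0 → ∃ k, p ^ (m - k) ≤ e k := by
  have h := MvPolynomial.mem_ideal_span_monomial_image (R := ZMod p) (σ := ℕ) (x := x)
    (s := Set.range (relE p m))
  rw [In_eq]
  refine h.trans ?_
  have key : ∀ e : ℕ →₀ ℕ, (∃ si ∈ Set.range (relE p m), si ≤ e) ↔ ∃ k, p ^ (m - k) ≤ e k := by
    intro e
    constructor
    · rintro ⟨_, ⟨k, rfl⟩, hk⟩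
      refine ⟨k, ?_⟩
      have := hk k
      rwa [relE, Finsupp.single_eq_same] at this
    · rintro ⟨k, hk⟩
      refine ⟨_, ⟨k, rfl⟩, fun j => ?_⟩
      by_cases hj : j = k
      · subst hj
        rwa [relE, Finsupp.single_eq_same]
      · rw [relE, Finsupp.single_eq_of_ne hj]
        exact Nat.zero_le _
  constructor
  · intro h e he
    exact (key e).1 (h e (MvPolynomial.mem_support_iff.2 he))
  · intro h e he
    exact (key e).2 (h e (MvPolynomial.mem_support_iff.1 he))

theorem mon_mem_In [Fact p.Prime] {e : ℕ →₀ ℕ} :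
    PS.mon p e ∈ In p m ↔ ∃ k, p ^ (m - k) ≤ e k := by
  rw [mem_In]
  constructor
  · intro h
    exact h e (by rw [PS.coeff_mon_self]; exact one_ne_zero)
  · intro h f hf
    have : e = f := by
      by_contra hne
      exact hf (PS.coeff_mon_of_ne hne)
    rwa [← this]

theorem t_pow_mem_In {k e : ℕ} (h : m - k ≤ e) [Fact p.Prime] :
    PS.t p (k + 1) ^ p ^ e ∈ In p m := by
  have h1 : PS.t p (k + 1) ^ p ^ (m - k) ∈ In p m := Ideal.subset_span ⟨k, rfl⟩
  have h2 : p ^ e = p ^ (m - k) * p ^ (e - (m - k)) := by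
    rw [← pow_add, Nat.add_sub_cancel' h]
  rw [h2, pow_mul]
  exact Ideal.pow_mem_of_mem _ h1 _ (pow_pos (Fact.out : p.Prime).pos _)

variable (p m)

section Quot

variable [hp : Fact p.Prime]

/-- The quotient map as an algebra homomorphism. -/
noncomputable def mkA : PS p →ₐ[ZMod p] PS p ⧸ In p m := Ideal.Quotient.mkₐ (ZMod p) (In p m)

theorem mkA_t_pow {i e : ℕ} (hi : i ≠ 0) (h : m + 1 ≤ e + i) :
    mkA p m (PS.t p i) ^ p ^ e = 0 := by
  obtain ⟨k, rfl⟩ := Nat.exists_eq_succ_of_ne_zero hi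
  rw [← map_pow]
  exact Ideal.Quotient.eq_zero_iff_mem.2 (t_pow_mem_In (by omega))

/-- The key computation: a product `f ∗ g` of sequences killed by the relations is killed by the
relations. -/
theorem twMul_pow_eq_zero {A : Type*} [CommRing A] [Algebra (ZMod p) A] (f g : ℕ → A)
    (hf : ∀ i e, i ≠ 0 → m + 1 ≤ e + i → f i ^ p ^ e = 0)
    (hg : ∀ i e, i ≠ 0 → m + 1 ≤ e + i → g i ^ p ^ e = 0) (i e : ℕ) (hi : i ≠ 0)
    (h : m + 1 ≤ e + i) : twMul p f g i ^ p ^ e = 0 := by
  rw [twMul, sum_pow_pow]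
  refine Finset.sum_eq_zero fun ab hab => ?_
  rw [mem_antidiagonal] at hab
  rw [mul_pow, ← pow_mul, ← pow_add]
  by_cases ha : ab.1 = 0
  · rw [hg ab.2 e (by omega) (by omega), mul_zero]
  · rw [hf ab.1 (ab.2 + e) ha (by omega), zero_mul]

theorem comul_In : ∀ x ∈ In p m, (Algebra.TensorProduct.map (mkA p m) (mkA p m)).comp
    (PS.comulHom p) x = 0 := by
  set φ := (Algebra.TensorProduct.map (mkA p m) (mkA p m)).comp (PS.comulHom p) with hφ
  have h : In p m ≤ RingHom.ker φ := by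
    refine Ideal.span_le.2 ?_
    rintro _ ⟨k, rfl⟩
    show φ (PS.t p (k + 1) ^ p ^ (m - k)) = 0
    rw [map_pow]
    have h1 : φ (PS.t p (k + 1)) = twMul p
        (fun i => mkA p m (PS.t p i) ⊗ₜ[ZMod p] (1 : PS p ⧸ In p m))
        (fun i => (1 : PS p ⧸ In p m) ⊗ₜ[ZMod p] mkA p m (PS.t p i)) (k + 1) := by
      have h2 : φ (PS.t p (k + 1)) =
          Algebra.TensorProduct.map (mkA p m) (mkA p m) (PS.cm p (k + 1)) := by
        rw [hφ, AlgHom.comp_apply, PS.comulHom_t]
      rw [h2, PS.map_cm]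
      simp only [Algebra.TensorProduct.map_tmul, map_one]
    rw [h1]
    refine twMul_pow_eq_zero p m _ _ ?_ ?_ (k + 1) (m - k) (Nat.succ_ne_zero k) (by omega)
    · intro i e hi h
      rw [Algebra.TensorProduct.tmul_pow, mkA_t_pow p m hi h, TensorProduct.zero_tmul]
    · intro i e hi h
      rw [Algebra.TensorProduct.tmul_pow, mkA_t_pow p m hi h, TensorProduct.tmul_zero]
  exact h

theorem counit_In : ∀ x ∈ In p m, PS.counitHom p x = 0 := by
  have h : In p m ≤ RingHom.ker (PS.counitHom p) := by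
    refine Ideal.span_le.2 ?_
    rintro _ ⟨k, rfl⟩
    show PS.counitHom p (PS.t p (k + 1) ^ p ^ (m - k)) = 0
    rw [map_pow, PS.counitHom_t, twOne_succ, zero_pow (pow_pos hp.out.pos _).ne']
  exact h

theorem twInv_pow_eq_zero {A : Type*} [CommRing A] [Algebra (ZMod p) A] (f : ℕ → A)
    (hf0 : f 0 = 1) (hf : ∀ i e, i ≠ 0 → m + 1 ≤ e + i → f i ^ p ^ e = 0) (i : ℕ) :
    ∀ e, i ≠ 0 → m + 1 ≤ e + i → twInv p f i ^ p ^ e = 0 := by
  induction i using Nat.strong_induction_on with
  | _ i ih =>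
    intro e hi h
    have h1 : twMul p (twInv p f) f i ^ p ^ e = 0 := by
      rw [twInv_twMul p f hf0, twOne_of_ne hi, zero_pow (pow_pos hp.out.pos _).ne']
    rw [twMul, sum_pow_pow, Finset.sum_eq_single (i, 0)] at h1
    · simpa [hf0] using h1
    · rintro ⟨a, b⟩ hab hne
      rw [mem_antidiagonal] at hab
      simp only at hab
      have hb : b ≠ 0 := by
        rintro rfl
        exact hne (by simpa using hab)
      rw [mul_pow, ← pow_mul, ← pow_add]
      by_cases ha : a = 0
      · rw [hf b e hb (by omega), mul_zero]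
      · rw [ih a (by omega) (b + e) ha (by omega), zero_mul]
    · intro h2
      exact absurd (mem_antidiagonal.2 (by simp)) h2

theorem antipode_In : ∀ x ∈ In p m, PS.antipodeHom p x ∈ In p m := by
  have h : In p m ≤ RingHom.ker ((mkA p m).comp (PS.antipodeHom p)) := by
    refine Ideal.span_le.2 ?_
    rintro _ ⟨k, rfl⟩
    show mkA p m (PS.antipodeHom p (PS.t p (k + 1) ^ p ^ (m - k))) = 0
    rw [map_pow, map_pow, PS.antipodeHom_t]
    have h1 : mkA p m (twInv p (PS.t p) (k + 1)) =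
        twInv p (fun i => mkA p m (PS.t p i)) (k + 1) :=
      map_twInv p (mkA p m : PS p →+* PS p ⧸ In p m) (PS.t p) (k + 1)
    rw [h1]
    exact twInv_pow_eq_zero p m _ (by simp) (fun i e hi h => mkA_t_pow p m hi h) (k + 1) (m - k)
      (Nat.succ_ne_zero k) (by omega)
  intro x hx
  exact Ideal.Quotient.eq_zero_iff_mem.1 (h hx)

instance isHopfIdeal_In : (In p m).IsHopfIdeal (ZMod p) where
  counit_eq_zero := fun x hx => counit_In p m x hx
  map_mkQ_comul_eq_zero := fun x hx => comul_In p m x hx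
  antipode_mem := fun x hx => antipode_In p m x hx

/-- The finite quotient Hopf algebra `P_* ⧸ (t_i ^ (p ^ (m + 1 - i)))`. -/
def Pn : Type := PS p ⧸ In p m

namespace Pn

noncomputable instance : CommRing (Pn p m) := inferInstanceAs (CommRing (PS p ⧸ In p m))

noncomputable instance instHopfAlgebra : HopfAlgebra (ZMod p) (Pn p m) :=
  inferInstanceAs (HopfAlgebra (ZMod p) (PS p ⧸ In p m))

/-- The quotient map, a homomorphism of bialgebras. -/
noncomputable def mk : PS p →ₐc[ZMod p] Pn p m := Bialgebra.Quotient.mkBialgHom (In p m)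

theorem mk_surjective : Function.Surjective (mk p m) := Ideal.Quotient.mk_surjective

/-- The generators. -/
noncomputable def t (n : ℕ) : Pn p m := mk p m (PS.t p n)

end Pn

end Quot

end Vale.Agent.P093.N
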