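import Mathlib.GroupTheory.Perm.Fin
import Mathlib.Tactic.Ring

/-!
# P093, part N: the Coxeter presentation of the symmetric group (existence of homomorphisms)

`exists_perm_hom`: elements `s 0, …, s (m-1)` of a monoid which satisfy the Coxeter relations are
the images of the adjacent transpositions under a homomorphism `Perm (Fin (m + 1)) →* M`.
-/

open Equiv

namespace Vale.Agent.P093.Cox

/-- the adjacent transposition `(i, i + 1)` of `Fin (m + 1)` -/
def adj {m : ℕ} (i : Fin m) : Perm (Fin (m + 1)) := swap i.castSucc i.succ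

/-- extension of a permutation, fixing `0` -/
def ext0 {m : ℕ} (e : Perm (Fin m)) : Perm (Fin (m + 1)) :=
  Perm.decomposeFin.symm (0, e)

@[simp] theorem ext0_zero {m : ℕ} (e : Perm (Fin m)) : ext0 e 0 = 0 := by
  simp [ext0]

@[simp] theorem ext0_succ {m : ℕ} (e : Perm (Fin m)) (i : Fin m) :
    ext0 e i.succ = (e i).succ := by
  simp [ext0]

theorem decomposeFin_fst {m : ℕ} (e : Perm (Fin (m + 1))) : (Perm.decomposeFin e).1 = e 0 := by
  have h := Perm.decomposeFin_symm_apply_zero (Perm.decomposeFin e).1 (Perm.decomposeFin e).2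
  rw [Prod.mk.eta, Equiv.symm_apply_apply] at h
  exact h.symm

/-- the permutation with `0 ↦ k` and `j.succ ↦ k.succAbove (ρ j)` -/
def glue {m : ℕ} (k : Fin (m + 1)) (ρ : Perm (Fin m)) : Perm (Fin (m + 1)) :=
  k.cycleRange.symm * ext0 ρ

@[simp] theorem glue_zero {m : ℕ} (k : Fin (m + 1)) (ρ : Perm (Fin m)) : glue k ρ 0 = k := by
  change k.cycleRange.symm (ext0 ρ 0) = k
  rw [ext0_zero, Fin.cycleRange_symm_zero]

@[simp] theorem glue_succ {m : ℕ} (k : Fin (m + 1)) (ρ : Perm (Fin m)) (j : Fin m) :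
    glue k ρ j.succ = k.succAbove (ρ j) := by
  change k.cycleRange.symm (ext0 ρ j.succ) = _
  rw [ext0_succ, Fin.cycleRange_symm_succ]

/-- the rest of a permutation -/
def rest {m : ℕ} (σ : Perm (Fin (m + 1))) : Perm (Fin m) :=
  (Perm.decomposeFin ((σ 0).cycleRange * σ)).2

theorem glue_rest {m : ℕ} (σ : Perm (Fin (m + 1))) : glue (σ 0) (rest σ) = σ := by
  have h : ext0 (rest σ) = (σ 0).cycleRange * σ := by
    unfold ext0 rest
    rw [Equiv.symm_apply_eq]
    refine Prod.ext ?_ rfl
    rw [decomposeFin_fst]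
    change 0 = (σ 0).cycleRange (σ 0)
    rw [Fin.cycleRange_self]
  unfold glue
  rw [h, ← mul_assoc]
  have h2 : (σ 0).cycleRange.symm * (σ 0).cycleRange = 1 := Equiv.ext fun x => by simp
  rw [h2, one_mul]

theorem rest_glue {m : ℕ} (k : Fin (m + 1)) (ρ : Perm (Fin m)) : rest (glue k ρ) = ρ := by
  unfold rest
  rw [glue_zero]
  unfold glue
  rw [← mul_assoc]
  have h2 : k.cycleRange * k.cycleRange.symm = 1 := Equiv.ext fun x => by simp
  rw [h2, one_mul]
  unfold ext0
  rw [Equiv.apply_symm_apply]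

theorem glue_ext {m : ℕ} {σ : Perm (Fin (m + 1))} {k : Fin (m + 1)} {ρ : Perm (Fin m)}
    (h0 : σ 0 = k) (h1 : ∀ j, σ j.succ = k.succAbove (ρ j)) : σ = glue k ρ := by
  apply Equiv.ext
  intro x
  refine Fin.cases ?_ (fun j => ?_) x
  · rw [h0, glue_zero]
  · rw [h1, glue_succ]

section adj

variable {m : ℕ}

theorem adj_apply (i : Fin m) (x : Fin (m + 1)) :
    ((adj i x : Fin (m + 1)) : ℕ) =
      if (x : ℕ) = i then (i : ℕ) + 1 else if (x : ℕ) = i + 1 then i else x := by
  unfold adj
  rw [swap_apply_def]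
  simp only [Fin.ext_iff, Fin.val_castSucc, Fin.val_succ]
  split_ifs <;> simp

theorem succAbove_val (k : Fin (m + 1)) (x : Fin m) :
    ((k.succAbove x : Fin (m + 1)) : ℕ) = if (x : ℕ) < k then (x : ℕ) else x + 1 := by
  unfold Fin.succAbove
  simp only [Fin.lt_def, Fin.val_castSucc]
  split_ifs <;> simp

theorem adj_glue_eq (i : Fin (m + 1)) (ρ : Perm (Fin (m + 1))) :
    adj i * glue i.castSucc ρ = glue i.succ ρ := by
  refine glue_ext ?_ fun j => ?_
  · change adj i (glue _ _ 0) = _
    rw [glue_zero]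
    apply Fin.ext
    rw [adj_apply]
    simp
  · change adj i (glue _ _ j.succ) = _
    rw [glue_succ]
    apply Fin.ext
    rw [adj_apply, succAbove_val, succAbove_val]
    simp only [Fin.val_castSucc, Fin.val_succ]
    split_ifs <;> omega

theorem adj_glue_eq' (i : Fin (m + 1)) (ρ : Perm (Fin (m + 1))) :
    adj i * glue i.succ ρ = glue i.castSucc ρ := by
  rw [← adj_glue_eq, ← mul_assoc]
  have : adj i * adj i = 1 := swap_mul_self _ _
  rw [this, one_mul]

theorem adj_glue_lt (i : Fin m) (k : Fin (m + 1 + 1)) (hk : (k : ℕ) < i + 1)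
    (ρ : Perm (Fin (m + 1))) :
    adj i.succ * glue k ρ = glue k (adj i * ρ) := by
  refine glue_ext ?_ fun j => ?_
  · change adj i.succ (glue _ _ 0) = _
    rw [glue_zero]
    apply Fin.ext
    rw [adj_apply]
    simp only [Fin.val_succ]
    split_ifs <;> omega
  · change adj i.succ (glue _ _ j.succ) = k.succAbove (adj i (ρ j))
    rw [glue_succ]
    apply Fin.ext
    rw [adj_apply, succAbove_val, succAbove_val, adj_apply]
    simp only [Fin.val_succ]
    split_ifs <;> omega

theorem adj_glue_gt (i : Fin m) (k : Fin (m + 1 + 1)) (hk : (i : ℕ) + 1 < k)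
    (ρ : Perm (Fin (m + 1))) :
    adj i.castSucc * glue k ρ = glue k (adj i * ρ) := by
  refine glue_ext ?_ fun j => ?_
  · change adj i.castSucc (glue _ _ 0) = _
    rw [glue_zero]
    apply Fin.ext
    rw [adj_apply]
    simp only [Fin.val_castSucc]
    split_ifs <;> omega
  · change adj i.castSucc (glue _ _ j.succ) = k.succAbove (adj i (ρ j))
    rw [glue_succ]
    apply Fin.ext
    rw [adj_apply, succAbove_val, succAbove_val, adj_apply]
    simp only [Fin.val_castSucc]
    split_ifs <;> omega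

end adj

section hom

variable {M : Type*} [Monoid M]

/-- `s (k-1) * ... * s 0` -/
def cyc (s : ℕ → M) : ℕ → M
  | 0 => 1
  | k + 1 => s k * cyc s k

theorem cyc_comm {m : ℕ} {s : ℕ → M}
    (h2 : ∀ i j, i + 2 ≤ j → j < m → s j * s i = s i * s j) {k i : ℕ} (hki : k < i) (hi : i < m) :
    s i * cyc s k = cyc s k * s i := by
  induction k with
  | zero => simp [cyc]
  | succ k ih =>
    change s i * (s k * cyc s k) = s k * cyc s k * s i
    rw [← mul_assoc, h2 k i (by omega) hi, mul_assoc, ih (by omega), mul_assoc]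

theorem cyc_braid {m : ℕ} {s : ℕ → M}
    (h2 : ∀ i j, i + 2 ≤ j → j < m → s j * s i = s i * s j)
    (h3 : ∀ i, i + 1 < m → s i * s (i + 1) * s i = s (i + 1) * s i * s (i + 1))
    {k i : ℕ} (hik : i + 2 ≤ k) (hk : k ≤ m) :
    s i * cyc s k = cyc s k * s (i + 1) := by
  induction k, hik using Nat.le_induction with
  | base =>
    change s i * (s (i + 1) * (s i * cyc s i)) = s (i + 1) * (s i * cyc s i) * s (i + 1)
    rw [← mul_assoc, ← mul_assoc, h3 i (by omega), mul_assoc, mul_assoc,
      cyc_comm h2 (show i < i + 1 by omega) (by omega), mul_assoc, mul_assoc]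
  | succ k hk' ih =>
    change s i * (s k * cyc s k) = s k * cyc s k * s (i + 1)
    rw [← mul_assoc, ← h2 i k hk' (by omega), mul_assoc, ih (by omega), mul_assoc]

theorem hom_ext_adj {m : ℕ} {f g : Perm (Fin (m + 1)) →* M} (h : ∀ i : Fin m, f (adj i) = g (adj i)) :
    f = g := by
  refine MonoidHom.eq_of_eqOn_denseM (Perm.mclosure_swap_castSucc_succ m) ?_
  rintro _ ⟨i, rfl⟩
  exact h i

/-- induction on permutations -/
theorem perm_induction {m : ℕ} {P : Perm (Fin (m + 1)) → Prop} (h1 : P 1)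
    (h : ∀ (i : Fin m) (σ : Perm (Fin (m + 1))), P σ → P (adj i * σ)) (σ : Perm (Fin (m + 1))) :
    P σ := by
  have hσ : σ ∈ Submonoid.closure (Set.range fun i : Fin m ↦ swap i.castSucc i.succ) := by
    rw [Perm.mclosure_swap_castSucc_succ]
    trivial
  induction hσ using Submonoid.closure_induction_left with
  | one => exact h1
  | mul_left x hx y _ hy =>
    obtain ⟨i, rfl⟩ := hx
    exact h i y hy

/-- **Coxeter presentation**, existence of homomorphisms. -/
theorem exists_perm_hom (m : ℕ) (s : ℕ → M) (h1 : ∀ i, i < m → s i * s i = 1)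
    (h2 : ∀ i j, i + 2 ≤ j → j < m → s j * s i = s i * s j)
    (h3 : ∀ i, i + 1 < m → s i * s (i + 1) * s i = s (i + 1) * s i * s (i + 1)) :
    ∃ f : Perm (Fin (m + 1)) →* M, ∀ i : Fin m, f (adj i) = s i := by
  induction m generalizing s with
  | zero => exact ⟨1, fun i => i.elim0⟩
  | succ m ih =>
    obtain ⟨f, hf⟩ := ih (fun i => s (i + 1)) (fun i hi => h1 _ (by omega))
      (fun i j hij hj => h2 _ _ (by omega) (by omega)) (fun i hi => h3 _ (by omega))
    let F : Perm (Fin (m + 1 + 1)) → M := fun σ => cyc s (σ 0 : ℕ) * f (rest σ)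
    have hF : ∀ k ρ, F (glue k ρ) = cyc s (k : ℕ) * f ρ := by
      intro k ρ
      simp only [F]
      rw [glue_zero, rest_glue]
    have key : ∀ (i : Fin (m + 1)) (σ : Perm (Fin (m + 1 + 1))), F (adj i * σ) = s i * F σ := by
      intro i σ
      obtain ⟨k, ρ, rfl⟩ : ∃ k ρ, σ = glue k ρ := ⟨_, _, (glue_rest σ).symm⟩
      rcases lt_trichotomy (k : ℕ) (i : ℕ) with hk | hk | hk
      · obtain ⟨i', rfl⟩ : ∃ i' : Fin m, i = i'.succ := by
          refine ⟨⟨i - 1, by omega⟩, Fin.ext ?_⟩
          simp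
          omega
        rw [adj_glue_lt i' k (by simpa using hk), hF, hF, map_mul, hf, ← mul_assoc, ← mul_assoc,
          cyc_comm h2 hk i'.succ.isLt]
        rfl
      · obtain rfl : k = i.castSucc := Fin.ext hk
        rw [adj_glue_eq, hF, hF, ← mul_assoc]
        rfl
      · rcases Nat.lt_or_ge ((i : ℕ) + 1) k with hk' | hk'
        · obtain ⟨i', rfl⟩ : ∃ i' : Fin m, i = i'.castSucc := by
            refine ⟨⟨i, by omega⟩, Fin.ext ?_⟩
            simp
          rw [adj_glue_gt i' k (by simpa using hk'), hF, hF, map_mul, hf, ← mul_assoc, ← mul_assoc]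
          congr 1
          have hk2 : (i' : ℕ) + 2 ≤ k := hk'
          exact (cyc_braid h2 h3 hk2 (by omega)).symm
        · obtain rfl : k = i.succ := Fin.ext (by simp; omega)
          rw [adj_glue_eq', hF, hF, ← mul_assoc]
          congr 1
          change cyc s i = s i * (s i * cyc s i)
          rw [← mul_assoc, h1 i i.isLt, one_mul]
    have hF1 : F 1 = 1 := by
      have h : (1 : Perm (Fin (m + 1 + 1))) = glue 0 1 := by
        refine glue_ext rfl fun j => ?_
        simp
      rw [h, hF, map_one, mul_one]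
      rfl
    refine ⟨{ toFun := F, map_one' := hF1, map_mul' := ?_ }, ?_⟩
    · intro σ τ
      induction σ using perm_induction with
      | h1 => rw [one_mul, hF1, one_mul]
      | h i σ hσ => rw [mul_assoc, key, key, hσ, ← mul_assoc (s i) (F σ) (F τ)]
    · intro i
      change F (adj i) = s i
      rw [← mul_one (adj i), key, hF1, mul_one]

end hom

end Vale.Agent.P093.Cox
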