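import Mathlib.Algebra.Module.ZMod
import Mathlib.LinearAlgebra.Quotient.Basic
import Mathlib.LinearAlgebra.TensorProduct.Basic
import Mathlib.LinearAlgebra.TensorProduct.Tower
import Mathlib.LinearAlgebra.Basis.Basic
import Mathlib.LinearAlgebra.Finsupp.LinearCombination
import Mathlib.RingTheory.Ideal.Operations
import Mathlib.RingTheory.Ideal.Maps
import Mathlib.RingTheory.TensorProduct.Basic

/-!
# P093, block N:H, part 0: reduction of modules along `ε : A ⟶ k`

`q : M ⟶ V` a surjection with `q (a m) = ε a • q m` whose kernel is `(ker ε) M`.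

* `exists_redBasis` : a basis of `M` over `A` gives a basis of `V` over `k`;
* `thetaA` : for a ring homomorphism `φ : B ⟶ A'` the map `∑ c_j b'_j ↦ ∑ φ c_j ⊗ q b_j`.
-/

open TensorProduct

set_option linter.unusedSectionVars false

noncomputable section

namespace Vale.Agent.P093.N.HH

universe u₁ u₂ u₃ u₄ u₅ u₆

section Basis

variable {k : Type u₆} [Field k] {A : Type u₁} [Ring A] (ε : A →+* k)
  {M : Type u₂} [AddCommGroup M] [Module A M] {V : Type u₃} [AddCommGroup V] [Module k V]
  {J : Type*} (b : Module.Basis J A M)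

/-- the coordinates modulo `ker ε` of an element -/
def redCoord : M →+ (J →₀ k) :=
  (Finsupp.mapRange.addMonoidHom (ε : A →+ k)).comp b.repr.toAddMonoidHom

theorem redCoord_apply (x : M) (j : J) : redCoord ε b x j = ε (b.repr x j) := rfl

theorem redCoord_smul (a : A) (x : M) : redCoord ε b (a • x) = ε a • redCoord ε b x := by
  ext j
  rw [redCoord_apply, map_smul, Finsupp.smul_apply, smul_eq_mul, map_mul, Finsupp.smul_apply,
    smul_eq_mul, redCoord_apply]

theorem redCoord_basis (j : J) : redCoord ε b (b j) = Finsupp.single j 1 := by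
  classical
  ext i
  rw [redCoord_apply, Module.Basis.repr_self, Finsupp.single_apply, Finsupp.single_apply]
  split_ifs <;> simp

variable (q : M →+ V) (hq : ∀ (a : A) (m : M), q (a • m) = ε a • q m)

include hq in
theorem sum_redCoord (x : M) :
    (redCoord ε b x).sum (fun j c => c • q (b j)) = q x := by
  have h1 : (redCoord ε b x).sum (fun j c => c • q (b j)) =
      (b.repr x).sum (fun j c => ε c • q (b j)) := by
    change (Finsupp.mapRange (⇑ε) (map_zero ε) (b.repr x)).sum _ = _
    rw [Finsupp.sum_mapRange_index]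
    intro j
    exact zero_smul _ _
  rw [h1]
  conv_rhs => rw [← b.linearCombination_repr x, Finsupp.linearCombination_apply, Finsupp.sum,
    map_sum]
  exact Finset.sum_congr rfl fun j _ => (hq _ _).symm

include hq in
/-- a basis of `M` over `A` gives a basis of `V = M / (ker ε) M` over `k` -/
theorem exists_redBasis (hε : Function.Surjective ε) (hs : Function.Surjective q)
    (hk : ∀ x, q x = 0 → x ∈ (RingHom.ker ε) • (⊤ : Submodule A M)) :
    ∃ v : Module.Basis J k V, (∀ j, v j = q (b j)) ∧
      ∀ x j, v.repr (q x) j = ε (b.repr x j) := by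
  have hker : ∀ x, q x = 0 → redCoord ε b x = 0 := by
    intro x hx
    refine Submodule.smul_induction_on (p := fun x => redCoord ε b x = 0) (hk x hx) ?_ ?_
    · intro a ha y _
      rw [redCoord_smul, RingHom.mem_ker.1 ha, zero_smul]
    · intro x y hx hy
      rw [map_add, hx, hy, add_zero]
  have hli : LinearIndependent k (fun j => q (b j)) := by
    rw [linearIndependent_iff]
    intro l hl
    choose t ht using hε
    have h1 : q (l.sum fun j c => t c • b j) = 0 := by
      rw [Finsupp.sum, map_sum, ← hl, Finsupp.linearCombination_apply, Finsupp.sum]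
      exact Finset.sum_congr rfl fun j _ => by rw [hq, ht]
    have h2 := hker _ h1
    rw [Finsupp.sum, map_sum] at h2
    have h3 : ∀ j ∈ l.support, redCoord ε b (t (l j) • b j) = Finsupp.single j (l j) := by
      intro j _
      rw [redCoord_smul, ht, redCoord_basis, Finsupp.smul_single, smul_eq_mul, mul_one]
    rw [Finset.sum_congr rfl h3] at h2
    have h4 := Finsupp.sum_single l
    rw [Finsupp.sum, h2] at h4
    exact h4.symm
  have hsp : ⊤ ≤ Submodule.span k (Set.range fun j => q (b j)) := by
    intro y _
    obtain ⟨x, rfl⟩ := hs y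
    rw [← sum_redCoord ε b q hq x]
    exact Submodule.sum_mem _ fun j _ => Submodule.smul_mem _ _ (Submodule.subset_span ⟨j, rfl⟩)
  have hb : ∀ j, Module.Basis.mk hli hsp j = q (b j) := fun j => Module.Basis.mk_apply hli hsp j
  refine ⟨Module.Basis.mk hli hsp, hb, fun x j => ?_⟩
  have h1 : (Module.Basis.mk hli hsp).repr (q x) = redCoord ε b x := by
    rw [← (Module.Basis.mk hli hsp).repr_linearCombination (redCoord ε b x)]
    congr 1
    rw [← sum_redCoord ε b q hq x, Finsupp.linearCombination_apply]
    exact Finset.sum_congr rfl fun j _ => by dsimp only; rw [hb]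
  rw [h1, redCoord_apply]

end Basis

/-! ### The map `theta` -/

section Theta

variable {k : Type u₆} [Field k] {A : Type u₁} [Ring A] {ε : A →+* k}
  {B : Type u₂} [Ring B] {A' : Type u₃} [CommRing A'] [Algebra k A']
  {M : Type u₄} [AddCommGroup M] [Module A M] {N : Type u₅} [AddCommGroup N] [Module B N]
  {V : Type*} [AddCommGroup V] [Module k V]
  {J : Type*} (b : Module.Basis J A M) (b' : Module.Basis J B N)

theorem addHom_ext_basis {G : Type*} [AddCommMonoid G] {f g : N →+ G}
    (h : ∀ (c : B) (j : J), f (c • b' j) = g (c • b' j)) : f = g := by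
  ext x
  rw [← b'.linearCombination_repr x, Finsupp.linearCombination_apply, Finsupp.sum, map_sum,
    map_sum]
  exact Finset.sum_congr rfl fun j _ => h _ j

variable (q : M →+ V) (φ : B →+* A')

/-- `∑ c_j b'_j ↦ ∑ φ(c_j) ⊗ q b_j` -/
def thetaA : N →+ A' ⊗[k] V :=
  (Finsupp.liftAddHom (fun j =>
    ((TensorProduct.mk k A' V).flip (q (b j))).toAddMonoidHom.comp
      (φ : B →+ A'))).comp b'.repr.toAddMonoidHom

theorem thetaA_smul_basis (c : B) (j : J) :
    thetaA (k := k) b b' q φ (c • b' j) = φ c ⊗ₜ q (b j) := by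
  change Finsupp.liftAddHom _ (b'.repr (c • b' j)) = _
  rw [map_smul, Module.Basis.repr_self, Finsupp.smul_single, smul_eq_mul, mul_one,
    Finsupp.liftAddHom_apply_single]
  rfl

theorem thetaA_smul_push (hq : ∀ (a : A) (m : M), q (a • m) = ε a • q m) (r : A →+* B)
    (hφ : ∀ a, φ (r a) = algebraMap k A' (ε a)) (push : M →+ N)
    (hp : ∀ (a : A) (m : M), push (a • m) = r a • push m) (hb : ∀ j, push (b j) = b' j)
    (c : B) (m : M) : thetaA (k := k) b b' q φ (c • push m) = φ c ⊗ₜ q m := by
  have h1 : ((thetaA (k := k) b b' q φ).comp ((DistribSMul.toAddMonoidHom N c).comp push)) =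
      ((TensorProduct.mk k A' V) (φ c)).toAddMonoidHom.comp q := by
    refine addHom_ext_basis b ?_
    intro a j
    change thetaA (k := k) b b' q φ (c • push (a • b j)) = φ c ⊗ₜ q (a • b j)
    rw [hp, hb, smul_smul, thetaA_smul_basis, hq, map_mul, hφ, mul_comm, ← Algebra.smul_def,
      TensorProduct.smul_tmul]
  exact DFunLike.congr_fun h1 m

end Theta

end Vale.Agent.P093.N.HH
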