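import Mathlib.RingTheory.MvPolynomial.WeightedHomogeneous
import Vale.Agent.P093.N.HopfQuot
import Vale.Agent.P093.N.Co.Conil

/-!
# P093, part N: gradings on `P_*` and `P(n)_*` (block N1-P)

Degrees are half degrees: `t_i` has degree `p ^ i - 1`.
-/

open TensorProduct Finset

namespace Vale.Agent.P093.N

/-! ### The graded pieces of a tensor product -/

section TGr

variable {k A B C D : Type*} [Field k] [CommRing A] [Algebra k A] [CommRing B] [Algebra k B]
  {ι : Type*} [AddCommMonoid ι]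

/-- The part of degree `d` of a tensor product of graded modules. -/
def tgr {k A B : Type*} [CommSemiring k] [AddCommMonoid A] [Module k A] [AddCommMonoid B]
    [Module k B] {ι : Type*} [Add ι] (𝒜 : ι → Submodule k A) (ℬ : ι → Submodule k B) (d : ι) :
    Submodule k (A ⊗[k] B) :=
  Submodule.span k {z | ∃ i j a b, i + j = d ∧ a ∈ 𝒜 i ∧ b ∈ ℬ j ∧ a ⊗ₜ[k] b = z}

theorem tmul_mem_tgr {k A B : Type*} [CommSemiring k] [AddCommMonoid A] [Module k A]
    [AddCommMonoid B] [Module k B] {ι : Type*} [Add ι] {𝒜 : ι → Submodule k A}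
    {ℬ : ι → Submodule k B} {i j d : ι} (h : i + j = d) {a : A} {b : B} (ha : a ∈ 𝒜 i)
    (hb : b ∈ ℬ j) : a ⊗ₜ[k] b ∈ tgr 𝒜 ℬ d :=
  Submodule.subset_span ⟨i, j, a, b, h, ha, hb, rfl⟩

theorem mul_mem_tgr {𝒜 : ι → Submodule k A} {ℬ : ι → Submodule k B} [SetLike.GradedMonoid 𝒜]
    [SetLike.GradedMonoid ℬ] {d e : ι} {x y : A ⊗[k] B} (hx : x ∈ tgr 𝒜 ℬ d)
    (hy : y ∈ tgr 𝒜 ℬ e) : x * y ∈ tgr 𝒜 ℬ (d + e) := by
  refine Submodule.span_induction (p := fun x _ => x * y ∈ tgr 𝒜 ℬ (d + e)) ?_ ?_ ?_ ?_ hx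
  · rintro _ ⟨i, j, a, b, rfl, ha, hb, rfl⟩
    refine Submodule.span_induction
      (p := fun y _ => (a ⊗ₜ[k] b) * y ∈ tgr 𝒜 ℬ (i + j + e)) ?_ ?_ ?_ ?_ hy
    · rintro _ ⟨i', j', a', b', rfl, ha', hb', rfl⟩
      rw [Algebra.TensorProduct.tmul_mul_tmul]
      exact tmul_mem_tgr (add_add_add_comm i i' j j') (SetLike.mul_mem_graded ha ha')
        (SetLike.mul_mem_graded hb hb')
    · rw [mul_zero]; exact zero_mem _
    · intro u v _ _ hu hv
      rw [mul_add]; exact add_mem hu hv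
    · intro c u _ hu
      rw [mul_smul_comm]; exact Submodule.smul_mem _ _ hu
  · rw [zero_mul]; exact zero_mem _
  · intro u v _ _ hu hv
    rw [add_mul]; exact add_mem hu hv
  · intro c u _ hu
    rw [smul_mul_assoc]; exact Submodule.smul_mem _ _ hu

theorem one_mem_tgr {𝒜 : ι → Submodule k A} {ℬ : ι → Submodule k B} [SetLike.GradedMonoid 𝒜]
    [SetLike.GradedMonoid ℬ] : (1 : A ⊗[k] B) ∈ tgr 𝒜 ℬ 0 :=
  tmul_mem_tgr (add_zero 0) SetLike.GradedOne.one_mem SetLike.GradedOne.one_mem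

theorem pow_mem_tgr {𝒜 : ι → Submodule k A} {ℬ : ι → Submodule k B} [SetLike.GradedMonoid 𝒜]
    [SetLike.GradedMonoid ℬ] {d : ι} {x : A ⊗[k] B} (hx : x ∈ tgr 𝒜 ℬ d) (n : ℕ) :
    x ^ n ∈ tgr 𝒜 ℬ (n • d) := by
  induction n with
  | zero => rw [pow_zero, zero_smul]; exact one_mem_tgr
  | succ n ih => rw [pow_succ, succ_nsmul]; exact mul_mem_tgr ih hx

theorem map_mem_tgr {k A B C D : Type*} [CommSemiring k] [AddCommMonoid A] [Module k A]
    [AddCommMonoid B] [Module k B] [AddCommMonoid C] [Module k C] [AddCommMonoid D] [Module k D]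
    {ι : Type*} [Add ι] {𝒜 : ι → Submodule k A} {ℬ : ι → Submodule k B}
    {𝒞 : ι → Submodule k C} {𝒟 : ι → Submodule k D} {f : A →ₗ[k] C} {g : B →ₗ[k] D}
    (hf : ∀ i, ∀ a ∈ 𝒜 i, f a ∈ 𝒞 i) (hg : ∀ i, ∀ a ∈ ℬ i, g a ∈ 𝒟 i) {d : ι}
    {x : A ⊗[k] B} (hx : x ∈ tgr 𝒜 ℬ d) : TensorProduct.map f g x ∈ tgr 𝒞 𝒟 d := by
  refine Submodule.span_induction
    (p := fun x _ => TensorProduct.map f g x ∈ tgr 𝒞 𝒟 d) ?_ ?_ ?_ ?_ hx
  · rintro _ ⟨i, j, a, b, rfl, ha, hb, rfl⟩
    rw [TensorProduct.map_tmul]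
    exact tmul_mem_tgr rfl (hf i a ha) (hg j b hb)
  · rw [map_zero]; exact zero_mem _
  · intro u v _ _ hu hv
    rw [map_add]; exact add_mem hu hv
  · intro c u _ hu
    rw [map_smul]; exact Submodule.smul_mem _ _ hu

/-- A connected graded bialgebra. -/
structure GrConn {k A : Type*} [Field k] [CommRing A] [Bialgebra k A]
    (𝒜 : ℕ → Submodule k A) : Prop where
  comul : ∀ d, ∀ a ∈ 𝒜 d, Coalgebra.comul (R := k) a ∈ tgr 𝒜 𝒜 d
  zero : ∀ a ∈ 𝒜 0, a = algebraMap k A (Coalgebra.counit (R := k) a)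
  counit : ∀ d, d ≠ 0 → ∀ a ∈ 𝒜 d, Coalgebra.counit (R := k) a = 0
  exh : ⨆ d, 𝒜 d = ⊤

end TGr

section IsConn

open Co

variable {k A : Type*} [Field k] [CommRing A] [Bialgebra k A] {𝒜 : ℕ → Submodule k A}

/-- The filtration attached to a grading. -/
def grF (𝒜 : ℕ → Submodule k A) (j : ℕ) : Submodule k A := ⨆ d ∈ Finset.range j, 𝒜 d

theorem le_grF {d j : ℕ} (h : d < j) : 𝒜 d ≤ grF 𝒜 j :=
  le_iSup₂_of_le d (Finset.mem_range.2 h) le_rfl

theorem grF_mono : Monotone (grF 𝒜) := by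
  intro i j hij
  refine iSup₂_le fun d hd => ?_
  exact le_grF (lt_of_lt_of_le (Finset.mem_range.1 hd) hij)

theorem GrConn.isConn (h : GrConn 𝒜) : IsConn (grF 𝒜) where
  zero := by simp [grF]
  mono := grF_mono
  exh := by
    intro a
    have ha : a ∈ ⨆ d, 𝒜 d := by rw [h.exh]; trivial
    refine Submodule.iSup_induction (motive := fun a => ∃ j, a ∈ grF 𝒜 j) 𝒜 ha ?_ ?_ ?_
    · intro i x hx
      exact ⟨i + 1, le_grF (Nat.lt_succ_self i) hx⟩
    · exact ⟨0, zero_mem _⟩
    · rintro x y ⟨i, hi⟩ ⟨j, hj⟩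
      exact ⟨max i j, add_mem (grF_mono (le_max_left _ _) hi) (grF_mono (le_max_right _ _) hj)⟩
  comul := by
    intro j a ha
    have key : ∀ d, d ≤ j → ∀ a ∈ 𝒜 d, ∃ c : A,
        Coalgebra.comul (R := k) a - c ⊗ₜ[k] (1 : A) ∈ LinearMap.range ((grF 𝒜 j).subtype.rTensor A) := by
      intro d hd a ha
      have hz := h.comul d a ha
      generalize Coalgebra.comul (R := k) a = z at hz
      refine Submodule.span_induction (p := fun z _ => ∃ c : A,
        z - c ⊗ₜ[k] (1 : A) ∈ LinearMap.range ((grF 𝒜 j).subtype.rTensor A)) ?_ ?_ ?_ ?_ hz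
      · rintro _ ⟨i, i', x, y, rfl, hx, hy, rfl⟩
        by_cases hi : i' = 0
        · subst hi
          refine ⟨Coalgebra.counit (R := k) y • x, ?_⟩
          rw [h.zero y hy, Algebra.algebraMap_eq_smul_one, TensorProduct.tmul_smul,
            TensorProduct.smul_tmul']
          simp
        · refine ⟨0, ?_⟩
          rw [TensorProduct.zero_tmul, sub_zero]
          exact ⟨(⟨x, le_grF (by omega) hx⟩ : grF 𝒜 j) ⊗ₜ y, by simp⟩
      · exact ⟨0, by simp⟩
      · rintro u v _ _ ⟨c, hc⟩ ⟨e, he⟩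
        refine ⟨c + e, ?_⟩
        rw [TensorProduct.add_tmul, add_sub_add_comm]
        exact add_mem hc he
      · rintro r u _ ⟨c, hc⟩
        refine ⟨r • c, ?_⟩
        rw [← TensorProduct.smul_tmul', ← smul_sub]
        exact Submodule.smul_mem _ _ hc
    have ha' : a ∈ ⨆ d : {d // d ∈ Finset.range (j + 1)}, 𝒜 d := by
      rw [grF, iSup_subtype'] at ha
      exact ha
    refine Submodule.iSup_induction (motive := fun a => ∃ c : A,
      Coalgebra.comul (R := k) a - c ⊗ₜ[k] (1 : A) ∈ LinearMap.range ((grF 𝒜 j).subtype.rTensor A))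
      _ ha' ?_ ?_ ?_
    · intro i x hx
      exact key i.1 (Nat.lt_succ_iff.1 (Finset.mem_range.1 i.2)) x hx
    · exact ⟨0, by simp⟩
    · rintro u v ⟨c, hc⟩ ⟨e, he⟩
      refine ⟨c + e, ?_⟩
      rw [map_add, TensorProduct.add_tmul, add_sub_add_comm]
      exact add_mem hc he

end IsConn

/-! ### The grading of `P_*` -/

variable (p : ℕ)

/-- Half the degree of `t_{k+1}`. -/
def wt (k : ℕ) : ℕ := p ^ (k + 1) - 1

/-- The weight of an exponent. -/
noncomputable def wtE : (ℕ →₀ ℕ) →+ ℕ := Finsupp.weight (wt p)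

theorem wtE_apply (e : ℕ →₀ ℕ) : wtE p e = e.sum fun k n => n * wt p k :=
  Finsupp.weight_apply (wt p) e

theorem wtE_single (k n : ℕ) : wtE p (Finsupp.single k n) = n * wt p k := by
  rw [wtE_apply, Finsupp.sum_single_index (zero_mul _)]

theorem wtE_mono {e f : ℕ →₀ ℕ} (h : e ≤ f) : wtE p e ≤ wtE p f := by
  obtain ⟨g, rfl⟩ := exists_add_of_le h
  rw [map_add]
  exact Nat.le_add_right _ _

namespace PS

/-- The part of half degree `d` of `P_*`. -/
noncomputable def gr (d : ℕ) : Submodule (ZMod p) (PS p) :=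
  (MvPolynomial.weightedHomogeneousSubmodule (ZMod p) (wt p) d :
    Submodule (ZMod p) (MvPolynomial ℕ (ZMod p)))

noncomputable instance : GradedAlgebra (gr p) :=
  (MvPolynomial.weightedGradedAlgebra (ZMod p) (wt p) :
    GradedAlgebra (MvPolynomial.weightedHomogeneousSubmodule (ZMod p) (wt p)))

variable {p}

theorem mem_gr {d : ℕ} {x : PS p} : x ∈ gr p d ↔ ∀ e, coeff p e x ≠ 0 → wtE p e = d :=
  ⟨fun h _ he => h he, fun h e he => h e he⟩

theorem mon_mem_gr (e : ℕ →₀ ℕ) : mon p e ∈ gr p (wtE p e) := by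
  rw [mem_gr]
  intro f hf
  by_contra hne
  exact hf (coeff_mon_of_ne fun h => hne (h ▸ rfl))

theorem t_succ_mem_gr (k : ℕ) : t p (k + 1) ∈ gr p (wt p k) := by
  have h := mon_mem_gr (p := p) (Finsupp.single k 1)
  rwa [wtE_single, one_mul] at h

theorem t_mem_gr (n : ℕ) : t p n ∈ gr p (p ^ n - 1) := by
  cases n with
  | zero => exact (SetLike.GradedOne.one_mem : (1 : PS p) ∈ gr p 0)
  | succ k => exact t_succ_mem_gr k

theorem coeff_smul' (c : ZMod p) (e : ℕ →₀ ℕ) (x : PS p) : coeff p e (c • x) = c * coeff p e x :=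
  map_smul _ _ _

/-- An element is the sum of its monomials. -/
theorem eq_sum_mon (x : PS p) : ∃ s : Finset (ℕ →₀ ℕ), (∀ e ∈ s, coeff p e x ≠ 0) ∧
    x = ∑ e ∈ s, coeff p e x • mon p e := by
  refine ⟨MvPolynomial.support (x : MvPolynomial ℕ (ZMod p)),
    fun e he => MvPolynomial.mem_support_iff.1 he, ?_⟩
  have h := MvPolynomial.support_sum_monomial_coeff (x : MvPolynomial ℕ (ZMod p))
  conv_lhs => rw [← h]
  refine Finset.sum_congr rfl fun e _ => ?_
  have := (MvPolynomial.smul_monomial (R := ZMod p) (σ := ℕ) (s := e) (a := (1 : ZMod p))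
    (MvPolynomial.coeff e (x : MvPolynomial ℕ (ZMod p))))
  rw [smul_eq_mul, mul_one] at this
  exact this.symm

/-- `P_*` is spanned by the monomials of the given weights. -/
theorem gr_induction {d : ℕ} {motive : PS p → Prop} {x : PS p} (hx : x ∈ gr p d)
    (mon : ∀ e, wtE p e = d → motive (mon p e)) (zero : motive 0)
    (add : ∀ x y, motive x → motive y → motive (x + y))
    (smul : ∀ (c : ZMod p) x, motive x → motive (c • x)) : motive x := by
  obtain ⟨s, hs, h⟩ := eq_sum_mon x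
  rw [h]
  refine Finset.sum_induction _ motive add zero fun e he => ?_
  exact smul _ _ (mon e (mem_gr.1 hx e (hs e he)))

/-- Induction over exponents. -/
theorem mon_induction {motive : (ℕ →₀ ℕ) → Prop} (e : ℕ →₀ ℕ) (zero : motive 0)
    (add : ∀ e f, motive e → motive f → motive (e + f))
    (single : ∀ k n, motive (Finsupp.single k n)) : motive e :=
  Finsupp.induction_linear e zero add single

theorem mon_single (k n : ℕ) : mon p (Finsupp.single k n) = t p (k + 1) ^ n :=
  (t_pow_eq_monomial p k n).symm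

theorem mon_add (e f : ℕ →₀ ℕ) : mon p (e + f) = mon p e * mon p f := (mon_mul_mon e f).symm

section Prime

variable [hp : Fact p.Prime]

theorem wt_pos (k : ℕ) : 0 < wt p k := by
  have h : 1 < p ^ (k + 1) := Nat.one_lt_pow (Nat.succ_ne_zero k) hp.out.one_lt
  unfold wt
  omega

theorem lt_wt (k : ℕ) : k < wt p k := by
  have h : k + 1 < p ^ (k + 1) := Nat.lt_pow_self hp.out.one_lt
  unfold wt
  omega

omit hp in
theorem le_wtE (e : ℕ →₀ ℕ) (k : ℕ) : e k * wt p k ≤ wtE p e := by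
  have h : Finsupp.single k (e k) ≤ e := by
    intro j
    by_cases hj : j = k
    · subst hj; rw [Finsupp.single_eq_same]
    · rw [Finsupp.single_eq_of_ne hj]; exact Nat.zero_le _
  have := wtE_mono p h
  rwa [wtE_single] at this

theorem eq_zero_of_wtE {e : ℕ →₀ ℕ} (h : wtE p e = 0) : e = 0 := by
  ext k
  have h1 := le_wtE (p := p) e k
  rw [h] at h1
  have h2 := wt_pos (p := p) k
  rcases Nat.eq_zero_or_pos (e k) with h3 | h3
  · exact h3
  · have := Nat.mul_pos h3 h2
    omega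

theorem finite_wtE (d : ℕ) : {e : ℕ →₀ ℕ | wtE p e = d}.Finite := by
  classical
  let b : ℕ →₀ ℕ := Finsupp.onFinset (Finset.range (d + 1)) (fun k => if k ≤ d then d else 0)
    (by intro k hk; by_contra h; simp only [Finset.mem_range] at h; exact hk (if_neg (by omega)))
  refine (Set.finite_Iic b).subset fun e he => ?_
  intro k
  have h1 := le_wtE (p := p) e k
  rw [Set.mem_ofPred_eq] at he
  rw [he] at h1
  have h2 := lt_wt (p := p) k
  show e k ≤ if k ≤ d then d else 0
  split_ifs with hk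
  · calc e k = e k * 1 := (mul_one _).symm
      _ ≤ e k * wt p k := Nat.mul_le_mul_left _ (by omega)
      _ ≤ d := h1
  · by_contra h3
    have h4 : 1 * wt p k ≤ e k * wt p k := Nat.mul_le_mul_right _ (by omega)
    omega

/-- The graded pieces of `P_*` are finite-dimensional. -/
theorem finite_gr (d : ℕ) : Module.Finite (ZMod p) (gr p d) := by
  have h : gr p d ≤ Submodule.span (ZMod p) (mon p '' {e | wtE p e = d}) := by
    intro x hx
    refine gr_induction hx ?_ (zero_mem _) (fun x y hx hy => add_mem hx hy)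
      (fun c x hx => Submodule.smul_mem _ c hx)
    intro e he
    exact Submodule.subset_span ⟨e, he, rfl⟩
  have h2 : Module.Finite (ZMod p) (Submodule.span (ZMod p) (mon p '' {e | wtE p e = d})) :=
    Module.Finite.span_of_finite (ZMod p) ((finite_wtE d).image _)
  exact Submodule.finiteDimensional_of_le h

theorem comul_t_mem (n : ℕ) :
    Coalgebra.comul (R := ZMod p) (t p n) ∈ tgr (gr p) (gr p) (p ^ n - 1) := by
  rw [comul_t]
  refine Submodule.sum_mem _ fun ij hij => ?_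
  rw [Finset.HasAntidiagonal.mem_antidiagonal] at hij
  have h1 : t p ij.1 ^ p ^ ij.2 ∈ gr p (p ^ ij.2 • (p ^ ij.1 - 1)) :=
    SetLike.pow_mem_graded _ (t_mem_gr ij.1)
  refine tmul_mem_tgr ?_ h1 (t_mem_gr ij.2)
  rw [smul_eq_mul, ← hij, pow_add, Nat.mul_sub, mul_one, mul_comm (p ^ ij.1)]
  have h2 : 0 < p ^ ij.2 := pow_pos hp.out.pos _
  have h3 : 0 < p ^ ij.1 := pow_pos hp.out.pos _
  have h4 : p ^ ij.2 ≤ p ^ ij.2 * p ^ ij.1 := Nat.le_mul_of_pos_right _ h3
  omega

theorem comul_mon_mem (e : ℕ →₀ ℕ) :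
    Coalgebra.comul (R := ZMod p) (mon p e) ∈ tgr (gr p) (gr p) (wtE p e) := by
  refine mon_induction (motive := fun e => Coalgebra.comul (R := ZMod p) (mon p e) ∈
    tgr (gr p) (gr p) (wtE p e)) e ?_ ?_ ?_
  · rw [mon_zero, Bialgebra.comul_one, map_zero]
    exact one_mem_tgr
  · intro e f he hf
    rw [mon_add, Bialgebra.comul_mul, map_add]
    exact mul_mem_tgr he hf
  · intro k n
    rw [mon_single, Bialgebra.comul_pow, wtE_single]
    exact pow_mem_tgr (comul_t_mem (k + 1)) n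

theorem comul_mem {d : ℕ} {x : PS p} (hx : x ∈ gr p d) :
    Coalgebra.comul (R := ZMod p) x ∈ tgr (gr p) (gr p) d := by
  refine gr_induction (motive := fun x => Coalgebra.comul (R := ZMod p) x ∈
    tgr (gr p) (gr p) d) hx ?_ ?_ ?_ ?_
  · rintro e rfl
    exact comul_mon_mem e
  · rw [map_zero]; exact zero_mem _
  · intro x y hx hy
    rw [map_add]; exact add_mem hx hy
  · intro c x hx
    rw [map_smul]; exact Submodule.smul_mem _ _ hx

theorem counit_mon {e : ℕ →₀ ℕ} (he : e ≠ 0) : Coalgebra.counit (R := ZMod p) (mon p e) = 0 := by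
  obtain ⟨k, hk⟩ := Finsupp.ne_iff.1 he
  have h : Finsupp.single k 1 ≤ e := by
    intro j
    by_cases hj : j = k
    · subst hj; rw [Finsupp.single_eq_same]; exact Nat.one_le_iff_ne_zero.2 hk
    · rw [Finsupp.single_eq_of_ne hj]; exact Nat.zero_le _
  obtain ⟨g, rfl⟩ := exists_add_of_le h
  rw [mon_add, mon_single, Bialgebra.counit_mul, pow_one, counit_t_succ, zero_mul]

variable (p)

/-- `P_*` is a connected graded bialgebra. -/
theorem grConn : GrConn (gr p) where
  comul := fun _ _ ha => comul_mem ha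
  zero := by
    intro a ha
    refine gr_induction (motive := fun a => a = algebraMap (ZMod p) (PS p)
      (Coalgebra.counit (R := ZMod p) a)) ha ?_ ?_ ?_ ?_
    · intro e he
      rw [eq_zero_of_wtE he, mon_zero, Bialgebra.counit_one, map_one]
    · rw [map_zero, map_zero]
    · intro x y hx hy
      rw [map_add, map_add, ← hx, ← hy]
    · intro c x hx
      rw [map_smul, smul_eq_mul, map_mul, ← hx, Algebra.smul_def]
  counit := by
    intro d hd a ha
    refine gr_induction (motive := fun a => Coalgebra.counit (R := ZMod p) a = 0) ha ?_ ?_ ?_ ?_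
    · rintro e rfl
      exact counit_mon fun h => hd (by rw [h, map_zero])
    · rw [map_zero]
    · intro x y hx hy
      rw [map_add, hx, hy, add_zero]
    · intro c x hx
      rw [map_smul, hx, smul_zero]
  exh := by
    rw [eq_top_iff]
    intro x _
    obtain ⟨s, _, h⟩ := eq_sum_mon x
    rw [h]
    refine Submodule.sum_mem _ fun e _ => Submodule.smul_mem _ _ ?_
    exact Submodule.mem_iSup_of_mem _ (mon_mem_gr e)

end Prime

end PS

/-! ### The grading of `Pn p m` -/

namespace Pn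

variable (m : ℕ) [hp : Fact p.Prime]

/-- The quotient map as an algebra homomorphism. -/
noncomputable def mkAlg : PS p →ₐ[ZMod p] Pn p m := Ideal.Quotient.mkₐ (ZMod p) (In p m)

theorem mk_apply (x : PS p) : mk p m x = mkAlg p m x := rfl

theorem mkAlg_surjective : Function.Surjective (mkAlg p m) := Ideal.Quotient.mk_surjective

variable {p m}

theorem mkAlg_eq_zero {x : PS p} : mkAlg p m x = 0 ↔ x ∈ In p m := Ideal.Quotient.eq_zero_iff_mem

theorem comul_mkAlg (x : PS p) : Coalgebra.comul (R := ZMod p) (mkAlg p m x) =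
    TensorProduct.map (mkAlg p m).toLinearMap (mkAlg p m).toLinearMap
      (Coalgebra.comul (R := ZMod p) x) := rfl

theorem counit_mkAlg (x : PS p) : Coalgebra.counit (R := ZMod p) (mkAlg p m x) =
    Coalgebra.counit (R := ZMod p) x := rfl

theorem antipode_mkAlg (x : PS p) : HopfAlgebra.antipode (ZMod p) (mkAlg p m x) =
    mkAlg p m (HopfAlgebra.antipode (ZMod p) x) := rfl

variable (p m)

/-- The part of half degree `d` of `Pn p m`. -/
noncomputable def gr (d : ℕ) : Submodule (ZMod p) (Pn p m) :=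
  (PS.gr p d).map (mkAlg p m).toLinearMap

variable {p m}

theorem mem_gr {d : ℕ} {x : Pn p m} : x ∈ gr p m d ↔ ∃ y ∈ PS.gr p d, mkAlg p m y = x :=
  Submodule.mem_map

theorem mk_mem_gr {d : ℕ} {x : PS p} (h : x ∈ PS.gr p d) : mkAlg p m x ∈ gr p m d :=
  Submodule.mem_map_of_mem h

instance gradedMonoid : SetLike.GradedMonoid (gr p m) where
  one_mem := by
    have h := mk_mem_gr (m := m) (SetLike.GradedOne.one_mem : (1 : PS p) ∈ PS.gr p 0)
    rwa [map_one] at h
  mul_mem := by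
    rintro i j _ _ ⟨x, hx, rfl⟩ ⟨y, hy, rfl⟩
    have h := mk_mem_gr (m := m) (SetLike.mul_mem_graded hx hy)
    rwa [map_mul] at h

theorem t_succ_mem_gr (k : ℕ) : mkAlg p m (PS.t p (k + 1)) ∈ gr p m (wt p k) :=
  mk_mem_gr (PS.t_succ_mem_gr k)

variable (p m)

/-- The decomposition map on `PS`. -/
noncomputable def dec0 : PS p →ₐ[ZMod p] DirectSum ℕ fun i => ↥(gr p m i) :=
  PS.lift fun k => DirectSum.of (fun i => ↥(gr p m i)) (wt p k) ⟨_, t_succ_mem_gr k⟩

variable {p m}

/-- `dec0` takes the homogeneous value on `y`. -/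
def IsDec (y : PS p) (i : ℕ) : Prop :=
  ∃ h : mkAlg p m y ∈ gr p m i, dec0 p m y = DirectSum.of (fun i => ↥(gr p m i)) i ⟨_, h⟩

theorem IsDec.mul {y z : PS p} {i j : ℕ} (hy : IsDec (m := m) y i) (hz : IsDec (m := m) z j) :
    IsDec (m := m) (y * z) (i + j) := by
  obtain ⟨h1, e1⟩ := hy
  obtain ⟨h2, e2⟩ := hz
  refine ⟨by rw [map_mul]; exact SetLike.mul_mem_graded h1 h2, ?_⟩
  refine (map_mul (dec0 p m) y z).trans ?_
  rw [e1, e2, DirectSum.of_mul_of]
  congr 1

theorem IsDec.one : IsDec (m := m) (1 : PS p) 0 := by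
  refine ⟨by rw [map_one]; exact SetLike.GradedOne.one_mem, (map_one (dec0 p m)).trans ?_⟩
  rw [DirectSum.one_def]
  congr 1

theorem IsDec.pow {y : PS p} {i : ℕ} (hy : IsDec (m := m) y i) (n : ℕ) :
    IsDec (m := m) (y ^ n) (n * i) := by
  induction n with
  | zero => rw [pow_zero, zero_mul]; exact IsDec.one
  | succ n ih => rw [pow_succ, Nat.succ_mul]; exact ih.mul hy

theorem isDec_mon (e : ℕ →₀ ℕ) : IsDec (m := m) (PS.mon p e) (wtE p e) := by
  refine PS.mon_induction (motive := fun e => IsDec (m := m) (PS.mon p e) (wtE p e)) e ?_ ?_ ?_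
  · rw [PS.mon_zero, map_zero]
    exact IsDec.one
  · intro e f he hf
    rw [PS.mon_add, map_add]
    exact he.mul hf
  · intro k n
    rw [PS.mon_single, wtE_single]
    exact IsDec.pow ⟨_, PS.lift_t_succ _ k⟩ n

theorem isDec_of_mem {d : ℕ} {y : PS p} (hy : y ∈ PS.gr p d) : IsDec (m := m) y d := by
  refine PS.gr_induction (motive := fun y => IsDec (m := m) y d) hy ?_ ?_ ?_ ?_
  · rintro e rfl
    exact isDec_mon e
  · refine ⟨by rw [map_zero]; exact zero_mem _, (map_zero (dec0 p m)).trans ?_⟩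
    rw [← map_zero (DirectSum.of (fun i => ↥(gr p m i)) d)]
    congr 1
  · rintro x y ⟨h1, e1⟩ ⟨h2, e2⟩
    refine ⟨by rw [map_add]; exact add_mem h1 h2, (map_add (dec0 p m) x y).trans ?_⟩
    rw [e1, e2, ← map_add]
    congr 1
  · rintro c x ⟨h1, e1⟩
    refine ⟨by rw [map_smul]; exact Submodule.smul_mem _ _ h1, (map_smul (dec0 p m) c x).trans ?_⟩
    rw [e1]
    have h3 : DirectSum.lof (ZMod p) ℕ (fun i => ↥(gr p m i)) d (c • ⟨_, h1⟩) =
        c • DirectSum.lof (ZMod p) ℕ (fun i => ↥(gr p m i)) d ⟨_, h1⟩ := map_smul _ _ _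
    exact h3.symm

theorem dec0_In (x : PS p) (hx : x ∈ In p m) : dec0 p m x = 0 := by
  have h : In p m ≤ RingHom.ker (dec0 p m) := by
    refine Ideal.span_le.2 ?_
    rintro _ ⟨k, rfl⟩
    show dec0 p m (PS.t p (k + 1) ^ p ^ (m - k)) = 0
    obtain ⟨h1, e1⟩ := IsDec.pow (isDec_of_mem (m := m) (PS.t_succ_mem_gr (p := p) k))
      (p ^ (m - k))
    rw [e1]
    rw [← map_zero (DirectSum.of (fun i => ↥(gr p m i)) (p ^ (m - k) * wt p k))]
    congr 1
    exact Subtype.ext (mkAlg_eq_zero.2 (Ideal.subset_span ⟨k, rfl⟩))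
  exact h hx

variable (p m)

/-- The decomposition map. -/
noncomputable def dec : Pn p m →ₐ[ZMod p] DirectSum ℕ fun i => ↥(gr p m i) :=
  Ideal.Quotient.liftₐ (In p m) (dec0 p m) dec0_In

theorem dec_mk (x : PS p) : dec p m (mkAlg p m x) = dec0 p m x := rfl

noncomputable instance : GradedAlgebra (gr p m) :=
  GradedAlgebra.ofAlgHom (gr p m) (dec p m)
    (by
      refine Ideal.Quotient.algHom_ext (ZMod p) ?_
      refine PS.algHom_ext fun k => ?_
      show DirectSum.coeAlgHom (gr p m) (dec0 p m (PS.t p (k + 1))) = mkAlg p m (PS.t p (k + 1))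
      obtain ⟨h1, e1⟩ := isDec_of_mem (m := m) (PS.t_succ_mem_gr (p := p) k)
      rw [e1, DirectSum.coeAlgHom_of])
    (by
      rintro i ⟨x, hx⟩
      obtain ⟨y, hy, rfl⟩ := hx
      obtain ⟨h1, e1⟩ := isDec_of_mem (m := m) hy
      exact e1)

/-- `Pn p m` is a connected graded bialgebra. -/
theorem grConn : GrConn (gr p m) where
  comul := by
    rintro d _ ⟨x, hx, rfl⟩
    exact map_mem_tgr (fun i a ha => mk_mem_gr ha) (fun i a ha => mk_mem_gr ha)
      ((PS.grConn p).comul d x hx)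
  zero := by
    rintro _ ⟨x, hx, rfl⟩
    show mkAlg p m x = algebraMap (ZMod p) (Pn p m) (Coalgebra.counit (R := ZMod p) x)
    conv_lhs => rw [(PS.grConn p).zero x hx]
    exact (mkAlg p m).commutes _
  counit := by
    rintro d hd _ ⟨x, hx, rfl⟩
    exact (PS.grConn p).counit d hd x hx
  exh := by
    have h1 : Submodule.map (mkAlg p m).toLinearMap (⨆ d, PS.gr p d) = ⨆ d, gr p m d :=
      Submodule.map_iSup _ _
    rw [← h1, (PS.grConn p).exh, Submodule.map_top, LinearMap.range_eq_top]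
    exact mkAlg_surjective p m

/-- `Pn p m` is connected in the sense of `Co.IsConn`. -/
theorem isConn : Co.IsConn (grF (gr p m)) := (grConn p m).isConn

/-! ### The quotient map is bijective in low degrees -/

variable {p m}

theorem le_wtE_of_rel {e : ℕ →₀ ℕ} {k : ℕ} (h : p ^ (m - k) ≤ e k) :
    (p - 1) * p ^ m ≤ wtE p e := by
  refine le_trans ?_ (PS.le_wtE e k)
  refine le_trans ?_ (Nat.mul_le_mul_right _ h)
  unfold wt
  rw [Nat.mul_sub, mul_one, Nat.sub_mul, one_mul, ← pow_add, ← pow_succ']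
  by_cases hk : k ≤ m
  · have h1 : m - k + (k + 1) = m + 1 := by omega
    rw [h1]
    exact Nat.sub_le_sub_left (Nat.pow_le_pow_right hp.out.pos (Nat.sub_le m k)) _
  · have h1 : m - k = 0 := by omega
    rw [h1, zero_add, pow_zero]
    have h2 : p ^ (m + 1) ≤ p ^ (k + 1) := Nat.pow_le_pow_right hp.out.pos (by omega)
    have h3 : 0 < p ^ m := pow_pos hp.out.pos _
    omega

/-- The quotient map is injective in half degrees below `(p - 1) p ^ m`. -/
theorem eq_zero_of_mkAlg {d : ℕ} (hd : d < (p - 1) * p ^ m) {x : PS p} (hx : x ∈ PS.gr p d)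
    (h : mkAlg p m x = 0) : x = 0 := by
  refine PS.coeff_ext fun e => ?_
  rw [map_zero]
  by_contra he
  obtain ⟨k, hk⟩ := mem_In.1 (mkAlg_eq_zero.1 h) e he
  have h1 := le_wtE_of_rel hk
  have h2 := PS.mem_gr.1 hx e he
  omega

theorem injOn_mkAlg {d : ℕ} (hd : d < (p - 1) * p ^ m) :
    Set.InjOn (mkAlg p m) (PS.gr p d : Set (PS p)) := by
  intro x hx y hy hxy
  have h := eq_zero_of_mkAlg hd (sub_mem hx hy) (by rw [map_sub, hxy, sub_self])
  exact sub_eq_zero.1 h

/-! ### The top degree and the integral -/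

variable (p m)

/-- The exponent of the top monomial. -/
noncomputable def topE : ℕ →₀ ℕ :=
  Finsupp.onFinset (Finset.range m) (fun k => p ^ (m - k) - 1)
    (by
      intro k hk
      by_contra h
      rw [Finset.mem_range, not_lt] at h
      exact hk (by rw [Nat.sub_eq_zero_of_le h, pow_zero, Nat.sub_self]))

omit hp in
theorem topE_apply (k : ℕ) : topE p m k = p ^ (m - k) - 1 := rfl

/-- The top half degree. -/
noncomputable def topDeg : ℕ := wtE p (topE p m)

omit hp in
theorem topDeg_eq : topDeg p m = ∑ k ∈ Finset.range m, (p ^ (m - k) - 1) * (p ^ (k + 1) - 1) := by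
  rw [topDeg, wtE_apply, topE, Finsupp.onFinset_sum]
  · rfl
  · intro k
    exact zero_mul _

variable {p m}

theorem not_le_topE {e : ℕ →₀ ℕ} : ¬ e ≤ topE p m ↔ ∃ k, p ^ (m - k) ≤ e k := by
  rw [Finsupp.le_def, not_forall]
  refine exists_congr fun k => ?_
  have h : 0 < p ^ (m - k) := pow_pos hp.out.pos _
  rw [topE_apply]
  omega

theorem mem_In_iff {x : PS p} : x ∈ In p m ↔ ∀ e ≤ topE p m, PS.coeff p e x = 0 := by
  rw [mem_In]
  constructor
  · intro h e he
    by_contra hne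
    exact not_le_topE.2 (h e hne) he
  · intro h e he
    exact not_le_topE.1 fun hle => he (h e hle)

/-- `Pn p m` vanishes above the top degree. -/
theorem eq_zero_of_topDeg_lt {d : ℕ} (hd : topDeg p m < d) {x : Pn p m} (hx : x ∈ gr p m d) :
    x = 0 := by
  obtain ⟨y, hy, rfl⟩ := hx
  refine mkAlg_eq_zero.2 (mem_In_iff.2 fun e he => ?_)
  by_contra hne
  have h1 := PS.mem_gr.1 hy e hne
  have h2 := wtE_mono p he
  rw [h1] at h2
  exact absurd hd (not_lt.2 h2)

theorem gr_eq_bot {d : ℕ} (hd : topDeg p m < d) : gr p m d = ⊥ := by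
  rw [eq_bot_iff]
  intro x hx
  exact eq_zero_of_topDeg_lt hd hx

variable (p m)

/-- The coefficient functionals on `Pn p m`. -/
noncomputable def coeff (e : ℕ →₀ ℕ) (he : e ≤ topE p m) : Pn p m →ₗ[ZMod p] ZMod p :=
  Submodule.liftQ ((In p m).restrictScalars (ZMod p)) (PS.coeff p e)
    (fun _ hx => mem_In_iff.1 hx e he)

theorem coeff_mkAlg (e : ℕ →₀ ℕ) (he : e ≤ topE p m) (x : PS p) :
    coeff p m e he (mkAlg p m x) = PS.coeff p e x := rfl

/-- The integral: the coefficient of the top monomial. -/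
noncomputable def lam : Pn p m →ₗ[ZMod p] ZMod p := coeff p m (topE p m) le_rfl

/-- The top monomial. -/
noncomputable def top : PS p := PS.mon p (topE p m)

omit hp in
theorem top_mem : top p m ∈ PS.gr p (topDeg p m) := PS.mon_mem_gr _

theorem lam_mkAlg (x : PS p) : lam p m (mkAlg p m x) = PS.coeff p (topE p m) x := rfl

@[simp] theorem lam_top : lam p m (mkAlg p m (top p m)) = 1 := PS.coeff_mon_self _

variable {p m}

theorem lam_eq_zero {d : ℕ} (hd : d ≠ topDeg p m) {x : Pn p m} (hx : x ∈ gr p m d) :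
    lam p m x = 0 := by
  obtain ⟨y, hy, rfl⟩ := hx
  by_contra hne
  exact hd (PS.mem_gr.1 hy _ hne).symm

instance : Module.Finite (ZMod p) (Pn p m) := by
  let Φ : Pn p m →ₗ[ZMod p] (Finset.Iic (topE p m) → ZMod p) :=
    LinearMap.pi fun e => coeff p m e.1 (Finset.mem_Iic.1 e.2)
  refine Module.Finite.of_injective Φ ?_
  rw [injective_iff_map_eq_zero]
  intro x hx
  obtain ⟨y, rfl⟩ := mkAlg_surjective p m x
  exact mkAlg_eq_zero.2 (mem_In_iff.2 fun e he => congrFun hx ⟨e, Finset.mem_Iic.2 he⟩)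

instance : Nontrivial (Pn p m) :=
  ⟨⟨mkAlg p m (top p m), 0, fun h => by
    have := lam_top p m
    rw [h, map_zero] at this
    exact one_ne_zero this.symm⟩⟩

end Pn

end Vale.Agent.P093.N
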