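import Vale.Agent.P093.N.HopfGr

/-!
# P093, part N: integrals and total integrals (block N1-P)

Let `A` be a Hopf algebra over a field `k` and `lam : A → k` a functional with
`(lam ⊗ 1) Δ a = lam a • 1`. For every left `A`-comodule `(M, ρ)` and `b ∈ M` the map
`a ↦ (lam ⊗ 1) ((S a ⊗ 1) ρ b)` is colinear and sends `1` to `(lam ⊗ 1) (ρ b)`.
-/

open TensorProduct Coalgebra

set_option linter.unusedSectionVars false

namespace Vale.Agent.P093.N

open Co

section Integral

variable {k A M : Type*} [Field k] [CommRing A] [HopfAlgebra k A] [AddCommGroup M] [Module k M]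

/-- `lam` is a (left) integral. -/
def IsInt (lam : A →ₗ[k] k) : Prop := ∀ a, ctr A lam (comul (R := k) a) = lam a • (1 : A)

/-- `(a, x) ↦ (lam ⊗ 1) ((a ⊗ 1) x)` for `x ∈ A ⊗ M`. -/
noncomputable def lmul (M : Type*) [AddCommGroup M] [Module k M] (lam : A →ₗ[k] k) :
    A →ₗ[k] A ⊗[k] M →ₗ[k] M :=
  LinearMap.mk₂ k (fun a x => ctr M (lam ∘ₗ LinearMap.mulLeft k a) x)
    (by
      intro a b x
      induction x with
      | zero => simp
      | add x y hx hy => simp only [map_add, hx, hy]; abel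
      | tmul c m => simp [add_mul, add_smul])
    (by
      intro r a x
      induction x with
      | zero => simp
      | add x y hx hy => simp only [map_add, hx, hy, smul_add]
      | tmul c m => simp [mul_smul])
    (by intro a x y; rw [map_add])
    (by intro r a x; rw [map_smul])

@[simp] theorem lmul_tmul (lam : A →ₗ[k] k) (a c : A) (m : M) :
    lmul M lam a (c ⊗ₜ m) = lam (a * c) • m := by
  simp [lmul]

/-- The map `a ↦ (lam ⊗ 1) ((S a ⊗ 1) ρ b)`. -/
noncomputable def totInt (lam : A →ₗ[k] k) (ρ : M →ₗ[k] A ⊗[k] M) (b : M) : A →ₗ[k] M :=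
  (lmul M lam).flip (ρ b) ∘ₗ HopfAlgebra.antipode k

theorem totInt_apply (lam : A →ₗ[k] k) (ρ : M →ₗ[k] A ⊗[k] M) (b : M) (a : A) :
    totInt lam ρ b a = lmul M lam (HopfAlgebra.antipode k a) (ρ b) := rfl

theorem totInt_one (lam : A →ₗ[k] k) (ρ : M →ₗ[k] A ⊗[k] M) (b : M) :
    totInt lam ρ b 1 = ctr M lam (ρ b) := by
  rw [totInt_apply, HopfAlgebra.antipode_one]
  generalize ρ b = x
  induction x with
  | zero => simp
  | add x y hx hy => simp only [map_add, hx, hy]
  | tmul c m => simp

/-- `x ⊗ y ↦ Δ x · (1 ⊗ S y c)`. -/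
noncomputable def L1 (c : A) : A ⊗[k] A →ₗ[k] A ⊗[k] A :=
  (LinearMap.mulRight k c ∘ₗ LinearMap.mul' k A ∘ₗ (HopfAlgebra.antipode k).lTensor A).lTensor A ∘ₗ
    (TensorProduct.assoc k A A A).toLinearMap ∘ₗ (comul (R := k)).rTensor A

theorem L1_tmul (c x y : A) : L1 (k := k) c (x ⊗ₜ y) =
    comul (R := k) x * ((1 : A) ⊗ₜ[k] (HopfAlgebra.antipode k y * c)) := by
  unfold L1
  simp only [LinearMap.comp_apply, LinearEquiv.coe_coe, LinearMap.rTensor_tmul]
  generalize comul (R := k) x = z
  induction z with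
  | zero => simp
  | add u v hu hv => rw [add_tmul, map_add, map_add, hu, hv, add_mul]
  | tmul u v => simp [mul_assoc]

theorem L1_comul (c a : A) : L1 c (comul (R := k) a) = a ⊗ₜ[k] c := by
  unfold L1
  simp only [LinearMap.comp_apply, LinearEquiv.coe_coe]
  rw [Coalgebra.coassoc_apply, ← LinearMap.comp_apply, ← LinearMap.lTensor_comp]
  have h1 : (LinearMap.mulRight k c ∘ₗ LinearMap.mul' k A ∘ₗ
      (HopfAlgebra.antipode k).lTensor A) ∘ₗ comul (R := k) =
      LinearMap.mulRight k c ∘ₗ Algebra.linearMap k A ∘ₗ counit (R := k) := by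
    rw [LinearMap.comp_assoc, LinearMap.comp_assoc, HopfAlgebra.mul_antipode_lTensor_comul]
  rw [h1, LinearMap.lTensor_comp, LinearMap.lTensor_comp, LinearMap.comp_apply,
    LinearMap.comp_apply, Coalgebra.lTensor_counit_comul]
  simp

/-- `x ⊗ y ↦ (lam ⊗ 1) ((S x ⊗ 1) Δ y)`. -/
noncomputable def G1 (lam : A →ₗ[k] k) : A ⊗[k] A →ₗ[k] A :=
  TensorProduct.lift ((lmul A lam).compl₁₂ (HopfAlgebra.antipode k) (comul (R := k)))

theorem G1_tmul (lam : A →ₗ[k] k) (x y : A) :
    G1 lam (x ⊗ₜ y) = lmul A lam (HopfAlgebra.antipode k x) (comul (R := k) y) := by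
  simp [G1]

/-- `x ⊗ (y ⊗ w) ↦ (lam ⊗ 1) ((S x ⊗ 1) (y ⊗ w) z)`. -/
noncomputable def L2 (lam : A →ₗ[k] k) (z : A ⊗[k] A) : A ⊗[k] (A ⊗[k] A) →ₗ[k] A :=
  TensorProduct.lift ((lmul A lam).compl₁₂ (HopfAlgebra.antipode k) (LinearMap.mulRight k z))

theorem L2_tmul (lam : A →ₗ[k] k) (z : A ⊗[k] A) (x : A) (y : A ⊗[k] A) :
    L2 lam z (x ⊗ₜ y) = lmul A lam (HopfAlgebra.antipode k x) (y * z) := by
  simp [L2]

theorem lmul_mul (lam : A →ₗ[k] k) (a y w : A) (z : A ⊗[k] A) :
    lmul A lam a ((y ⊗ₜ w) * z) = w * lmul A lam (a * y) z := by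
  induction z with
  | zero => simp
  | add u v hu hv => rw [mul_add, map_add, map_add, hu, hv, mul_add]
  | tmul u v => simp [mul_assoc]

theorem L2_assoc (lam : A →ₗ[k] k) (z : A ⊗[k] A) (u : A ⊗[k] A) (w : A) :
    L2 lam z (TensorProduct.assoc k A A A (u ⊗ₜ w)) =
      w * lmul A lam (LinearMap.mul' k A ((HopfAlgebra.antipode k).rTensor A u)) z := by
  induction u with
  | zero => simp
  | add u v hu hv =>
    rw [add_tmul, map_add, map_add, hu, hv, map_add, map_add, map_add, LinearMap.add_apply,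
      mul_add]
  | tmul x y => rw [TensorProduct.assoc_tmul, L2_tmul, lmul_mul]; simp

theorem lmul_algebraMap (lam : A →ₗ[k] k) (r : k) (z : A ⊗[k] A) :
    lmul A lam (algebraMap k A r) z = r • ctr A lam z := by
  induction z with
  | zero => simp
  | add u v hu hv => rw [map_add, hu, hv, map_add, smul_add]
  | tmul u v => simp [Algebra.algebraMap_eq_smul_one]

theorem G1_comul (lam : A →ₗ[k] k) (hlam : IsInt lam) (x y : A) :
    G1 lam (comul (R := k) x * ((1 : A) ⊗ₜ[k] y)) = lam y • x := by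
  have h1 : ∀ u : A ⊗[k] A, G1 lam (u * ((1 : A) ⊗ₜ[k] y)) =
      L2 lam (comul (R := k) y) ((comul (R := k)).lTensor A u) := by
    intro u
    induction u with
    | zero => simp
    | add u v hu hv => rw [add_mul, map_add, map_add, map_add, hu, hv]
    | tmul a b =>
      rw [Algebra.TensorProduct.tmul_mul_tmul, mul_one, G1_tmul, LinearMap.lTensor_tmul, L2_tmul,
        Bialgebra.comul_mul]
  have h2 : ∀ u : A ⊗[k] A, L2 lam (comul (R := k) y)
      (TensorProduct.assoc k A A A ((comul (R := k)).rTensor A u)) =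
      lam y • TensorProduct.lid k A ((counit (R := k)).rTensor A u) := by
    intro u
    induction u with
    | zero => simp
    | add u v hu hv => simp only [map_add, hu, hv, smul_add]
    | tmul a b =>
      rw [LinearMap.rTensor_tmul, L2_assoc, HopfAlgebra.mul_antipode_rTensor_comul_apply,
        lmul_algebraMap, hlam y, LinearMap.rTensor_tmul, TensorProduct.lid_tmul]
      simp [smul_smul, mul_comm]
  rw [h1, ← Coalgebra.coassoc_apply, h2, Coalgebra.rTensor_counit_comul]
  simp

/-- `(1 ⊗ lam (S (-) c)) Δ a = (lam ⊗ 1) ((S a ⊗ 1) Δ c)`. -/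
theorem key_int (lam : A →ₗ[k] k) (hlam : IsInt lam) (a c : A) :
    TensorProduct.rid k A ((lam ∘ₗ LinearMap.mulRight k c ∘ₗ HopfAlgebra.antipode k).lTensor A
      (comul (R := k) a)) = lmul A lam (HopfAlgebra.antipode k a) (comul (R := k) c) := by
  have h : ∀ z : A ⊗[k] A, G1 lam (L1 c z) = TensorProduct.rid k A
      ((lam ∘ₗ LinearMap.mulRight k c ∘ₗ HopfAlgebra.antipode k).lTensor A z) := by
    intro z
    induction z with
    | zero => simp
    | add u v hu hv => simp only [map_add, hu, hv]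
    | tmul x y => rw [L1_tmul, G1_comul lam hlam]; simp
  rw [← h, L1_comul, G1_tmul]

theorem lmul_lTensor {N : Type*} [AddCommGroup N] [Module k N] (lam : A →ₗ[k] k) (a : A)
    (g : M →ₗ[k] N) (x : A ⊗[k] M) : lmul N lam a (g.lTensor A x) = g (lmul M lam a x) := by
  induction x with
  | zero => simp
  | add u v hu hv => simp only [map_add, hu, hv]
  | tmul c m => simp

/-- The map `totInt lam ρ b : A → M` is colinear. -/
theorem colin_totInt {lam : A →ₗ[k] k} (hlam : IsInt lam) {ρ : M →ₗ[k] A ⊗[k] M}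
    (hρ : IsCoact ρ) (b : M) : Colin (comul (R := k) (A := A)) ρ (totInt lam ρ b) := by
  unfold Colin
  refine LinearMap.ext fun a => ?_
  rw [LinearMap.comp_apply, LinearMap.comp_apply, totInt_apply, ← lmul_lTensor,
    ← hρ.coassoc_apply]
  have h : ∀ x : A ⊗[k] M, lmul (A ⊗[k] M) lam (HopfAlgebra.antipode k a)
      (TensorProduct.assoc k A A M ((comul (R := k)).rTensor M x)) =
      ((lmul M lam).flip x ∘ₗ HopfAlgebra.antipode k).lTensor A (comul (R := k) a) := by
    intro x
    induction x with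
    | zero => simp
    | add u v hu hv =>
      rw [map_add, map_add, map_add, hu, hv, map_add, LinearMap.add_comp, LinearMap.lTensor_add,
        LinearMap.add_apply]
    | tmul c m =>
      rw [LinearMap.rTensor_tmul]
      have h1 : ∀ z : A ⊗[k] A, lmul (A ⊗[k] M) lam (HopfAlgebra.antipode k a)
          (TensorProduct.assoc k A A M (z ⊗ₜ m)) =
          (lmul A lam (HopfAlgebra.antipode k a) z) ⊗ₜ m := by
        intro z
        induction z with
        | zero => simp
        | add u v hu hv => rw [add_tmul, map_add, map_add, hu, hv, map_add, add_tmul]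
        | tmul u v => simp [TensorProduct.smul_tmul']
      rw [h1, ← key_int lam hlam]
      generalize comul (R := k) a = z
      induction z with
      | zero => simp
      | add u v hu hv => simp only [map_add, add_tmul, hu, hv]
      | tmul u v => simp [TensorProduct.smul_tmul]
  rw [h]
  rfl

end Integral

/-! ### The integral of `Pn p m` -/

section TopDeg

variable {k A M : Type*} [Field k] [CommRing A] [Bialgebra k A] [AddCommGroup M] [Module k M]
  {𝒜 : ℕ → Submodule k A}

theorem GrConn.ctr_eq (h : GrConn 𝒜) {D : ℕ} {lam : A →ₗ[k] k}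
    (hlam : ∀ d, d ≠ D → ∀ a ∈ 𝒜 d, lam a = 0) {d : ℕ} (hd : d ≤ D) {z : A ⊗[k] A}
    (hz : z ∈ tgr 𝒜 𝒜 d) : ctr A lam z =
      lam (TensorProduct.rid k A ((Coalgebra.counit (R := k)).lTensor A z)) • (1 : A) := by
  refine Submodule.span_induction (p := fun z _ => ctr A lam z =
    lam (TensorProduct.rid k A ((Coalgebra.counit (R := k)).lTensor A z)) • (1 : A))
    ?_ ?_ ?_ ?_ hz
  · rintro _ ⟨i, j, a, b, hij, ha, hb, rfl⟩
    rw [ctr_tmul, LinearMap.lTensor_tmul, TensorProduct.rid_tmul, map_smul, smul_eq_mul]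
    by_cases hi : i = D
    · have hj : j = 0 := by omega
      subst hj
      conv_lhs => rw [h.zero b hb, Algebra.algebraMap_eq_smul_one, smul_smul]
      rw [mul_comm]
    · rw [hlam i hi a ha, zero_smul, mul_zero, zero_smul]
  · simp
  · intro u v _ _ hu hv
    rw [map_add, hu, hv, ← add_smul, map_add, map_add, map_add]
  · intro c u _ hu
    rw [map_smul, hu, map_smul, map_smul, map_smul, smul_smul, smul_eq_mul]

theorem GrConn.isInt {k A : Type*} [Field k] [CommRing A] [HopfAlgebra k A]
    {𝒜 : ℕ → Submodule k A} (h : GrConn 𝒜) {D : ℕ} {lam : A →ₗ[k] k}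
    (hlam : ∀ d, d ≠ D → ∀ a ∈ 𝒜 d, lam a = 0) (hD : ∀ d, D < d → ∀ a ∈ 𝒜 d, a = 0) :
    IsInt lam := by
  intro a
  have ha : a ∈ ⨆ d, 𝒜 d := by rw [h.exh]; trivial
  refine Submodule.iSup_induction
    (motive := fun a => ctr A lam (Coalgebra.comul (R := k) a) = lam a • (1 : A)) 𝒜 ha ?_ ?_ ?_
  · intro d x hx
    by_cases hd : d ≤ D
    · rw [h.ctr_eq hlam hd (h.comul d x hx), Coalgebra.lTensor_counit_comul]
      simp
    · rw [hD d (not_le.1 hd) x hx]
      simp
  · simp
  · intro x y hx hy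
    rw [map_add, map_add, hx, hy, map_add, add_smul]

theorem ctr_mem_of_tgr {D : ℕ} {lam : A →ₗ[k] k}
    (hlam : ∀ d, d ≠ D → ∀ a ∈ 𝒜 d, lam a = 0) {ℳ : ℕ → Submodule k M} {j : ℕ} {z : A ⊗[k] M}
    (hz : z ∈ tgr 𝒜 ℳ (D + j)) : ctr M lam z ∈ ℳ j := by
  refine Submodule.span_induction (p := fun z _ => ctr M lam z ∈ ℳ j) ?_ ?_ ?_ ?_ hz
  · rintro _ ⟨i, i', a, b, hij, ha, hb, rfl⟩
    rw [ctr_tmul]
    by_cases hi : i = D
    · have hj : i' = j := by omega
      subst hj
      exact Submodule.smul_mem _ _ hb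
    · rw [hlam i hi a ha, zero_smul]
      exact zero_mem _
  · rw [map_zero]; exact zero_mem _
  · intro u v _ _ hu hv
    rw [map_add]; exact add_mem hu hv
  · intro c u _ hu
    rw [map_smul]; exact Submodule.smul_mem _ _ hu

end TopDeg

namespace Pn

variable (p m : ℕ) [hp : Fact p.Prime]

/-- The coefficient of the top monomial is an integral on `Pn p m`. -/
theorem isInt_lam : IsInt (lam p m) :=
  (grConn p m).isInt (D := topDeg p m) (fun _ hd _ ha => lam_eq_zero hd ha)
    fun _ hd _ ha => eq_zero_of_topDeg_lt hd ha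

/-- The left coaction of `Pn p m` on `PS p`. -/
noncomputable def co : PS p →ₗ[ZMod p] Pn p m ⊗[ZMod p] PS p :=
  (mkAlg p m).toLinearMap.rTensor (PS p) ∘ₗ comul (R := ZMod p)

theorem isCoact_co : IsCoact (co p m) where
  coassoc := by
    refine LinearMap.ext fun x => ?_
    have h1 : ∀ z : PS p ⊗[ZMod p] PS p,
        TensorProduct.assoc (ZMod p) (Pn p m) (Pn p m) (PS p)
          ((comul (R := ZMod p)).rTensor (PS p) ((mkAlg p m).toLinearMap.rTensor (PS p) z)) =
        ((mkAlg p m).toLinearMap.rTensor (PS p)).lTensor (Pn p m)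
          ((mkAlg p m).toLinearMap.rTensor (PS p ⊗[ZMod p] PS p)
            (TensorProduct.assoc (ZMod p) (PS p) (PS p) (PS p)
              ((comul (R := ZMod p)).rTensor (PS p) z))) := by
      intro z
      induction z with
      | zero => simp
      | add u v hu hv => simp only [map_add, hu, hv]
      | tmul a b =>
        rw [LinearMap.rTensor_tmul, LinearMap.rTensor_tmul, LinearMap.rTensor_tmul,
          AlgHom.toLinearMap_apply, comul_mkAlg]
        generalize comul (R := ZMod p) a = w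
        induction w with
        | zero => simp
        | add u v hu hv => simp only [map_add, add_tmul, hu, hv]
        | tmul c d => simp
    have h2 : ∀ z : PS p ⊗[ZMod p] PS p,
        (co p m).lTensor (Pn p m) ((mkAlg p m).toLinearMap.rTensor (PS p) z) =
        ((mkAlg p m).toLinearMap.rTensor (PS p)).lTensor (Pn p m)
          ((mkAlg p m).toLinearMap.rTensor (PS p ⊗[ZMod p] PS p)
            ((comul (R := ZMod p)).lTensor (PS p) z)) := by
      intro z
      induction z with
      | zero => simp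
      | add u v hu hv => simp only [map_add, hu, hv]
      | tmul a b => simp [co]
    simp only [LinearMap.comp_apply, LinearEquiv.coe_coe]
    rw [show co p m x = (mkAlg p m).toLinearMap.rTensor (PS p) (comul (R := ZMod p) x) from rfl,
      h1, Coalgebra.coassoc_apply, h2]
  counital := by
    refine LinearMap.ext fun x => ?_
    have h1 : ∀ z : PS p ⊗[ZMod p] PS p,
        TensorProduct.lid (ZMod p) (PS p) ((counit (R := ZMod p)).rTensor (PS p)
          ((mkAlg p m).toLinearMap.rTensor (PS p) z)) =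
        TensorProduct.lid (ZMod p) (PS p) ((counit (R := ZMod p)).rTensor (PS p) z) := by
      intro z
      induction z with
      | zero => simp
      | add u v hu hv => simp only [map_add, hu, hv]
      | tmul a b =>
        rw [LinearMap.rTensor_tmul, LinearMap.rTensor_tmul, LinearMap.rTensor_tmul,
          AlgHom.toLinearMap_apply, counit_mkAlg]
    have h2 := h1 (comul (R := ZMod p) x)
    rw [Coalgebra.rTensor_counit_comul, TensorProduct.lid_tmul, one_smul] at h2
    exact h2

/-- The quotient map is colinear. -/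
theorem colin_mk : Colin (co p m) (comul (R := ZMod p) (A := Pn p m)) (mkAlg p m).toLinearMap := by
  unfold Colin
  refine LinearMap.ext fun x => ?_
  have h : ∀ z : PS p ⊗[ZMod p] PS p,
      TensorProduct.map (mkAlg p m).toLinearMap (mkAlg p m).toLinearMap z =
      (mkAlg p m).toLinearMap.lTensor (Pn p m) ((mkAlg p m).toLinearMap.rTensor (PS p) z) := by
    intro z
    induction z with
    | zero => simp
    | add u v hu hv => simp only [map_add, hu, hv]
    | tmul a b => simp
  rw [LinearMap.comp_apply, LinearMap.comp_apply, AlgHom.toLinearMap_apply, comul_mkAlg, h]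
  rfl

theorem co_mem {d : ℕ} {x : PS p} (hx : x ∈ PS.gr p d) :
    co p m x ∈ tgr (gr p m) (PS.gr p) d := by
  have h := map_mem_tgr (f := (mkAlg p m).toLinearMap) (g := LinearMap.id)
    (𝒞 := gr p m) (𝒟 := PS.gr p) (fun i a ha => mk_mem_gr ha) (fun i a ha => ha)
    ((PS.grConn p).comul d x hx)
  exact h

variable {p m}

/-- Total integrals: if `(M, ρ)` is a graded `Pn p m`-comodule with a colinear map `q` to `PS p`,
`M_0` is spanned by `e` with `q e = 1`, and the top monomial lifts to an element of `M` of degree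
`topDeg p m`, then there is a colinear map `Pn p m → M` with `1 ↦ e`. -/
theorem exists_totInt {M : Type*} [AddCommGroup M] [Module (ZMod p) M]
    {ρ : M →ₗ[ZMod p] Pn p m ⊗[ZMod p] M} (hρ : IsCoact ρ) {ℳ : ℕ → Submodule (ZMod p) M}
    (hgr : ∀ x ∈ ℳ (topDeg p m), ρ x ∈ tgr (gr p m) ℳ (topDeg p m)) (e : M)
    (h0 : ∀ x ∈ ℳ 0, ∃ c : ZMod p, x = c • e) {q : M →ₗ[ZMod p] PS p}
    (hq : Colin ρ (co p m) q) (hq1 : q e = 1) {b : M} (hb : b ∈ ℳ (topDeg p m))
    (hqb : q b = top p m) :
    ∃ φ : Pn p m →ₗ[ZMod p] M,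
      Colin (comul (R := ZMod p) (A := Pn p m)) ρ φ ∧ φ 1 = e := by
  refine ⟨totInt (lam p m) ρ b, colin_totInt (isInt_lam p m) hρ b, ?_⟩
  rw [totInt_one]
  have h1 : ctr M (lam p m) (ρ b) ∈ ℳ 0 :=
    ctr_mem_of_tgr (𝒜 := gr p m) (D := topDeg p m) (fun _ hd _ ha => lam_eq_zero hd ha)
      (hgr b hb)
  obtain ⟨c, hc⟩ := h0 _ h1
  have h2 : q (ctr M (lam p m) (ρ b)) = 1 := by
    rw [← ctr_lTensor, ← hq.apply, hqb]
    have h3 : ctr (PS p) (lam p m) (co p m (top p m)) ∈ PS.gr p 0 :=
      ctr_mem_of_tgr (𝒜 := gr p m) (D := topDeg p m) (fun _ hd _ ha => lam_eq_zero hd ha)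
        (co_mem p m (top_mem p m))
    rw [(PS.grConn p).zero _ h3]
    have h4 : Coalgebra.counit (R := ZMod p) (ctr (PS p) (lam p m) (co p m (top p m))) = 1 := by
      have h5 : ∀ z : PS p ⊗[ZMod p] PS p, Coalgebra.counit (R := ZMod p)
          (ctr (PS p) (lam p m) ((mkAlg p m).toLinearMap.rTensor (PS p) z)) =
          lam p m (mkAlg p m (TensorProduct.rid (ZMod p) (PS p)
            ((Coalgebra.counit (R := ZMod p)).lTensor (PS p) z))) := by
        intro z
        induction z with
        | zero => simp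
        | add u v hu hv => simp only [map_add, hu, hv]
        | tmul a b => simp [mul_comm]
      have h6 := h5 (comul (R := ZMod p) (top p m))
      rw [Coalgebra.lTensor_counit_comul] at h6
      refine h6.trans ?_
      simp
    rw [h4, map_one]
  rw [hc]
  rw [hc, map_smul, hq1] at h2
  have h7 : c = 1 := by
    have h8 := congrArg (Coalgebra.counit (R := ZMod p)) h2
    rwa [map_smul, Bialgebra.counit_one, smul_eq_mul, mul_one] at h8
  rw [h7, one_smul]

variable (p m)

/-- The total integral of `PS p`. -/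
theorem exists_totInt_PS : ∃ φ : Pn p m →ₗ[ZMod p] PS p,
    Colin (comul (R := ZMod p) (A := Pn p m)) (co p m) φ ∧ φ 1 = 1 :=
  exists_totInt (isCoact_co p m) (fun _ hx => co_mem p m hx) 1
    (fun x hx => ⟨Coalgebra.counit (R := ZMod p) x, by
      conv_lhs => rw [(PS.grConn p).zero x hx]
      rw [Algebra.algebraMap_eq_smul_one]⟩)
    (Colin.id _) rfl (top_mem p m) rfl

end Pn

end Vale.Agent.P093.N
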