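import Mathlib.RingTheory.Ideal.Maps
import Mathlib.Tactic

/-!
# P093, part N: ring homomorphisms which are isomorphisms modulo `p`

`IsoMod e p` : the ring homomorphism `e : B →+* H` induces an isomorphism `B / p = H / p`.
* `IsoMod.ext` : extension of `g : B →+* A` with `p = 0` in `A` to `H →+* A`;
* `IsLocAt u p` : `u : H →+* H'` inverts the integers prime to `p`; then `IsoMod (u.comp e) p`.
-/

namespace Vale.Agent.P093.N.PhiT

variable {B H A : Type*} [CommRing B] [CommRing H] [CommRing A]

/-- `e` is an isomorphism modulo `p`. -/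
structure IsoMod (e : B →+* H) (p : ℕ) : Prop where
  surj (x : H) : ∃ (z : B) (y : H), x = e z + p • y
  ker (z : B) (y : H) : e z = p • y → ∃ z' : B, z = p • z'

namespace IsoMod

variable {e : B →+* H} {p : ℕ} (h : IsoMod e p) (g : B →+* A) (hp : (p : A) = 0)

include h hp in
theorem wd {z z' : B} {y y' : H} (hz : e z + p • y = e z' + p • y') : g z = g z' := by
  obtain ⟨w, hw⟩ := h.ker (z - z') (y' - y) (by
    rw [map_sub, smul_sub]
    linear_combination hz)
  have h1 := congrArg g hw
  rw [map_sub, map_nsmul, nsmul_eq_mul, hp, zero_mul] at h1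
  exact sub_eq_zero.1 h1

/-- The value of the extension. -/
noncomputable def fn (x : H) : A := g (h.surj x).choose

include hp in
theorem fn_eq {x : H} {z : B} {y : H} (hx : x = e z + p • y) : h.fn g x = g z := by
  obtain ⟨y', hy'⟩ := (h.surj x).choose_spec
  exact h.wd g hp (hy'.symm.trans hx)

/-- The extension of `g : B →+* A` to `H`, for a ring `A` with `p = 0`. -/
noncomputable def ext : H →+* A where
  toFun := h.fn g
  map_one' := by
    rw [h.fn_eq g hp (z := 1) (y := 0) (by simp), map_one]
  map_zero' := by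
    rw [h.fn_eq g hp (z := 0) (y := 0) (by simp), map_zero]
  map_add' x x' := by
    obtain ⟨z, y, rfl⟩ := h.surj x
    obtain ⟨z', y', rfl⟩ := h.surj x'
    rw [h.fn_eq g hp (x := e z + p • y) rfl, h.fn_eq g hp (x := e z' + p • y') rfl,
      h.fn_eq g hp (z := z + z') (y := y + y') (by rw [map_add, smul_add]; ring), map_add]
  map_mul' x x' := by
    obtain ⟨z, y, rfl⟩ := h.surj x
    obtain ⟨z', y', rfl⟩ := h.surj x'
    rw [h.fn_eq g hp (x := e z + p • y) rfl, h.fn_eq g hp (x := e z' + p • y') rfl,
      h.fn_eq g hp (z := z * z') (y := e z * y' + y * e z' + p • (y * y'))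
        (by rw [map_mul]; simp only [nsmul_eq_mul]; ring), map_mul]

theorem ext_eq {x : H} {z : B} {y : H} (hx : x = e z + p • y) : h.ext g hp x = g z :=
  h.fn_eq g hp hx

@[simp] theorem ext_apply (z : B) : h.ext g hp (e z) = g z :=
  h.ext_eq g hp (y := 0) (by simp)

theorem ext_comp : (h.ext g hp).comp e = g := RingHom.ext fun z => h.ext_apply g hp z

include h hp in
/-- Two ring homomorphisms out of `H` into a ring with `p = 0` are equal if they agree on `B`. -/
theorem hom_ext {G G' : H →+* A} (hG : ∀ z, G (e z) = G' (e z)) : G = G' := by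
  ext x
  obtain ⟨z, y, rfl⟩ := h.surj x
  rw [map_add, map_add, map_nsmul, map_nsmul, hG, nsmul_eq_mul, nsmul_eq_mul, hp, zero_mul,
    zero_mul]

theorem eq_ext {G : H →+* A} (hG : ∀ z, G (e z) = g z) : G = h.ext g hp :=
  h.hom_ext hp fun z => by rw [hG, ext_apply]

variable {B' H' A' : Type*} [CommRing B'] [CommRing H'] [CommRing A']

/-- Naturality of the extension. -/
theorem ext_nat {e' : B' →+* H'} (h' : IsoMod e' p) (g' : B' →+* A') (hp' : (p : A') = 0)
    (b : B →+* B') (k : H →+* H') (a : A →+* A') (hk : ∀ z, k (e z) = e' (b z))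
    (ha : ∀ z, g' (b z) = a (g z)) (x : H) :
    h'.ext g' hp' (k x) = a (h.ext g hp x) := by
  have h1 : (h'.ext g' hp').comp k = a.comp (h.ext g hp) :=
    h.hom_ext hp' fun z => by
      rw [RingHom.comp_apply, RingHom.comp_apply, hk, ext_apply, ext_apply, ha]
  exact congrArg (fun f : H →+* A' => f x) h1

end IsoMod

/-- `u` inverts the integers prime to `p`. -/
structure IsLocAt {H H' : Type*} [CommRing H] [CommRing H'] (u : H →+* H') (p : ℕ) : Prop where
  unit (q : ℕ) : q.Coprime p → IsUnit (q : H')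
  surj (y : H') : ∃ q : ℕ, q.Coprime p ∧ ∃ x : H, q • y = u x
  ker (x : H) : u x = 0 → ∃ q : ℕ, q.Coprime p ∧ q • x = 0

/-- The composition of an isomorphism modulo `p` with a localization away from the integers prime
to `p` is an isomorphism modulo `p`. -/
theorem IsoMod.comp_loc {e : B →+* H} {p : ℕ} (h : IsoMod e p) {H' : Type*} [CommRing H']
    {u : H →+* H'} (hu : IsLocAt u p) : IsoMod (u.comp e) p where
  surj y := by
    obtain ⟨q, hq, x, hx⟩ := hu.surj y
    obtain ⟨z, x', rfl⟩ := h.surj x
    obtain ⟨a, b, hab⟩ := Nat.isCoprime_iff_coprime.2 hq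
    refine ⟨a • z, u (a • x') + b • y, ?_⟩
    have h1 : y = a • (q • y) + p • (b • y) := by
      have h2 : ((a * q + b * p : ℤ)) • y = y := by rw [hab, one_smul]
      rw [add_smul, mul_smul, mul_smul, natCast_zsmul, natCast_zsmul, smul_comm b p y] at h2
      exact h2.symm
    conv_lhs => rw [h1]
    rw [hx, RingHom.comp_apply, map_add, map_zsmul, map_zsmul, map_zsmul, map_nsmul, smul_add,
      smul_add, smul_comm a p (u x'), add_assoc]
  ker z y hy := by
    rw [RingHom.comp_apply] at hy
    obtain ⟨q, hq, x, hx⟩ := hu.surj y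
    have h1 : u (e (q • z) - p • x) = 0 := by
      rw [map_sub, map_nsmul, map_nsmul, map_nsmul, hy, ← hx, smul_comm, sub_self]
    obtain ⟨r, hr, h2⟩ := hu.ker _ h1
    rw [smul_sub, sub_eq_zero, ← map_nsmul, smul_comm r p x] at h2
    obtain ⟨z', hz'⟩ := h.ker _ _ h2
    rw [smul_smul] at hz'
    have hrq : (r * q).Coprime p := hr.mul_left hq
    obtain ⟨a, b, hab⟩ := Nat.isCoprime_iff_coprime.2 hrq
    refine ⟨a • z' + b • z, ?_⟩
    have h3 : ((a * (r * q : ℕ) + b * p : ℤ)) • z = z := by rw [hab, one_smul]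
    rw [add_smul, mul_smul, mul_smul, natCast_zsmul, natCast_zsmul, hz', smul_comm a p z',
      smul_comm b p z, ← smul_add] at h3
    exact h3.symm

end Vale.Agent.P093.N.PhiT
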