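import Mathlib.LinearAlgebra.Basis.VectorSpace
import Mathlib.LinearAlgebra.Matrix.NonsingularInverse
import Mathlib.LinearAlgebra.Basis.Submodule
import Mathlib.Tactic

/-!
# P093, block N:NAK: the graded Nakayama lemma (pure algebra)

`A` a commutative ring, `χ : A → F` a homomorphism to a field, `A0 ⊆ A` a subring (the elements of
degree `0`) with `χ(A0) = F` in which every element outside of the kernel of `χ` is a unit.

`M` a free module with a basis `e_i` of degree `l i` (bounded below, finitely many in each degree),
`v_j ∈ M` elements of degree `d j`, such that the coefficient of `e_i` in `v_j` is zero for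
`l i > d j` and lies in `A0` for `l i = d j`. If the matrices `χ(coefficients)` have linearly
independent rows in each degree, then the `v_j` and some of the `e_i` form a basis of `M`.
-/

open Finset

namespace Vale.Agent.P093.Nak

universe u v

section Mat

variable {A F : Type*} [CommRing A] [Field F] (χ : A →+* F) (A0 : Subring A)
  (hloc : ∀ a ∈ A0, χ a ≠ 0 → IsUnit a)

include hloc in
/-- a matrix over `A0` which is the identity after `χ` is invertible -/
theorem exists_inverse_of_map_eq_one {n : Type*} [Fintype n] [DecidableEq n] (P : Matrix n n A)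
    (hP : ∀ i j, P i j ∈ A0) (h : P.map χ = 1) : ∃ Q : Matrix n n A, Q * P = 1 ∧ P * Q = 1 := by
  have hdet : P.det ∈ A0 := by
    rw [Matrix.det_apply]
    refine Subring.sum_mem _ fun σ _ => ?_
    refine Subring.zsmul_mem _ (Subring.prod_mem _ fun i _ => hP _ _) _
  have h1 : χ P.det = 1 := by
    rw [RingHom.map_det, RingHom.mapMatrix_apply, h, Matrix.det_one]
  have h2 : IsUnit P.det := hloc _ hdet (by rw [h1]; exact one_ne_zero)
  exact ⟨P⁻¹, Matrix.nonsing_inv_mul P h2, Matrix.mul_nonsing_inv P h2⟩

variable (hsurj : ∀ y : F, ∃ a ∈ A0, χ a = y)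

include hloc hsurj in
/-- a matrix over `A0` which is invertible after `χ` is invertible -/
theorem exists_inverse_of_map {m n : Type*} [Fintype m] [DecidableEq m] [Fintype n] [DecidableEq n]
    (P : Matrix m n A) (hP : ∀ i j, P i j ∈ A0) (Q : Matrix n m F) (h1 : P.map χ * Q = 1)
    (h2 : Q * P.map χ = 1) : (∃ L : Matrix n m A, L * P = 1) ∧ ∃ L : Matrix n m A, P * L = 1 := by
  choose q hq hq' using fun (i : n) (j : m) => hsurj (Q i j)
  let Q' : Matrix n m A := Matrix.of q
  have hQ' : Q'.map χ = Q := by
    ext i j
    exact hq' i j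
  have e1 : (Q' * P).map χ = 1 := by
    rw [Matrix.map_mul, hQ', h2]
  have e2 : (P * Q').map χ = 1 := by
    rw [Matrix.map_mul, hQ', h1]
  obtain ⟨L1, hL1, -⟩ := exists_inverse_of_map_eq_one χ A0 hloc (Q' * P) (fun i j => by
    rw [Matrix.mul_apply]
    exact Subring.sum_mem _ fun x _ => Subring.mul_mem _ (hq _ _) (hP _ _)) e1
  obtain ⟨L2, -, hL2⟩ := exists_inverse_of_map_eq_one χ A0 hloc (P * Q') (fun i j => by
    rw [Matrix.mul_apply]
    exact Subring.sum_mem _ fun x _ => Subring.mul_mem _ (hP _ _) (hq _ _)) e2
  exact ⟨⟨L1 * Q', by rw [Matrix.mul_assoc, hL1]⟩, ⟨Q' * L2, by rw [← Matrix.mul_assoc, hL2]⟩⟩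

end Mat

section Basis

variable {A F : Type*} [CommRing A] [Field F] (χ : A →+* F) (A0 : Subring A)
  {M : Type*} [AddCommGroup M] [Module A M] {I K : Type*} (e : Module.Basis I A M) (l : I → ℤ)
  (v : K → M) (d : K → ℤ)

/-- the block of degree `n` of the matrix of the `v_x` -/
noncomputable def block (n : ℤ) : Matrix {x // d x = n} {i // l i = n} A :=
  Matrix.of fun x i => e.repr (v x) i

variable (hB : ∃ B : ℤ, ∀ i, B ≤ l i) (hfinI : ∀ n, {i | l i = n}.Finite)
  (hfinK : ∀ n, {x | d x = n}.Finite)
  (hhigh : ∀ x i, d x < l i → e.repr (v x) i = 0)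

include hB hfinI hfinK hhigh in
/-- **Graded change of basis**: if all the diagonal blocks have left and right inverses, the `v_x`
form a basis. -/
theorem isBasis_of_blocks [DecidableEq I] [DecidableEq K]
    (hL : ∀ n, ∃ L : {i // l i = n} → {x // d x = n} → A, ∀ i j : {i // l i = n},
      ∑ᶠ x, L i x * e.repr (v x) j = if i = j then 1 else 0)
    (hR : ∀ n, ∃ L : {i // l i = n} → {x // d x = n} → A, ∀ x y : {x // d x = n},
      ∑ᶠ i : {i // l i = n}, e.repr (v x) i * L i y = if x = y then 1 else 0) :
    LinearIndependent A v ∧ ⊤ ≤ Submodule.span A (Set.range v) := by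
  constructor
  · rw [linearIndependent_iff]
    intro c hc
    by_contra hne
    have hsupp : c.support.Nonempty := Finsupp.support_nonempty_iff.2 hne
    obtain ⟨x0, hx0, hmax⟩ := c.support.exists_max_image d hsupp
    set n := d x0 with hn
    obtain ⟨L, hL'⟩ := hR n
    have : Fintype {i // l i = n} := (hfinI n).fintype
    have : Fintype {x // d x = n} := (hfinK n).fintype
    -- the coefficient of `e_i`
    have h1 : ∀ i : {i // l i = n}, ∑ x : {x // d x = n}, c x * e.repr (v x) i = 0 := by
      intro i
      have h2 := congrArg (fun m => e.repr m i) hc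
      simp only [Finsupp.linearCombination_apply, Finsupp.sum, map_sum, map_smul,
        Finsupp.finsetSum_apply, Finsupp.smul_apply, smul_eq_mul, map_zero,
        Finsupp.zero_apply] at h2
      rw [← h2]
      symm
      have h3 : ∀ x ∈ c.support, x ∉ (hfinK n).toFinset → c x * e.repr (v x) i = 0 := by
        intro x hx hxn
        have h4 : d x ≤ n := hmax x hx
        have h5 : d x ≠ n := fun h => hxn (by rw [(hfinK n).mem_toFinset]; exact h)
        rw [hhigh x i (by have := i.2; omega), mul_zero]
      have h6 : ∑ x ∈ c.support, c x * e.repr (v x) i =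
          ∑ x ∈ (hfinK n).toFinset, c x * e.repr (v x) i := by
        rw [← Finset.sum_filter_add_sum_filter_not c.support
          (fun x => x ∈ (hfinK n).toFinset)]
        rw [Finset.sum_eq_zero (s := c.support.filter
          (fun x => x ∉ (hfinK n).toFinset)) (fun x hx => by
            rw [Finset.mem_filter] at hx
            exact h3 x hx.1 hx.2), add_zero]
        refine Finset.sum_subset (fun x hx => (Finset.mem_filter.1 hx).2) fun x hx hx' => ?_
        have : x ∉ c.support := fun h => hx' (Finset.mem_filter.2 ⟨h, hx⟩)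
        rw [Finsupp.notMem_support_iff.1 this, zero_mul]
      rw [h6]
      exact Finset.sum_subtype _ (fun x => by simp) _
    have h7 : ∀ y : {x // d x = n}, c y = 0 := by
      intro y
      have h8 : ∑ i : {i // l i = n}, (∑ x : {x // d x = n}, c x * e.repr (v x) i) * L i y = 0 :=
        Finset.sum_eq_zero fun i _ => by rw [h1, zero_mul]
      simp only [Finset.sum_mul] at h8
      rw [Finset.sum_comm] at h8
      have h9 : ∀ x : {x // d x = n}, ∑ i : {i // l i = n}, c x * e.repr (v x) i * L i y =
          c x * (if x = y then 1 else 0) := by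
        intro x
        rw [← hL' x y, finsum_eq_sum_of_fintype, Finset.mul_sum]
        exact Finset.sum_congr rfl fun i _ => by ring
      rw [Finset.sum_congr rfl fun x _ => h9 x] at h8
      simpa using h8
    exact Finsupp.mem_support_iff.1 hx0 (h7 ⟨x0, rfl⟩)
  · obtain ⟨B, hB⟩ := hB
    have key : ∀ m : ℕ, ∀ i, l i < B + m → e i ∈ Submodule.span A (Set.range v) := by
      intro m
      induction m with
      | zero => intro i hi; have := hB i; push_cast at hi; omega
      | succ m ih =>
        intro i hi
        by_cases him : l i < B + m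
        · exact ih i him
        · have hn : l i = B + m := by push_cast at hi; omega
          set n := B + (m : ℤ) with hn'
          obtain ⟨L, hL'⟩ := hL n
          have : Fintype {i // l i = n} := (hfinI n).fintype
          have : Fintype {x // d x = n} := (hfinK n).fintype
          have h1 : ∑ x : {x // d x = n}, L ⟨i, hn⟩ x • v x ∈ Submodule.span A (Set.range v) :=
            Submodule.sum_mem _ fun x _ => Submodule.smul_mem _ _ (Submodule.subset_span ⟨x, rfl⟩)
          have h2 : e i - ∑ x : {x // d x = n}, L ⟨i, hn⟩ x • v x ∈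
              Submodule.span A (Set.range v) := by
            rw [← e.linearCombination_repr (e i - ∑ x : {x // d x = n}, L ⟨i, hn⟩ x • v x),
              Finsupp.linearCombination_apply, Finsupp.sum]
            refine Submodule.sum_mem _ fun j _ => ?_
            by_cases hj : l j < B + m
            · exact Submodule.smul_mem _ _ (ih j hj)
            · have h3 : e.repr (e i - ∑ x : {x // d x = n}, L ⟨i, hn⟩ x • v x) j = 0 := by
                rw [map_sub, map_sum, Finsupp.sub_apply, Finsupp.finsetSum_apply,
                  Module.Basis.repr_self]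
                simp only [map_smul, Finsupp.smul_apply, smul_eq_mul]
                rcases lt_or_eq_of_le (not_lt.1 hj) with hj' | hj'
                · rw [Finsupp.single_eq_of_ne (by rintro rfl; omega), zero_sub, neg_eq_zero]
                  refine Finset.sum_eq_zero fun x _ => ?_
                  rw [hhigh x j (by rw [x.2]; exact hj'), mul_zero]
                · have h4 := hL' ⟨i, hn⟩ ⟨j, hj'.symm⟩
                  rw [finsum_eq_sum_of_fintype] at h4
                  rw [h4]
                  by_cases hij : i = j
                  · subst hij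
                    simp
                  · rw [if_neg (fun h => hij (congrArg Subtype.val h)),
                      Finsupp.single_eq_of_ne (fun h => hij h.symm), sub_zero]
              rw [h3, zero_smul]
              exact Submodule.zero_mem _
          have h5 := Submodule.add_mem _ h2 h1
          rwa [sub_add_cancel] at h5
    intro y _
    rw [← e.linearCombination_repr y, Finsupp.linearCombination_apply, Finsupp.sum]
    refine Submodule.sum_mem _ fun i _ => Submodule.smul_mem _ _ ?_
    exact key ((l i - B).toNat + 1) i (by have := hB i; push_cast; omega)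

variable (hloc : ∀ a ∈ A0, χ a ≠ 0 → IsUnit a) (hsurj : ∀ y : F, ∃ a ∈ A0, χ a = y)

include hB hfinI hhigh hloc hsurj in
/-- **Graded Nakayama, change of basis**: if the reductions of the `v_x` of degree `n` form a basis
of `F^{I_n}` for every `n`, the `v_x` form a basis. -/
theorem isBasis_of_reduction
    (h0 : ∀ x i, l i = d x → e.repr (v x) i ∈ A0)
    (hred : ∀ n, ∃ b : Module.Basis {x // d x = n} F ({i // l i = n} → F),
      ∀ x i, b x i = χ (e.repr (v x) i)) :
    LinearIndependent A v ∧ ⊤ ≤ Submodule.span A (Set.range v) := by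
  classical
  have hfinK : ∀ n, {x | d x = n}.Finite := by
    intro n
    obtain ⟨b, -⟩ := hred n
    have : Finite {i // l i = n} := hfinI n
    exact Module.Finite.finite_basis b
  have key : ∀ n, (∃ L : {i // l i = n} → {x // d x = n} → A, ∀ i j : {i // l i = n},
      ∑ᶠ x, L i x * e.repr (v x) j = if i = j then 1 else 0) ∧
      ∃ L : {i // l i = n} → {x // d x = n} → A, ∀ x y : {x // d x = n},
      ∑ᶠ i : {i // l i = n}, e.repr (v x) i * L i y = if x = y then 1 else 0 := by
    intro n
    obtain ⟨b, hb⟩ := hred n
    have : Fintype {i // l i = n} := (hfinI n).fintype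
    have : Fintype {x // d x = n} := (hfinK n).fintype
    let P : Matrix {x // d x = n} {i // l i = n} A := Matrix.of fun x i => e.repr (v x) i
    let Q : Matrix {i // l i = n} {x // d x = n} F :=
      Matrix.of fun i x => b.repr (Pi.single i 1) x
    have hPb : ∀ x i, P.map χ x i = b x i := fun x i => (hb x i).symm
    have h1 : P.map χ * Q = 1 := by
      ext x y
      rw [Matrix.mul_apply]
      have h3 : b x = ∑ i, b x i • (Pi.single i 1 : {i // l i = n} → F) := by
        ext j
        simp [Finset.sum_apply, Pi.single_apply]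
      have h4 : b.repr (b x) y = ∑ i, b x i * b.repr (Pi.single i 1) y := by
        conv_lhs => rw [h3]
        rw [map_sum, Finsupp.finsetSum_apply]
        simp
      rw [Finset.sum_congr rfl fun i _ => by rw [hPb x i]]
      refine h4.symm.trans ?_
      rw [Module.Basis.repr_self, Finsupp.single_apply, Matrix.one_apply]
    have h2 : Q * P.map χ = 1 := by
      ext i j
      rw [Matrix.mul_apply]
      have h3 := b.sum_repr (Pi.single i 1 : {i // l i = n} → F)
      have h4 := congrFun h3 j
      rw [Finset.sum_apply] at h4
      simp only [Pi.smul_apply, smul_eq_mul] at h4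
      rw [Finset.sum_congr rfl fun x _ => by rw [hPb x j]]
      refine h4.trans ?_
      rw [Pi.single_apply, Matrix.one_apply]
      simp only [eq_comm]
    obtain ⟨⟨L, hL⟩, ⟨L', hL'⟩⟩ := exists_inverse_of_map χ A0 hloc hsurj P
      (fun x i => h0 x i (by rw [i.2, x.2])) Q h1 h2
    refine ⟨⟨fun i x => L i x, fun i j => ?_⟩, ⟨fun i y => L' i y, fun x y => ?_⟩⟩
    · rw [finsum_eq_sum_of_fintype]
      have h5 := congrFun (congrFun hL i) j
      rw [Matrix.mul_apply, Matrix.one_apply] at h5
      exact h5
    · rw [finsum_eq_sum_of_fintype]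
      have h5 := congrFun (congrFun hL' x) y
      rw [Matrix.mul_apply, Matrix.one_apply] at h5
      exact h5
  exact isBasis_of_blocks e l v d hB hfinI hfinK hhigh (fun n => (key n).1) fun n => (key n).2

end Basis

section Complement

variable {A F : Type*} [CommRing A] [Field F] (χ : A →+* F) (A0 : Subring A)
  (hloc : ∀ a ∈ A0, χ a ≠ 0 → IsUnit a) (hsurj : ∀ y : F, ∃ a ∈ A0, χ a = y)
  {M : Type*} [AddCommGroup M] [Module A M] {I J : Type*} (e : Module.Basis I A M) (l : I → ℤ)
  (v : J → M) (d : J → ℤ) (hB : ∃ B : ℤ, ∀ i, B ≤ l i) (hfinI : ∀ n, {i | l i = n}.Finite)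
  (hhigh : ∀ x i, d x < l i → e.repr (v x) i = 0)
  (h0 : ∀ x i, l i = d x → e.repr (v x) i ∈ A0)

/-- the reduction of `v_j` in degree `n` -/
noncomputable def row (n : ℤ) (j : {j // d j = n}) : {i // l i = n} → F := fun i => χ (e.repr (v j) i)

include hloc hsurj hB hfinI hhigh h0 in
/-- **Graded Nakayama lemma**: linearly independent reductions can be completed to a basis by
elements of the given basis. -/
theorem exists_complement [DecidableEq I]
    (hinj : ∀ n, LinearIndependent F (row χ e l v d n)) :
    ∃ (I' : Set I) (b : Module.Basis (J ⊕ I') A M), (∀ j, b (Sum.inl j) = v j) ∧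
      (∀ i, b (Sum.inr i) = e i) ∧
      ∀ i ∈ I', (Pi.single ⟨i, rfl⟩ 1 : {i' // l i' = l i} → F) ∉
        Submodule.span F (Set.range (row χ e l v d (l i))) := by
  classical
  -- the extension in degree `n`
  let V : ∀ n, {j // d j = n} ⊕ {i // l i = n} → ({i // l i = n} → F) := fun n =>
    Sum.elim (row χ e l v d n) (fun i => Pi.single i 1)
  have hext : ∀ n, ∃ b : Set ({j // d j = n} ⊕ {i // l i = n}), Set.range Sum.inl ⊆ b ∧
      ⊤ ≤ Submodule.span F (V n '' b) ∧ LinearIndepOn F (V n) b := by
    intro n
    have h1 : LinearIndepOn F (V n) (Set.range Sum.inl) := by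
      rw [linearIndepOn_range_iff Sum.inl_injective]
      exact hinj n
    obtain ⟨b, -, hb2, hb3, hb4⟩ := exists_linearIndepOn_extension h1 (Set.subset_univ _)
    refine ⟨b, hb2, ?_, hb4⟩
    have : Finite {i // l i = n} := hfinI n
    have : Fintype {i // l i = n} := Fintype.ofFinite _
    rw [← (Pi.basisFun F {i // l i = n}).span_eq, Submodule.span_le]
    rintro _ ⟨i, rfl⟩
    refine hb3 ⟨Sum.inr i, trivial, ?_⟩
    simp [V, Pi.basisFun_apply]
  choose b hb1 hb2 hb3 using hext
  let I' : Set I := {i | Sum.inr ⟨i, rfl⟩ ∈ b (l i)}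
  let w : J ⊕ I' → M := Sum.elim v (fun i => e i)
  let dd : J ⊕ I' → ℤ := Sum.elim d (fun i => l i)
  have hI' : ∀ (n : ℤ) (i : I) (h : l i = n), i ∈ I' ↔ Sum.inr ⟨i, h⟩ ∈ b n := by
    intro n i h
    subst h
    exact Iff.rfl
  have hmain := isBasis_of_reduction χ A0 e l w dd hB hfinI (by
      rintro (x | x) i hi
      · exact hhigh x i hi
      · change (e.repr (e x)) i = 0
        rw [Module.Basis.repr_self, Finsupp.single_eq_of_ne]
        rintro rfl
        exact absurd hi (lt_irrefl _)) hloc hsurj (by
      rintro (x | x) i hi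
      · exact h0 x i hi
      · change (e.repr (e x)) i ∈ A0
        rw [Module.Basis.repr_self, Finsupp.single_apply]
        split_ifs
        · exact A0.one_mem
        · exact A0.zero_mem) (by
      intro n
      -- the equivalence of the index sets
      let f : {x // dd x = n} → b n := fun x =>
        match x with
        | ⟨Sum.inl j, h⟩ => ⟨Sum.inl ⟨j, h⟩, hb1 n ⟨_, rfl⟩⟩
        | ⟨Sum.inr i, h⟩ => ⟨Sum.inr ⟨i, h⟩, (hI' n i h).1 i.2⟩
      have hf : Function.Bijective f := by
        constructor
        · rintro ⟨x | x, hx⟩ ⟨y | y, hy⟩ hxy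
          · have h1 := Sum.inl_injective (congrArg Subtype.val hxy)
            have h2 : x = y := congrArg Subtype.val h1
            subst h2
            rfl
          · have h1 := congrArg Subtype.val hxy
            simp [f] at h1
          · have h1 := congrArg Subtype.val hxy
            simp [f] at h1
          · have h1 := Sum.inr_injective (congrArg Subtype.val hxy)
            have h2 : (x : I) = (y : I) := congrArg (fun z => (z.1 : I)) h1
            have h3 : x = y := Subtype.ext h2
            subst h3
            rfl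
        · rintro ⟨x | x, hx⟩
          · exact ⟨⟨Sum.inl x.1, x.2⟩, rfl⟩
          · exact ⟨⟨Sum.inr ⟨x.1, (hI' n x.1 x.2).2 hx⟩, x.2⟩, rfl⟩
      let bb : Module.Basis (b n) F ({i // l i = n} → F) :=
        Module.Basis.mk (v := fun x : b n => V n x) (hb3 n) (by
          have h1 : Set.range (fun x : b n => V n x) = V n '' b n := by
            rw [Set.image_eq_range]
          rw [h1]
          exact hb2 n)
      have hbb : ∀ x, bb x = V n x := fun x => Module.Basis.mk_apply _ _ x
      refine ⟨bb.reindex (Equiv.ofBijective f hf).symm, ?_⟩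
      rintro ⟨x | x, hx⟩ i
      · rw [Module.Basis.reindex_apply, Equiv.symm_symm, Equiv.ofBijective_apply, hbb]
        rfl
      · rw [Module.Basis.reindex_apply, Equiv.symm_symm, Equiv.ofBijective_apply, hbb]
        change (Pi.single (⟨x, hx⟩ : {i // l i = n}) (1 : F) : {i // l i = n} → F) i =
          χ (e.repr (e x) i)
        rw [Module.Basis.repr_self, Finsupp.single_apply, Pi.single_apply]
        by_cases hxi : (x : I) = i
        · rw [if_pos (Subtype.ext hxi.symm), if_pos hxi, map_one]
        · rw [if_neg (fun h => hxi (congrArg Subtype.val h).symm), if_neg hxi, map_zero])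
  refine ⟨I', Module.Basis.mk hmain.1 hmain.2, fun j => by rw [Module.Basis.mk_apply]; rfl,
    fun i => by rw [Module.Basis.mk_apply]; rfl, ?_⟩
  intro i hi hspan
  have h1 : (Sum.inr ⟨i, rfl⟩ : {j // d j = l i} ⊕ {i' // l i' = l i}) ∈ b (l i) := hi
  have h2 := (linearIndepOn_iff_notMem_span.1 (hb3 (l i))) _ h1
  apply h2
  refine Submodule.span_mono ?_ hspan
  rintro _ ⟨j, rfl⟩
  exact ⟨Sum.inl j, ⟨hb1 _ ⟨j, rfl⟩, by simp⟩, rfl⟩

end Complement

end Vale.Agent.P093.Nak
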