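import Mathlib.CategoryTheory.Monoidal.Braided.Basic
import Mathlib.CategoryTheory.Monoidal.Preadditive
import Mathlib.Tactic.CategoryTheory.Monoidal.Basic
import Mathlib.Algebra.MonoidAlgebra.Basic
import Vale.Agent.P093.N.Cox

/-!
# P093, part N: the action of the symmetric group on the powers of an object
-/

open CategoryTheory MonoidalCategory Equiv

universe v u

namespace Vale.Agent.P093.SymPow

open Vale.Agent.P093.Cox

variable {C : Type u} [Category.{v} C] [MonoidalCategory C]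

/-- the `m`-th power `W ⊗ (W ⊗ ⋯ ⊗ 𝟙_)` -/
@[reducible]
def tpow (W : C) : ℕ → C
  | 0 => 𝟙_ C
  | m + 1 => W ⊗ tpow W m

/-- functoriality -/
def tpowMap {W W' : C} (g : W ⟶ W') : (m : ℕ) → (tpow W m ⟶ tpow W' m)
  | 0 => 𝟙 (𝟙_ C)
  | m + 1 => g ⊗ₘ tpowMap g m

theorem tpow_zero (W : C) : tpow W 0 = 𝟙_ C := rfl
theorem tpow_succ (W : C) (m : ℕ) : tpow W (m + 1) = (W ⊗ tpow W m) := rfl

variable [SymmetricCategory C]

/-- the swap of the first two factors -/
def sw2 (X Y R : C) : X ⊗ (Y ⊗ R) ⟶ Y ⊗ (X ⊗ R) :=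
  (α_ X Y R).inv ≫ (β_ X Y).hom ▷ R ≫ (α_ Y X R).hom

@[reassoc]
theorem sw2_sw2 (X Y R : C) : sw2 X Y R ≫ sw2 Y X R = 𝟙 _ := by
  unfold sw2
  simp only [Category.assoc, Iso.hom_inv_id_assoc]
  rw [← comp_whiskerRight_assoc, SymmetricCategory.symmetry, id_whiskerRight, Category.id_comp,
    Iso.inv_hom_id]

@[reassoc]
theorem sw2_naturality {X X' Y Y' R R' : C} (f : X ⟶ X') (g : Y ⟶ Y') (h : R ⟶ R') :
    (f ⊗ₘ (g ⊗ₘ h)) ≫ sw2 X' Y' R' = sw2 X Y R ≫ (g ⊗ₘ (f ⊗ₘ h)) := by
  unfold sw2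
  rw [Category.assoc, Category.assoc, ← associator_naturality, associator_inv_naturality_assoc,
    ← tensorHom_id, ← tensorHom_id, tensorHom_comp_tensorHom_assoc,
    tensorHom_comp_tensorHom_assoc, BraidedCategory.braiding_naturality, Category.comp_id,
    Category.id_comp]

@[reassoc]
theorem sw2_naturality_right {X Y R R' : C} (h : R ⟶ R') :
    X ◁ (Y ◁ h) ≫ sw2 X Y R' = sw2 X Y R ≫ Y ◁ (X ◁ h) := by
  have h1 := sw2_naturality (𝟙 X) (𝟙 Y) h
  simpa using h1

/-- the braid relation -/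
theorem sw2_braid (X Y Z R : C) :
    sw2 X Y (Z ⊗ R) ≫ Y ◁ sw2 X Z R ≫ sw2 Y Z (X ⊗ R) =
      X ◁ sw2 Y Z R ≫ sw2 X Z (Y ⊗ R) ≫ Z ◁ sw2 X Y R := by
  have h := BraidedCategory.yang_baxter X Y Z
  have h2 := congrArg (fun f : X ⊗ Y ⊗ Z ⟶ Z ⊗ Y ⊗ X =>
    𝟙 (X ⊗ (Y ⊗ (Z ⊗ R))) ⊗≫ f ▷ R ⊗≫ 𝟙 (Z ⊗ (Y ⊗ (X ⊗ R)))) h
  unfold sw2
  calc _ = _ := by monoidal
    _ = _ := h2
    _ = _ := by monoidal

/-- the swap of the factors `i` and `i + 1` (the identity if there are no such factors) -/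
def sw (W : C) : (m : ℕ) → ℕ → (tpow W m ⟶ tpow W m)
  | 0, _ => 𝟙 _
  | 1, _ => 𝟙 _
  | m + 2, 0 => sw2 W W (tpow W m)
  | m + 2, i + 1 => W ◁ sw W (m + 1) i

theorem sw_zero (W : C) (m : ℕ) : sw W (m + 2) 0 = sw2 W W (tpow W m) := rfl

theorem sw_succ (W : C) (m i : ℕ) : sw W (m + 2) (i + 1) = W ◁ sw W (m + 1) i := rfl

@[reassoc]
theorem sw_sw (W : C) (m i : ℕ) : sw W m i ≫ sw W m i = 𝟙 _ := by
  induction m generalizing i with
  | zero => exact Category.id_comp _
  | succ m ih =>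
    cases m with
    | zero => exact Category.id_comp _
    | succ m =>
      cases i with
      | zero => exact sw2_sw2 W W _
      | succ i => rw [sw_succ, ← whiskerLeft_comp, ih, whiskerLeft_id]

theorem sw_far (W : C) (m : ℕ) {i j : ℕ} (h : i + 2 ≤ j) :
    sw W m j ≫ sw W m i = sw W m i ≫ sw W m j := by
  induction m generalizing i j with
  | zero => rfl
  | succ m ih =>
    cases m with
    | zero => rfl
    | succ m =>
      obtain ⟨j, rfl⟩ : ∃ j', j = j' + 1 := ⟨j - 1, by omega⟩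
      cases i with
      | zero =>
        cases m with
        | zero =>
          rw [sw_succ]
          change W ◁ (𝟙 _) ≫ _ = _ ≫ W ◁ (𝟙 _)
          rw [whiskerLeft_id]
          exact (Category.id_comp _).trans (Category.comp_id _).symm
        | succ m =>
          obtain ⟨j, rfl⟩ : ∃ j', j = j' + 1 := ⟨j - 1, by omega⟩
          rw [sw_succ, sw_succ, sw_zero]
          exact sw2_naturality_right _
      | succ i => rw [sw_succ, sw_succ, ← whiskerLeft_comp, ih (by omega), whiskerLeft_comp]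

theorem sw_braid (W : C) (m : ℕ) {i : ℕ} (h : i + 2 < m) :
    sw W m i ≫ sw W m (i + 1) ≫ sw W m i = sw W m (i + 1) ≫ sw W m i ≫ sw W m (i + 1) := by
  induction m generalizing i with
  | zero => omega
  | succ m ih =>
    obtain ⟨m, rfl⟩ : ∃ m', m = m' + 1 := ⟨m - 1, by omega⟩
    cases i with
    | zero =>
      obtain ⟨m, rfl⟩ : ∃ m', m = m' + 1 := ⟨m - 1, by omega⟩
      exact sw2_braid W W W (tpow W m)
    | succ i =>
      rw [sw_succ, sw_succ, ← whiskerLeft_comp, ← whiskerLeft_comp, ih (by omega),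
        whiskerLeft_comp, whiskerLeft_comp]

@[reassoc]
theorem sw_naturality {W W' : C} (g : W ⟶ W') (m i : ℕ) :
    tpowMap g m ≫ sw W' m i = sw W m i ≫ tpowMap g m := by
  induction m generalizing i with
  | zero => exact (Category.comp_id _).trans (Category.id_comp _).symm
  | succ m ih =>
    cases m with
    | zero => exact (Category.comp_id _).trans (Category.id_comp _).symm
    | succ m =>
      cases i with
      | zero => exact sw2_naturality g g (tpowMap g m)
      | succ i =>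
        rw [sw_succ, sw_succ]
        change (g ⊗ₘ tpowMap g (m + 1)) ≫ W' ◁ sw W' (m + 1) i =
          W ◁ sw W (m + 1) i ≫ (g ⊗ₘ tpowMap g (m + 1))
        rw [← id_tensorHom, ← id_tensorHom, tensorHom_comp_tensorHom, tensorHom_comp_tensorHom,
          ih, Category.comp_id, Category.id_comp]

theorem exists_perm (W : C) (m : ℕ) :
    ∃ f : Perm (Fin (m + 1)) →* End (tpow W (m + 1)), ∀ i : Fin m,
      f (adj i) = sw W (m + 1) i := by
  refine exists_perm_hom (M := End (tpow W (m + 1))) m (fun i => sw W (m + 1) i) ?_ ?_ ?_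
  · intro i _
    exact sw_sw W _ i
  · intro i j hij _
    exact (sw_far W _ hij).symm
  · intro i hi
    have h := sw_braid W (m + 1) (i := i) (by omega)
    change sw W (m + 1) i ≫ sw W (m + 1) (i + 1) ≫ sw W (m + 1) i =
      sw W (m + 1) (i + 1) ≫ sw W (m + 1) i ≫ sw W (m + 1) (i + 1)
    exact h

/-- the action of the symmetric group on the power -/
noncomputable def perm (W : C) : (m : ℕ) → Perm (Fin m) →* End (tpow W m)
  | 0 => 1
  | m + 1 => (exists_perm W m).choose

theorem perm_adj (W : C) {m : ℕ} (i : Fin m) : perm W (m + 1) (adj i) = sw W (m + 1) i :=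
  (exists_perm W m).choose_spec i

theorem perm_one (W : C) (m : ℕ) : perm W m 1 = 𝟙 (tpow W m) := map_one _

theorem perm_mul (W : C) (m : ℕ) (σ τ : Perm (Fin m)) :
    perm W m (σ * τ) = (perm W m τ ≫ perm W m σ : tpow W m ⟶ tpow W m) := map_mul _ _ _

theorem perm_adj_mul (W : C) {m : ℕ} (i : Fin m) (σ : Perm (Fin (m + 1))) :
    perm W (m + 1) (adj i * σ) =
      (perm W (m + 1) σ ≫ sw W (m + 1) i : tpow W (m + 1) ⟶ tpow W (m + 1)) := by
  rw [perm_mul, perm_adj]

/-- naturality -/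
theorem perm_naturality {W W' : C} (g : W ⟶ W') (m : ℕ) (σ : Perm (Fin m)) :
    tpowMap g m ≫ (perm W' m σ : tpow W' m ⟶ tpow W' m) = perm W m σ ≫ tpowMap g m := by
  cases m with
  | zero => exact (Category.comp_id _).trans (Category.id_comp _).symm
  | succ m =>
    induction σ using perm_induction with
    | h1 => rw [perm_one, perm_one, Category.comp_id, Category.id_comp]
    | h i σ hσ =>
      rw [perm_adj_mul, perm_adj_mul, reassoc_of% hσ, Category.assoc, sw_naturality]

section preadditive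

variable [Preadditive C]

/-- the action of the group algebra -/
noncomputable def permAlg (W : C) (m : ℕ) :
    MonoidAlgebra ℤ (Perm (Fin m)) →ₐ[ℤ] End (tpow W m) :=
  MonoidAlgebra.lift ℤ _ _ (perm W m)

theorem permAlg_single (W : C) (m : ℕ) (σ : Perm (Fin m)) (n : ℤ) :
    permAlg W m (MonoidAlgebra.single σ n) = n • perm W m σ :=
  MonoidAlgebra.lift_single _ _ _

theorem permAlg_mul (W : C) (m : ℕ) (a b : MonoidAlgebra ℤ (Perm (Fin m))) :
    permAlg W m (a * b) = (permAlg W m b ≫ permAlg W m a : tpow W m ⟶ tpow W m) :=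
  map_mul _ _ _

end preadditive

end Vale.Agent.P093.SymPow
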