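import Vale.Agent.P093.N.YoungEval

/-!
# P093, part N, block YOUNG: the Young symmetrizer `Y p r` in `ℤ[Perm (Fin m)]`, `m = M p r`

`Y p r * Y p r = nY p r • Y p r`, `p ∤ nY p r`; for every commutative ring `k`, `Y p r` acts as `0`
on the `m`-fold tensor power of every `k`-module generated by fewer than `r` elements, and
non trivially on the `m`-fold tensor power of every free `k`-module of rank at least `r`, as soon as
the integers prime to `p` do not vanish in `k`. Both for the tensor power in the form
`(Fin m → ι) → k` (`act`) and for `PiTensorProduct` (`tact`).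
-/

open Finset Equiv MonoidAlgebra TensorProduct

namespace Vale.Agent.P093.N.Young

noncomputable section

/-- the size of the partition `(p-1)(r, …, 1)` -/
def M (p r : ℕ) : ℕ := Fintype.card (Cell r (p - 1))

/-- a numbering of the cells -/
def numb (p r : ℕ) : Cell r (p - 1) ≃ Fin (M p r) := Fintype.equivFin _

/-- the Young symmetrizer -/
def Y (p r : ℕ) : MonoidAlgebra ℤ (Perm (Fin (M p r))) :=
  MonoidAlgebra.domCongr ℤ ℤ (numb p r).permCongrHom (yy r (p - 1))

/-- the constant of the Young symmetrizer -/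
def nY (p r : ℕ) : ℤ := (yy_mul_yy r (p - 1)).choose

theorem Y_mul_Y (p r : ℕ) : Y p r * Y p r = nY p r • Y p r := by
  unfold Y
  rw [← map_mul, (yy_mul_yy r (p - 1)).choose_spec, map_zsmul]
  rfl

theorem not_dvd_nY {p : ℕ} (hp : p.Prime) (r : ℕ) : ¬ (p : ℤ) ∣ nY p r :=
  not_dvd_of_yy hp (by have := hp.one_lt; omega) (yy_mul_yy r (p - 1)).choose_spec

section transport

variable {k ι κ κ' : Type*} [CommRing k]

lemma act_domCongr (ε : κ ≃ κ') (x : MonoidAlgebra ℤ (Perm κ)) (F : (κ' → ι) → k)
    (f : κ' → ι) :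
    act k ι κ' (MonoidAlgebra.domCongr ℤ ℤ ε.permCongrHom x) F f =
      act k ι κ x (fun g => F (g ∘ ε.symm)) (f ∘ ε) := by
  induction x using MonoidAlgebra.induction_linear with
  | zero => simp
  | add g h hg hh =>
    simp only [map_add, LinearMap.add_apply, Pi.add_apply]
    rw [hg, hh]
  | single σ n =>
    rw [MonoidAlgebra.domCongr_single, act_single, act_single]
    congr 2

lemma act_domCongr_eq_zero (ε : κ ≃ κ') (x : MonoidAlgebra ℤ (Perm κ)) :
    act k ι κ' (MonoidAlgebra.domCongr ℤ ℤ ε.permCongrHom x) = 0 ↔ act k ι κ x = 0 := by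
  constructor
  · intro h
    refine LinearMap.ext fun F => funext fun f => ?_
    have := act_domCongr ε x (fun g : κ' → ι => F (g ∘ ε)) (f ∘ ε.symm)
    rw [h] at this
    have e1 : (f ∘ ε.symm) ∘ ε = f := by
      funext a
      simp
    have e2 : (fun g : κ → ι => F ((g ∘ ε.symm) ∘ ε)) = F := by
      funext g
      congr 1
      funext a
      simp
    rw [e1, e2] at this
    exact this.symm
  · intro h
    refine LinearMap.ext fun F => funext fun f => ?_
    rw [act_domCongr, h]
    rfl

end transport

/-- `Y p r` kills the tensor powers of rank `< r` -/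
theorem act_Y_eq_zero {p : ℕ} (hp : p.Prime) {r : ℕ} {k ι : Type*} [CommRing k] [Fintype ι]
    (hι : Fintype.card ι < r) : act k ι (Fin (M p r)) (Y p r) = 0 :=
  (act_domCongr_eq_zero _ _).2 (act_yy_eq_zero hι (by have := hp.one_lt; omega))

/-- `Y p r` acts non trivially on the tensor powers of rank `≥ r`, if the integers prime to `p` do
not vanish in `k` -/
theorem act_Y_ne_zero {p : ℕ} (hp : p.Prime) {r : ℕ} {k ι : Type*} [CommRing k] [Fintype ι]
    (hk : ∀ c : ℤ, ¬ (p : ℤ) ∣ c → (c : k) ≠ 0) (hι : r ≤ Fintype.card ι) :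
    act k ι (Fin (M p r)) (Y p r) ≠ 0 := fun h =>
  act_yy_ne_zero hp (q := p - 1) (by have := hp.one_lt; omega) hk hι
    ((act_domCongr_eq_zero _ _).1 h)

/-- the integers prime to `p` do not vanish in characteristic `p` -/
lemma ne_zero_of_charP (p : ℕ) (k : Type*) [CommRing k] [Nontrivial k] [CharP k p] (c : ℤ)
    (hc : ¬ (p : ℤ) ∣ c) : (c : k) ≠ 0 := fun h => hc ((CharP.intCast_eq_zero_iff k p c).1 h)

/-! ### `PiTensorProduct` -/

section tensor

variable (k N κ : Type*) [CommRing k] [AddCommGroup N] [Module k N]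

/-- place permutations of the tensor power `⨂[k] _ : κ, N` -/
def permRepT : Perm κ →* Module.End k (⨂[k] _ : κ, N) where
  toFun σ := (PiTensorProduct.reindex k (fun _ : κ => N) σ).toLinearMap
  map_one' := by
    refine PiTensorProduct.ext (MultilinearMap.ext fun f => ?_)
    simp only [LinearMap.compMultilinearMap_apply, LinearEquiv.coe_coe]
    erw [PiTensorProduct.reindex_tprod]
    rfl
  map_mul' σ τ := by
    refine PiTensorProduct.ext (MultilinearMap.ext fun f => ?_)
    simp only [LinearMap.compMultilinearMap_apply, LinearEquiv.coe_coe, Module.End.mul_apply]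
    erw [PiTensorProduct.reindex_tprod, PiTensorProduct.reindex_tprod,
      PiTensorProduct.reindex_tprod]
    rfl

lemma permRepT_tprod (σ : Perm κ) (f : κ → N) :
    permRepT k N κ σ (PiTensorProduct.tprod k f) = PiTensorProduct.tprod k (f ∘ ⇑(σ⁻¹)) := by
  change PiTensorProduct.reindex k (fun _ : κ => N) σ (PiTensorProduct.tprod k f) = _
  erw [PiTensorProduct.reindex_tprod]
  rfl

/-- the action of the integral group algebra on the tensor power `⨂[k] _ : κ, N` -/
def tact : MonoidAlgebra ℤ (Perm κ) →ₐ[ℤ] Module.End k (⨂[k] _ : κ, N) :=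
  MonoidAlgebra.lift ℤ _ _ (permRepT k N κ)

lemma tact_single (σ : Perm κ) (n : ℤ) (t : ⨂[k] _ : κ, N) :
    tact k N κ (single σ n) t = n • permRepT k N κ σ t := by
  unfold tact
  rw [MonoidAlgebra.lift_single]
  rfl

variable {k N κ} {ι : Type*} [Fintype ι] [Fintype κ] [DecidableEq κ]

/-- `F ↦ ∑ f, F f • ⨂ v_(f i)` -/
def toT (v : ι → N) : ((κ → ι) → k) →ₗ[k] ⨂[k] _ : κ, N :=
  Fintype.linearCombination k fun f : κ → ι => PiTensorProduct.tprod k fun i => v (f i)

lemma tact_toT (v : ι → N) (x : MonoidAlgebra ℤ (Perm κ)) (F : (κ → ι) → k) :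
    tact k N κ x (toT v F) = toT v (act k ι κ x F) := by
  induction x using MonoidAlgebra.induction_linear with
  | zero => simp
  | add g h hg hh => simp only [map_add, LinearMap.add_apply, hg, hh]
  | single σ n =>
    rw [tact_single]
    have h1 : act k ι κ (single σ n) F = n • fun f : κ → ι => F (f ∘ σ) := by
      funext f
      rw [act_single, Pi.smul_apply, zsmul_eq_mul]
    rw [h1, map_zsmul]
    congr 1
    unfold toT
    rw [Fintype.linearCombination_apply, Fintype.linearCombination_apply, map_sum]
    refine Fintype.sum_equiv (Equiv.arrowCongr σ (Equiv.refl ι)) _ _ fun f => ?_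
    rw [map_smul, permRepT_tprod]
    congr 1
    · congr 1
      funext i
      simp [Equiv.arrowCongr]

lemma toT_surjective {v : ι → N} (hv : Submodule.span k (Set.range v) = ⊤) :
    Function.Surjective (toT v : ((κ → ι) → k) →ₗ[k] ⨂[k] _ : κ, N) := by
  rw [← LinearMap.range_eq_top, eq_top_iff, ← PiTensorProduct.span_tprod_eq_top,
    Submodule.span_le]
  rintro _ ⟨g, rfl⟩
  have h1 : ∀ i, ∃ c : ι → k, ∑ j, c j • v j = g i := fun i => by
    have : g i ∈ Submodule.span k (Set.range v) := by rw [hv]; trivial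
    exact (Submodule.mem_span_range_iff_exists_fun k).1 this
  choose c hc using h1
  have h2 : (PiTensorProduct.tprod k g : ⨂[k] _ : κ, N) =
      toT v fun f => ∏ i, c i (f i) := by
    have : g = fun i => ∑ j, c i j • v j := funext fun i => (hc i).symm
    rw [this, MultilinearMap.map_sum]
    unfold toT
    rw [Fintype.linearCombination_apply]
    refine Finset.sum_congr rfl fun f _ => ?_
    rw [MultilinearMap.map_smul_univ]
  rw [h2]
  exact ⟨_, rfl⟩

lemma toT_injective (b : Module.Basis ι k N) :
    Function.Injective (toT ⇑b : ((κ → ι) → k) →ₗ[k] ⨂[k] _ : κ, N) := by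
  classical
  -- coefficient extraction
  let φ : (κ → ι) → (⨂[k] _ : κ, N) →ₗ[k] k := fun f =>
    PiTensorProduct.lift ((MultilinearMap.mkPiAlgebra k κ k).compLinearMap fun i => b.coord (f i))
  have hφ : ∀ f F, φ f (toT ⇑b F) = F f := by
    intro f F
    unfold toT
    rw [Fintype.linearCombination_apply, map_sum, Finset.sum_eq_single_of_mem f (mem_univ _)]
    · simp [φ]
    · intro g _ hg
      rw [map_smul]
      have : ∃ i, g i ≠ f i := by
        by_contra h
        push Not at h
        exact hg (funext h)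
      obtain ⟨i, hi⟩ := this
      have : φ f (PiTensorProduct.tprod k fun i => b (g i)) = 0 := by
        simp only [φ, PiTensorProduct.lift.tprod, MultilinearMap.compLinearMap_apply,
          MultilinearMap.mkPiAlgebra_apply]
        refine Finset.prod_eq_zero (mem_univ i) ?_
        rw [Module.Basis.coord_apply, Module.Basis.repr_self, Finsupp.single_apply, if_neg hi]
      rw [this, smul_zero]
  intro F G h
  funext f
  rw [← hφ f F, ← hφ f G, h]

end tensor

/-- `Y p r` kills the tensor powers of the modules generated by fewer than `r` elements -/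
theorem tact_Y_eq_zero {p : ℕ} (hp : p.Prime) {r : ℕ} {k N ι : Type*} [CommRing k]
    [AddCommGroup N] [Module k N] [Fintype ι] {v : ι → N}
    (hv : Submodule.span k (Set.range v) = ⊤) (hι : Fintype.card ι < r) :
    tact k N (Fin (M p r)) (Y p r) = 0 := by
  refine LinearMap.ext fun t => ?_
  obtain ⟨F, rfl⟩ := toT_surjective hv t
  rw [tact_toT, act_Y_eq_zero hp hι]
  simp

/-- `Y p r` acts non trivially on the tensor powers of the free modules of rank `≥ r` -/
theorem tact_Y_ne_zero {p : ℕ} (hp : p.Prime) {r : ℕ} {k N ι : Type*} [CommRing k]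
    [AddCommGroup N] [Module k N] [Fintype ι] (b : Module.Basis ι k N)
    (hk : ∀ c : ℤ, ¬ (p : ℤ) ∣ c → (c : k) ≠ 0) (hι : r ≤ Fintype.card ι) :
    tact k N (Fin (M p r)) (Y p r) ≠ 0 := by
  intro h
  refine act_Y_ne_zero hp hk hι (LinearMap.ext fun F => ?_)
  refine toT_injective b ?_
  rw [← tact_toT, h]
  simp

end

end Vale.Agent.P093.N.Young
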