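import Mathlib.LinearAlgebra.PiTensorProduct.Basis
import Mathlib.LinearAlgebra.TensorProduct.Basis
import Mathlib.LinearAlgebra.Multilinear.Curry
import Vale.Agent.P093.N.SymPow
import Vale.Agent.P093.N.Young

/-!
# P093, part N: powers under a lax symmetric monoidal functor to modules

`LaxF k C` : a lax symmetric monoidal functor `V : C ⥤ Mod k`. The `m`-fold product
`F.pw W m x : V (tpow W m)` of `x : Fin m → V W`, its equivariance
`map_perm_pw : map (perm W m σ) (pw x) = pw (x ∘ σ⁻¹)`, the map
`F.kap W m : ⨂[k] (_ : Fin m), V W →ₗ V (tpow W m)`, its compatibility with the group algebra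
(`map_permAlg_kap`), bases (`powBasis`), the Young symmetrizer (`map_young_eq_zero`,
`map_young_ne_zero`).
-/

open CategoryTheory MonoidalCategory Equiv
open scoped TensorProduct

universe w v u

noncomputable section

namespace Vale.Agent.P093.SymPow

open Vale.Agent.P093.Cox Vale.Agent.P093.N.Young

/-- A lax symmetric monoidal functor to modules. -/
structure LaxF (k : Type*) [CommRing k] (C : Type u) [Category.{v} C] [MonoidalCategory C]
    [SymmetricCategory C] where
  /-- the values -/
  V : C → Type w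
  [ac : ∀ X, AddCommGroup (V X)]
  [md : ∀ X, Module k (V X)]
  /-- functoriality -/
  map {X Y : C} (f : X ⟶ Y) : V X →ₗ[k] V Y
  map_id (X : C) (x : V X) : map (𝟙 X) x = x
  map_comp {X Y Z : C} (f : X ⟶ Y) (g : Y ⟶ Z) (x : V X) : map (f ≫ g) x = map g (map f x)
  /-- the external product -/
  m (X Y : C) : V X →ₗ[k] V Y →ₗ[k] V (X ⊗ Y)
  /-- the unit -/
  e : V (𝟙_ C)
  m_nat {X X' Y Y' : C} (f : X ⟶ X') (g : Y ⟶ Y') (x : V X) (y : V Y) :
    map (f ⊗ₘ g) (m X Y x y) = m X' Y' (map f x) (map g y)
  m_assoc (X Y Z : C) (x : V X) (y : V Y) (z : V Z) :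
    map (α_ X Y Z).hom (m (X ⊗ Y) Z (m X Y x y) z) = m X (Y ⊗ Z) x (m Y Z y z)
  m_comm (X Y : C) (x : V X) (y : V Y) : map (β_ X Y).hom (m X Y x y) = m Y X y x

attribute [instance] LaxF.ac LaxF.md

variable {k : Type*} [CommRing k] {C : Type u} [Category.{v} C] [MonoidalCategory C]
    [SymmetricCategory C] (F : LaxF.{w} k C)

namespace LaxF

theorem map_whiskerLeft (X : C) {Y Y' : C} (g : Y ⟶ Y') (x : F.V X) (y : F.V Y) :
    F.map (X ◁ g) (F.m X Y x y) = F.m X Y' x (F.map g y) := by
  rw [← id_tensorHom, F.m_nat, F.map_id]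

theorem map_whiskerRight {X X' : C} (f : X ⟶ X') (Y : C) (x : F.V X) (y : F.V Y) :
    F.map (f ▷ Y) (F.m X Y x y) = F.m X' Y (F.map f x) y := by
  rw [← tensorHom_id, F.m_nat, F.map_id]

theorem m_assoc_inv (X Y Z : C) (x : F.V X) (y : F.V Y) (z : F.V Z) :
    F.map (α_ X Y Z).inv (F.m X (Y ⊗ Z) x (F.m Y Z y z)) = F.m (X ⊗ Y) Z (F.m X Y x y) z := by
  rw [← F.m_assoc, ← F.map_comp, Iso.hom_inv_id, F.map_id]

theorem map_sw2 (X Y R : C) (x : F.V X) (y : F.V Y) (z : F.V R) :
    F.map (sw2 X Y R) (F.m X (Y ⊗ R) x (F.m Y R y z)) =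
      F.m Y (X ⊗ R) y (F.m X R x z) := by
  unfold sw2
  rw [F.map_comp, F.map_comp, m_assoc_inv, map_whiskerRight, F.m_comm, F.m_assoc]

/-- the `m`-fold product -/
def pw (W : C) : (m : ℕ) → (Fin m → F.V W) → F.V (tpow W m)
  | 0, _ => F.e
  | m + 1, x => F.m W (tpow W m) (x 0) (pw W m (Fin.tail x))

theorem pw_succ (W : C) (m : ℕ) (x : Fin (m + 1) → F.V W) :
    F.pw W (m + 1) x = F.m W (tpow W m) (x 0) (F.pw W m (Fin.tail x)) := rfl

theorem adj_succ_apply_zero {m : ℕ} (i : Fin m) : adj i.succ 0 = 0 := by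
  apply Fin.ext
  rw [adj_apply]
  simp

theorem adj_succ_apply_succ {m : ℕ} (i : Fin m) (j : Fin (m + 1)) :
    adj i.succ j.succ = (adj i j).succ := by
  apply Fin.ext
  rw [adj_apply, Fin.val_succ, Fin.val_succ, Fin.val_succ, adj_apply]
  split_ifs <;> omega

theorem map_sw_pw (W : C) {m : ℕ} (i : Fin m) (x : Fin (m + 1) → F.V W) :
    F.map (sw W (m + 1) i) (F.pw W (m + 1) x) = F.pw W (m + 1) (x ∘ adj i) := by
  induction m with
  | zero => exact i.elim0
  | succ m ih =>
    refine Fin.cases ?_ (fun i => ?_) i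
    · change F.map (sw2 W W (tpow W m)) (F.m W (W ⊗ tpow W m) (x 0)
        (F.m W (tpow W m) (x 1) (F.pw W m (Fin.tail (Fin.tail x))))) = _
      rw [map_sw2, pw_succ, pw_succ]
      have h0 : (x ∘ adj (0 : Fin (m + 1))) 0 = x 1 := by
        change x (adj 0 0) = x 1
        congr 1
      have h1 : Fin.tail (x ∘ adj (0 : Fin (m + 1))) 0 = x 0 := by
        change x (adj 0 (Fin.succ 0)) = x 0
        congr 1
      have h2 : Fin.tail (Fin.tail (x ∘ adj (0 : Fin (m + 1)))) = Fin.tail (Fin.tail x) := by
        funext j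
        change x (adj 0 j.succ.succ) = x j.succ.succ
        congr 1
      rw [h0, h1, h2]
    · change F.map (W ◁ sw W (m + 1) i) (F.m W (tpow W (m + 1)) (x 0)
        (F.pw W (m + 1) (Fin.tail x))) = _
      rw [map_whiskerLeft, ih, F.pw_succ W (m + 1)]
      have h0 : (x ∘ adj i.succ) 0 = x 0 := by
        change x (adj i.succ 0) = x 0
        rw [adj_succ_apply_zero]
      have h1 : Fin.tail (x ∘ adj i.succ) = Fin.tail x ∘ adj i := by
        funext j
        change x (adj i.succ j.succ) = x (adj i j).succ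
        rw [adj_succ_apply_succ]
      rw [h0, h1]

/-- **Equivariance of the products.** -/
theorem map_perm_pw (W : C) (m : ℕ) (σ : Perm (Fin m)) (x : Fin m → F.V W) :
    F.map (perm W m σ) (F.pw W m x) = F.pw W m (x ∘ ⇑(σ⁻¹)) := by
  cases m with
  | zero =>
    change F.map (𝟙 _) _ = _
    rw [F.map_id]
    rfl
  | succ m =>
    induction σ using perm_induction with
    | h1 =>
      rw [perm_one, F.map_id]
      rfl
    | h i σ hσ =>
      rw [perm_adj_mul, F.map_comp, hσ, map_sw_pw]
      have h : (adj i)⁻¹ = adj i := swap_inv _ _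
      rw [mul_inv_rev, h]
      rfl

/-- the product as a multilinear map -/
def pwM (W : C) : (m : ℕ) → MultilinearMap k (fun _ : Fin m => F.V W) (F.V (tpow W m))
  | 0 => MultilinearMap.constOfIsEmpty k _ F.e
  | m + 1 => LinearMap.uncurryLeft
      { toFun := fun x => (F.m W (tpow W m) x).compMultilinearMap (pwM W m)
        map_add' := fun x y => by
          ext z
          simp
        map_smul' := fun c x => by
          ext z
          simp }

theorem pwM_apply (W : C) (m : ℕ) (x : Fin m → F.V W) : F.pwM W m x = F.pw W m x := by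
  induction m with
  | zero => rfl
  | succ m ih =>
    rw [pw_succ, ← ih]
    rfl

/-- the product as a linear map on the tensor power -/
def kap (W : C) (m : ℕ) : (⨂[k] _ : Fin m, F.V W) →ₗ[k] F.V (tpow W m) :=
  PiTensorProduct.lift (F.pwM W m)

theorem kap_tprod (W : C) (m : ℕ) (x : Fin m → F.V W) :
    F.kap W m (PiTensorProduct.tprod k x) = F.pw W m x := by
  unfold kap
  rw [PiTensorProduct.lift.tprod, pwM_apply]

theorem map_perm_kap (W : C) (m : ℕ) (σ : Perm (Fin m)) (t : ⨂[k] _ : Fin m, F.V W) :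
    F.map (perm W m σ) (F.kap W m t) = F.kap W m (permRepT k (F.V W) (Fin m) σ t) := by
  induction t using PiTensorProduct.induction_on with
  | smul_tprod r x =>
    rw [map_smul, map_smul, map_smul, map_smul, permRepT_tprod, kap_tprod, kap_tprod, map_perm_pw]
  | add x y hx hy => rw [map_add, map_add, map_add, map_add, hx, hy]

section preadditive

variable [Preadditive C] (hadd : ∀ {X Y : C} (f g : X ⟶ Y) (x : F.V X),
  F.map (f + g) x = F.map f x + F.map g x)

include hadd

theorem map_zero' {X Y : C} (x : F.V X) : F.map (0 : X ⟶ Y) x = 0 := by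
  have h := hadd (0 : X ⟶ Y) 0 x
  rw [add_zero] at h
  exact left_eq_add.1 h

theorem map_zsmul' {X Y : C} (n : ℤ) (f : X ⟶ Y) (x : F.V X) :
    F.map (n • f) x = n • F.map f x := by
  let φ : (X ⟶ Y) →+ F.V Y :=
    { toFun := fun f => F.map f x, map_zero' := F.map_zero' hadd x, map_add' := fun f g => hadd f g x }
  exact map_zsmul φ n f

theorem map_permAlg_kap (W : C) (m : ℕ) (a : MonoidAlgebra ℤ (Perm (Fin m)))
    (t : ⨂[k] _ : Fin m, F.V W) :
    F.map (permAlg W m a) (F.kap W m t) = F.kap W m (tact k (F.V W) (Fin m) a t) := by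
  induction a using MonoidAlgebra.induction_linear with
  | zero =>
    rw [map_zero, map_zero]
    exact (F.map_zero' hadd _).trans (map_zero _).symm
  | add g h hg hh =>
    rw [map_add, map_add, LinearMap.add_apply, map_add, ← hg, ← hh]
    exact hadd _ _ _
  | single σ n =>
    rw [permAlg_single, tact_single, map_zsmul, ← map_perm_kap]
    exact F.map_zsmul' hadd _ _ _

end preadditive

/-- the span of the products of elements of a submodule -/
def powSub (W : C) (N : Submodule k (F.V W)) (m : ℕ) : Submodule k (F.V (tpow W m)) :=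
  Submodule.span k {z | ∃ x : Fin m → F.V W, (∀ i, x i ∈ N) ∧ z = F.pw W m x}

theorem powSub_zero (W : C) (N : Submodule k (F.V W)) :
    F.powSub W N 0 = Submodule.span k {F.e} := by
  unfold powSub
  congr 1
  ext z
  constructor
  · rintro ⟨x, _, rfl⟩
    rfl
  · intro hz
    exact ⟨Fin.elim0, fun i => i.elim0, hz⟩

theorem powSub_succ (W : C) (N : Submodule k (F.V W)) (m : ℕ) :
    F.powSub W N (m + 1) = Submodule.map₂ (F.m W (tpow W m)) N (F.powSub W N m) := by
  apply le_antisymm
  · refine Submodule.span_le.2 ?_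
    rintro _ ⟨x, hx, rfl⟩
    exact Submodule.apply_mem_map₂ _ (hx 0)
      (Submodule.subset_span ⟨Fin.tail x, fun i => hx i.succ, rfl⟩)
  · rw [Submodule.map₂_le]
    intro x hx y hy
    induction hy using Submodule.span_induction with
    | mem y hy =>
      obtain ⟨z, hz, rfl⟩ := hy
      refine Submodule.subset_span ⟨Fin.cons x z, fun i => ?_, ?_⟩
      · refine Fin.cases ?_ (fun j => ?_) i
        · exact hx
        · exact hz j
      · rw [pw_succ, Fin.cons_zero, Fin.tail_cons]
    | zero => rw [map_zero]; exact Submodule.zero_mem _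
    | add y z _ _ hy hz => rw [map_add]; exact Submodule.add_mem _ hy hz
    | smul c y _ hy => rw [map_smul]; exact Submodule.smul_mem _ c hy

/-- the products of elements of `N` are the image of the tensor power of `N` -/
theorem mem_powSub (W : C) (N : Submodule k (F.V W)) (m : ℕ) {z : F.V (tpow W m)}
    (hz : z ∈ F.powSub W N m) :
    ∃ t : ⨂[k] _ : Fin m, N, z = F.kap W m (PiTensorProduct.map (fun _ => N.subtype) t) := by
  induction hz using Submodule.span_induction with
  | mem z hz =>
    obtain ⟨x, hx, rfl⟩ := hz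
    refine ⟨PiTensorProduct.tprod k fun i => ⟨x i, hx i⟩, ?_⟩
    rw [PiTensorProduct.map_tprod, kap_tprod]
    rfl
  | zero => exact ⟨0, by rw [map_zero, map_zero]⟩
  | add y z _ _ hy hz =>
    obtain ⟨s, rfl⟩ := hy
    obtain ⟨t, rfl⟩ := hz
    exact ⟨s + t, by rw [map_add, map_add]⟩
  | smul c y _ hy =>
    obtain ⟨s, rfl⟩ := hy
    exact ⟨c • s, by rw [map_smul, map_smul]⟩

/-! ### Kuenneth isomorphisms and bases -/

/-- the Kuenneth isomorphisms for the powers of `W` -/
structure Kun (W : C) : Prop where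
  unit : Function.Bijective fun a : k => a • F.e
  bij (m : ℕ) : Function.Bijective (TensorProduct.lift (F.m W (tpow W m)))

variable {F} in
/-- the unit isomorphism -/
def Kun.unitEquiv {W : C} (h : F.Kun W) : k ≃ₗ[k] F.V (𝟙_ C) :=
  LinearEquiv.ofBijective (LinearMap.toSpanSingleton k _ F.e) h.unit

variable {F} in
/-- the Kuenneth isomorphism -/
def Kun.equiv {W : C} (h : F.Kun W) (m : ℕ) :
    F.V W ⊗[k] F.V (tpow W m) ≃ₗ[k] F.V (tpow W (m + 1)) :=
  LinearEquiv.ofBijective (TensorProduct.lift (F.m W (tpow W m))) (h.bij m)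

theorem Kun.equiv_tmul {F : LaxF.{w} k C} {W : C} (h : F.Kun W) (m : ℕ) (x : F.V W)
    (y : F.V (tpow W m)) : h.equiv m (x ⊗ₜ y) = F.m W (tpow W m) x y := rfl

variable {F} in
/-- the basis of the value on the power -/
def powBasis {W : C} (h : F.Kun W) {J : Type*} (b : Module.Basis J k (F.V W)) :
    (m : ℕ) → Module.Basis (Fin m → J) k (F.V (tpow W m))
  | 0 => (Module.Basis.singleton (Fin 0 → J) k).map h.unitEquiv
  | m + 1 => ((b.tensorProduct (powBasis h b m)).map (h.equiv m)).reindex
      (Fin.consEquiv fun _ => J)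

theorem powBasis_apply {W : C} (h : F.Kun W) {J : Type*} (b : Module.Basis J k (F.V W)) (m : ℕ)
    (f : Fin m → J) : powBasis h b m f = F.pw W m fun i => b (f i) := by
  induction m with
  | zero =>
    change h.unitEquiv ((Module.Basis.singleton (Fin 0 → J) k) f) = F.e
    rw [Module.Basis.singleton_apply]
    exact one_smul _ _
  | succ m ih =>
    change (((b.tensorProduct (powBasis h b m)).map (h.equiv m)).reindex
      (Fin.consEquiv fun _ => J)) f = _
    rw [Module.Basis.reindex_apply, Module.Basis.map_apply, Module.Basis.tensorProduct_apply',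
      Kun.equiv_tmul, pw_succ, ih]
    rfl

/-- the comparison of the tensor power with the value on the power -/
def kapEquiv {W : C} (h : F.Kun W) {J : Type*} (b : Module.Basis J k (F.V W)) (m : ℕ) :
    (⨂[k] _ : Fin m, F.V W) ≃ₗ[k] F.V (tpow W m) :=
  (Module.Basis.equiv (_root_.Basis.piTensorProduct fun _ : Fin m => b)
    (powBasis h b m) (Equiv.refl _))

theorem coe_kapEquiv {W : C} (h : F.Kun W) {J : Type*} (b : Module.Basis J k (F.V W)) (m : ℕ) :
    (F.kapEquiv h b m).toLinearMap = F.kap W m := by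
  refine Module.Basis.ext (_root_.Basis.piTensorProduct fun _ : Fin m => b) fun f => ?_
  unfold kapEquiv
  rw [LinearEquiv.coe_coe, Module.Basis.equiv_apply, Equiv.refl_apply, powBasis_apply,
    _root_.Basis.piTensorProduct_apply, kap_tprod]

theorem kap_bijective {W : C} (h : F.Kun W) {J : Type*} (b : Module.Basis J k (F.V W)) (m : ℕ) :
    Function.Bijective (F.kap W m) := by
  rw [← F.coe_kapEquiv h b m]
  exact (F.kapEquiv h b m).bijective

/-! ### The Young symmetrizer -/

theorem tact_map {V V' : Type*} [AddCommGroup V] [Module k V] [AddCommGroup V'] [Module k V']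
    (f : V →ₗ[k] V') {m : ℕ} (a : MonoidAlgebra ℤ (Perm (Fin m))) (t : ⨂[k] _ : Fin m, V) :
    tact k V' (Fin m) a (PiTensorProduct.map (fun _ => f) t) =
      PiTensorProduct.map (fun _ => f) (tact k V (Fin m) a t) := by
  induction a using MonoidAlgebra.induction_linear with
  | zero => simp
  | add g h hg hh => rw [map_add, map_add, LinearMap.add_apply, LinearMap.add_apply, hg, hh, map_add]
  | single σ n =>
    rw [tact_single, tact_single, map_zsmul]
    congr 1
    induction t using PiTensorProduct.induction_on with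
    | smul_tprod r x =>
      rw [map_smul, map_smul, map_smul, map_smul, PiTensorProduct.map_tprod, permRepT_tprod,
        permRepT_tprod, PiTensorProduct.map_tprod]
      rfl
    | add x y hx hy => rw [map_add, map_add, map_add, map_add, hx, hy]

section young

variable [Preadditive C] (hadd : ∀ {X Y : C} (f g : X ⟶ Y) (x : F.V X),
  F.map (f + g) x = F.map f x + F.map g x) {p : ℕ} (hp : p.Prime)

include hadd hp

/-- The Young symmetrizer kills the products of elements of a small submodule. -/
theorem map_young_eq_zero (W : C) (N : Submodule k (F.V W)) {r : ℕ} {ι : Type*} [Fintype ι]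
    {v : ι → N} (hv : Submodule.span k (Set.range v) = ⊤) (hι : Fintype.card ι < r)
    {z : F.V (tpow W (M p r))} (hz : z ∈ F.powSub W N (M p r)) :
    F.map (permAlg W (M p r) (Y p r)) z = 0 := by
  obtain ⟨t, rfl⟩ := F.mem_powSub W N _ hz
  rw [F.map_permAlg_kap hadd, tact_map, tact_Y_eq_zero hp hv hι, LinearMap.zero_apply, map_zero,
    map_zero]

/-- The Young symmetrizer does not vanish on the power of a large module. -/
theorem map_young_ne_zero {W : C} (h : F.Kun W) {J : Type*} [Fintype J]
    (b : Module.Basis J k (F.V W)) (hk : ∀ c : ℤ, ¬ (p : ℤ) ∣ c → (c : k) ≠ 0) {r : ℕ}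
    (hr : r ≤ Fintype.card J) :
    F.map (permAlg W (M p r) (Y p r)) ≠ 0 := by
  intro h0
  refine tact_Y_ne_zero hp b hk hr (LinearMap.ext fun t => ?_)
  apply (F.kap_bijective h b (M p r)).1
  rw [← F.map_permAlg_kap hadd, h0, LinearMap.zero_apply, LinearMap.zero_apply, map_zero]

end young

end LaxF

end Vale.Agent.P093.SymPow

end
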