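import Mathlib.RingTheory.Coalgebra.Basic
import Mathlib.RingTheory.Bialgebra.Basic
import Mathlib.RingTheory.Coalgebra.TensorProduct
import Mathlib.RingTheory.TensorProduct.Maps
import Mathlib.Tactic

/-!
# P093, part N: matrix coefficients of comodules (block N3-X)

A coaction of a coalgebra `A` on `M` is a linear map `ρ : M → A ⊗ M`.  A functional `φ : M → k`
defines `sharp ρ φ : M → A`, `m ↦ ∑ m₍₋₁₎ φ(m₍₀₎)`, which is colinear, and multiplicative for
external products.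

* `comul_sharp` : `sharp ρ φ` is colinear;
* `sharp_ext` : for an external product `μ : M → N → V` compatible with the coactions,
  `sharp (μ m n) = sharp m * sharp n`;
* `sharp_comp` : naturality.
-/

open TensorProduct

namespace Vale.Agent.P093.NX

section sharp

variable {k A M N V : Type*} [CommRing k] [AddCommGroup M] [Module k M]
  [AddCommGroup N] [Module k N] [AddCommGroup V] [Module k V]

/-- The matrix coefficient map `m ↦ ∑ m₍₋₁₎ φ(m₍₀₎)`. -/
noncomputable def sharp [AddCommGroup A] [Module k A] (ρ : M →ₗ[k] A ⊗[k] M) (φ : M →ₗ[k] k) :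
    M →ₗ[k] A :=
  (TensorProduct.rid k A).toLinearMap ∘ₗ (φ.lTensor A) ∘ₗ ρ

theorem sharp_apply [AddCommGroup A] [Module k A] (ρ : M →ₗ[k] A ⊗[k] M) (φ : M →ₗ[k] k) (m : M) :
    sharp ρ φ m = TensorProduct.rid k A (φ.lTensor A (ρ m)) := rfl

/-- The value of `sharp ρ φ m` from a representation of `ρ m`. -/
theorem sharp_of_eq_sum [AddCommGroup A] [Module k A] (ρ : M →ₗ[k] A ⊗[k] M) (φ : M →ₗ[k] k)
    (m : M) {ι : Type*} (s : Finset ι) (a : ι → A) (x : ι → M)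
    (h : ρ m = ∑ i ∈ s, a i ⊗ₜ[k] x i) : sharp ρ φ m = ∑ i ∈ s, φ (x i) • a i := by
  rw [sharp_apply, h, map_sum, map_sum]
  exact Finset.sum_congr rfl fun i _ => by simp

theorem lTensor_assoc_aux [AddCommGroup A] [Module k A] (φ : M →ₗ[k] k) (z : A ⊗[k] A) (m : M) :
    ((TensorProduct.rid k A).toLinearMap ∘ₗ (φ.lTensor A)).lTensor A
      (TensorProduct.assoc k A A M (z ⊗ₜ[k] m)) = φ m • z := by
  induction z using TensorProduct.induction_on with
  | zero => simp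
  | tmul x y => simp
  | add x y hx hy => rw [TensorProduct.add_tmul, map_add, map_add, hx, hy, smul_add]

/-- `sharp ρ φ` is colinear if `ρ` is coassociative. -/
theorem comul_sharp [AddCommGroup A] [Module k A] [Coalgebra k A] (ρ : M →ₗ[k] A ⊗[k] M)
    (hρ : (TensorProduct.assoc k A A M).toLinearMap ∘ₗ
      (Coalgebra.comul (R := k) (A := A)).rTensor M ∘ₗ ρ = ρ.lTensor A ∘ₗ ρ) (φ : M →ₗ[k] k) :
    Coalgebra.comul (R := k) (A := A) ∘ₗ sharp ρ φ = (sharp ρ φ).lTensor A ∘ₗ ρ := by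
  have h1 : (sharp ρ φ).lTensor A ∘ₗ ρ =
      ((TensorProduct.rid k A).toLinearMap ∘ₗ (φ.lTensor A)).lTensor A ∘ₗ (ρ.lTensor A ∘ₗ ρ) := by
    rw [← LinearMap.comp_assoc, ← LinearMap.lTensor_comp]
    rfl
  rw [h1, ← hρ]
  have h2 : Coalgebra.comul (R := k) (A := A) ∘ₗ (TensorProduct.rid k A).toLinearMap ∘ₗ
      (φ.lTensor A) = ((TensorProduct.rid k A).toLinearMap ∘ₗ (φ.lTensor A)).lTensor A ∘ₗ
        (TensorProduct.assoc k A A M).toLinearMap ∘ₗ
          (Coalgebra.comul (R := k) (A := A)).rTensor M := by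
    refine TensorProduct.ext' fun a m => ?_
    have := lTensor_assoc_aux (A := A) φ (Coalgebra.comul (R := k) a) m
    simp only [LinearMap.comp_apply, LinearEquiv.coe_coe, LinearMap.lTensor_tmul,
      LinearMap.rTensor_tmul, TensorProduct.rid_tmul, map_smul]
    exact this.symm
  calc Coalgebra.comul (R := k) (A := A) ∘ₗ sharp ρ φ
      = (Coalgebra.comul (R := k) (A := A) ∘ₗ (TensorProduct.rid k A).toLinearMap ∘ₗ
          (φ.lTensor A)) ∘ₗ ρ := rfl
    _ = _ := by rw [h2]; rfl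

/-- The functional is recovered by the counit. -/
theorem counit_sharp [AddCommGroup A] [Module k A] [Coalgebra k A] (ρ : M →ₗ[k] A ⊗[k] M)
    (hρ : (TensorProduct.lid k M).toLinearMap ∘ₗ
      (Coalgebra.counit (R := k) (A := A)).rTensor M ∘ₗ ρ = LinearMap.id) (φ : M →ₗ[k] k) :
    Coalgebra.counit (R := k) (A := A) ∘ₗ sharp ρ φ = φ := by
  have h2 : Coalgebra.counit (R := k) (A := A) ∘ₗ (TensorProduct.rid k A).toLinearMap ∘ₗ
      (φ.lTensor A) = φ ∘ₗ (TensorProduct.lid k M).toLinearMap ∘ₗ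
        (Coalgebra.counit (R := k) (A := A)).rTensor M := by
    refine TensorProduct.ext' fun a m => ?_
    simp [mul_comm]
  calc Coalgebra.counit (R := k) (A := A) ∘ₗ sharp ρ φ
      = (Coalgebra.counit (R := k) (A := A) ∘ₗ (TensorProduct.rid k A).toLinearMap ∘ₗ
          (φ.lTensor A)) ∘ₗ ρ := rfl
    _ = φ ∘ₗ ((TensorProduct.lid k M).toLinearMap ∘ₗ
      (Coalgebra.counit (R := k) (A := A)).rTensor M ∘ₗ ρ) := by rw [h2]; rfl
    _ = φ := by rw [hρ]; rfl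

/-- Naturality: `sharp` of a pulled back functional along a colinear map. -/
theorem sharp_comp [AddCommGroup A] [Module k A] (ρ : M →ₗ[k] A ⊗[k] M) (σ : N →ₗ[k] A ⊗[k] N)
    (f : M →ₗ[k] N) (hf : σ ∘ₗ f = f.lTensor A ∘ₗ ρ) (φ : N →ₗ[k] k) :
    sharp ρ (φ ∘ₗ f) = sharp σ φ ∘ₗ f := by
  have : sharp σ φ ∘ₗ f = (TensorProduct.rid k A).toLinearMap ∘ₗ (φ.lTensor A) ∘ₗ (σ ∘ₗ f) := rfl
  rw [this, hf]
  simp only [sharp, LinearMap.lTensor_comp, LinearMap.comp_assoc]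

end sharp

section mul

variable {k A M N V : Type*} [CommRing k] [CommRing A] [Algebra k A]
  [AddCommGroup M] [Module k M] [AddCommGroup N] [Module k N] [AddCommGroup V] [Module k V]

/-- The product `(a ⊗ m) ⊗ (b ⊗ n) ↦ a b ⊗ μ m n`. -/
noncomputable def extMul (μ : M →ₗ[k] N →ₗ[k] V) :
    (A ⊗[k] M) ⊗[k] (A ⊗[k] N) →ₗ[k] A ⊗[k] V :=
  (TensorProduct.map (LinearMap.mul' k A) (TensorProduct.lift μ)) ∘ₗ
    (TensorProduct.tensorTensorTensorComm k A M A N).toLinearMap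

@[simp]
theorem extMul_tmul (μ : M →ₗ[k] N →ₗ[k] V) (a b : A) (m : M) (n : N) :
    extMul μ ((a ⊗ₜ[k] m) ⊗ₜ[k] (b ⊗ₜ[k] n)) = (a * b) ⊗ₜ[k] μ m n := by
  simp [extMul]

/-- `sharp` is multiplicative for external products. -/
theorem sharp_ext (ρ : M →ₗ[k] A ⊗[k] M) (σ : N →ₗ[k] A ⊗[k] N) (τ : V →ₗ[k] A ⊗[k] V)
    (μ : M →ₗ[k] N →ₗ[k] V) (φ : M →ₗ[k] k) (ψ : N →ₗ[k] k) (Φ : V →ₗ[k] k)
    (hΦ : ∀ m n, Φ (μ m n) = φ m * ψ n) (m : M) (n : N)
    (hτ : τ (μ m n) = extMul μ (ρ m ⊗ₜ[k] σ n)) :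
    sharp τ Φ (μ m n) = sharp ρ φ m * sharp σ ψ n := by
  rw [sharp_apply, sharp_apply, sharp_apply, hτ]
  induction ρ m using TensorProduct.induction_on with
  | zero => simp
  | add x y hx hy =>
    rw [TensorProduct.add_tmul, map_add, map_add, map_add, hx, hy, map_add, map_add, add_mul]
  | tmul a x =>
    induction σ n using TensorProduct.induction_on with
    | zero => simp
    | add y z hy hz =>
      rw [TensorProduct.tmul_add, map_add, map_add, map_add, hy, hz, map_add, map_add, mul_add]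
    | tmul b y =>
      simp only [extMul_tmul, LinearMap.lTensor_tmul, TensorProduct.rid_tmul, hΦ]
      simp only [Algebra.smul_mul_assoc, Algebra.mul_smul_comm, smul_smul]
      rw [mul_comm (ψ y)]

/-- The diagonal coaction on the tensor product. -/
noncomputable def coTen (ρ : M →ₗ[k] A ⊗[k] M) (σ : N →ₗ[k] A ⊗[k] N) :
    M ⊗[k] N →ₗ[k] A ⊗[k] (M ⊗[k] N) :=
  extMul (TensorProduct.mk k M N) ∘ₗ TensorProduct.map ρ σ

theorem coTen_tmul (ρ : M →ₗ[k] A ⊗[k] M) (σ : N →ₗ[k] A ⊗[k] N) (m : M) (n : N) :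
    coTen ρ σ (m ⊗ₜ[k] n) = extMul (TensorProduct.mk k M N) (ρ m ⊗ₜ[k] σ n) := rfl

theorem sharp_coTen (ρ : M →ₗ[k] A ⊗[k] M) (σ : N →ₗ[k] A ⊗[k] N) (φ : M →ₗ[k] k)
    (ψ : N →ₗ[k] k) (m : M) (n : N) :
    sharp (coTen ρ σ) (LinearMap.mul' k k ∘ₗ TensorProduct.map φ ψ) (m ⊗ₜ[k] n) =
      sharp ρ φ m * sharp σ ψ n :=
  sharp_ext ρ σ (coTen ρ σ) (TensorProduct.mk k M N) φ ψ _ (by simp) m n
    (coTen_tmul ρ σ m n)

end mul

/-! ### Products of `k` elements of `{1, t_1, …, t_r}` -/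

section span

variable {k A : Type*} [CommRing k] [CommRing A] [Algebra k A]

/-- If `1` and the `t i` are in the submodule `G`, then a monomial of degree at most `n` in the
`t i` is a product of `n` elements of `G`. -/
theorem monomial_mem_pow {ι : Type*} [Fintype ι] (t : ι → A) (G : Submodule k A)
    (h1 : (1 : A) ∈ G) (ht : ∀ i, t i ∈ G) (e : ι → ℕ) {n : ℕ} (hn : ∑ i, e i ≤ n) :
    ∏ i, t i ^ e i ∈ G ^ n := by
  have hmono : ∀ m, G ^ m ≤ G ^ (m + 1) := fun m x hx => by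
    rw [pow_succ]
    simpa using Submodule.mul_mem_mul hx h1
  have hle : ∀ m m' : ℕ, m ≤ m' → G ^ m ≤ G ^ m' := fun m m' h =>
    monotone_nat_of_le_succ hmono h
  have hprod : ∀ s : Finset ι, ∏ i ∈ s, t i ^ e i ∈ G ^ (∑ i ∈ s, e i) := by
    intro s
    classical
    induction s using Finset.induction_on with
    | empty => simpa using (Submodule.one_le.1 le_rfl : (1 : A) ∈ (1 : Submodule k A))
    | insert i s hi ih =>
      rw [Finset.prod_insert hi, Finset.sum_insert hi, pow_add]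
      exact Submodule.mul_mem_mul (Submodule.pow_mem_pow G (ht i) (e i)) ih
  exact hle _ _ hn (hprod Finset.univ)

/-- If `A` is spanned by the monomials `∏ t_i ^ e_i`, `e_i < N_i`, and `1`, `t_i` are in `G`, then
`G ^ n = ⊤` for `n ≥ ∑ (N_i - 1)`. -/
theorem pow_eq_top {ι : Type*} [Fintype ι] (t : ι → A) (N : ι → ℕ) (G : Submodule k A)
    (hA : Submodule.span k {a | ∃ e : ι → ℕ, (∀ i, e i < N i) ∧ a = ∏ i, t i ^ e i} = ⊤)
    (h1 : (1 : A) ∈ G) (ht : ∀ i, t i ∈ G) {n : ℕ} (hn : ∑ i, (N i - 1) ≤ n) : G ^ n = ⊤ := by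
  rw [eq_top_iff, ← hA, Submodule.span_le]
  rintro a ⟨e, he, rfl⟩
  refine monomial_mem_pow t G h1 ht e (le_trans (Finset.sum_le_sum fun i _ => ?_) hn)
  have := he i
  omega

end span

/-! ### The iterated external product -/

section iterate

variable {k A M : Type*} [CommRing k] [CommRing A] [Algebra k A]
  [AddCommGroup M] [Module k M]

/-- Let `V (j+1)` receive the external product of `M` and `V j`, and let the functionals `Φ j` be
multiplicative.  If some element of `V 0` has matrix coefficient `1`, then the matrix coefficients of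
`Φ j` contain `G ^ j`, where `G` is the space of matrix coefficients of the functional `φ` of `M`. -/
theorem pow_le_range_sharp (ρ : M →ₗ[k] A ⊗[k] M) (φ : M →ₗ[k] k)
    (V : ℕ → Type*) [∀ j, AddCommGroup (V j)] [∀ j, Module k (V j)]
    (τ : ∀ j, V j →ₗ[k] A ⊗[k] V j) (Φ : ∀ j, V j →ₗ[k] k)
    (μ : ∀ j, M →ₗ[k] V j →ₗ[k] V (j + 1))
    (hΦ : ∀ j m v, Φ (j + 1) (μ j m v) = φ m * Φ j v)
    (hτ : ∀ j m v, τ (j + 1) (μ j m v) = extMul (μ j) (ρ m ⊗ₜ[k] τ j v))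
    (v₀ : V 0) (hv₀ : sharp (τ 0) (Φ 0) v₀ = 1) (j : ℕ) :
    (LinearMap.range (sharp ρ φ)) ^ j ≤ LinearMap.range (sharp (τ j) (Φ j)) := by
  induction j with
  | zero =>
    rw [pow_zero, Submodule.one_le]
    exact ⟨v₀, hv₀⟩
  | succ j ih =>
    rw [pow_succ']
    refine Submodule.mul_le.2 ?_
    rintro _ ⟨m, rfl⟩ y hy
    obtain ⟨v, rfl⟩ := ih hy
    exact ⟨μ j m v, sharp_ext ρ (τ j) (τ (j + 1)) (μ j) φ (Φ j) (Φ (j + 1)) (hΦ j) m v
      (hτ j m v)⟩

/-- **The surjection onto `A`.**  If `A` is spanned by the monomials `∏ t_i ^ e_i`, `e_i < N_i`, and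
`1` and the `t_i` are matrix coefficients of the functional `φ` of `M`, then the functional `Φ n` of
the `n`-fold external product defines a surjection `V n → A` for `n ≥ ∑ (N_i - 1)`. -/
theorem sharp_surjective {ι : Type*} [Fintype ι] (t : ι → A) (N : ι → ℕ)
    (hA : Submodule.span k {a | ∃ e : ι → ℕ, (∀ i, e i < N i) ∧ a = ∏ i, t i ^ e i} = ⊤)
    (ρ : M →ₗ[k] A ⊗[k] M) (φ : M →ₗ[k] k)
    (h1 : (1 : A) ∈ LinearMap.range (sharp ρ φ)) (ht : ∀ i, t i ∈ LinearMap.range (sharp ρ φ))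
    (V : ℕ → Type*) [∀ j, AddCommGroup (V j)] [∀ j, Module k (V j)]
    (τ : ∀ j, V j →ₗ[k] A ⊗[k] V j) (Φ : ∀ j, V j →ₗ[k] k)
    (μ : ∀ j, M →ₗ[k] V j →ₗ[k] V (j + 1))
    (hΦ : ∀ j m v, Φ (j + 1) (μ j m v) = φ m * Φ j v)
    (hτ : ∀ j m v, τ (j + 1) (μ j m v) = extMul (μ j) (ρ m ⊗ₜ[k] τ j v))
    (v₀ : V 0) (hv₀ : sharp (τ 0) (Φ 0) v₀ = 1) {n : ℕ} (hn : ∑ i, (N i - 1) ≤ n) :
    Function.Surjective (sharp (τ n) (Φ n)) := by
  rw [← LinearMap.range_eq_top, eq_top_iff, ← pow_eq_top t N _ hA h1 ht hn]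
  exact pow_le_range_sharp ρ φ V τ Φ μ hΦ hτ v₀ hv₀ n

end iterate

end Vale.Agent.P093.NX
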