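import Vale.Agent.P093.N.HopfQuot
import Vale.Agent.P093.N.X

/-!
# P093, part N : `Pn p m` is spanned by products of few generators

`Pn.pow_eq_top` : a subspace of `Pn p m` which contains `1` and `t_1, …, t_m` has its `n`-th power
equal to everything for `n ≥ ∑_{i < m} (p ^ (m - i) - 1)`.
-/

open Finset

namespace Vale.Agent.P093.N

variable {p m : ℕ} [hp : Fact p.Prime]

theorem PS.mon_eq_prod (e : ℕ →₀ ℕ) : PS.mon p e = e.prod fun k n => PS.t p (k + 1) ^ n := by
  have h := MvPolynomial.monomial_eq (R := ZMod p) (σ := ℕ) (s := e) (a := 1)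
  rw [MvPolynomial.C_1, one_mul] at h
  exact h

theorem PS.mem_span_mon (x : PS p) : x ∈ Submodule.span (ZMod p) (Set.range (PS.mon p)) := by
  induction x using PS.induction_on with
  | C a =>
    rw [Algebra.algebraMap_eq_smul_one, ← PS.mon_zero]
    exact Submodule.smul_mem _ a (Submodule.subset_span ⟨0, rfl⟩)
  | add x y hx hy => exact add_mem hx hy
  | mul_t x k hx =>
    have h1 : PS.t p (k + 1) = PS.mon p (Finsupp.single k 1) := by
      have := t_pow_eq_monomial p k 1
      rw [pow_one] at this
      exact this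
    rw [h1]
    induction hx using Submodule.span_induction with
    | mem x h =>
      obtain ⟨e, rfl⟩ := h
      rw [PS.mon_mul_mon]
      exact Submodule.subset_span ⟨_, rfl⟩
    | zero =>
      rw [zero_mul]
      exact zero_mem _
    | add x y _ _ hx hy =>
      rw [add_mul]
      exact add_mem hx hy
    | smul c x _ hx =>
      rw [smul_mul_assoc]
      exact Submodule.smul_mem _ c hx

/-- `Pn p m` is spanned by the reduced monomials. -/
theorem Pn.span_monomials (p m : ℕ) [hp : Fact p.Prime] :
    Submodule.span (ZMod p) {a : Pn p m | ∃ e : Fin m → ℕ,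
      (∀ i, e i < p ^ (m - i.1)) ∧ a = ∏ i, Pn.t p m (i.1 + 1) ^ e i} = ⊤ := by
  rw [eq_top_iff]
  intro a _
  obtain ⟨x, rfl⟩ := Pn.mk_surjective p m a
  have hx := PS.mem_span_mon x
  induction hx using Submodule.span_induction with
  | mem x h =>
    obtain ⟨e, rfl⟩ := h
    by_cases he : ∃ k, p ^ (m - k) ≤ e k
    · have h0 : Pn.mk p m (PS.mon p e) = 0 := Ideal.Quotient.eq_zero_iff_mem.2 (mon_mem_In.2 he)
      rw [h0]
      exact zero_mem _
    · push Not at he
      refine Submodule.subset_span ⟨fun i => e i.1, fun i => he i.1, ?_⟩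
      rw [PS.mon_eq_prod, Finsupp.prod, map_prod]
      have h1 : ∀ k, Pn.mk p m (PS.t p (k + 1) ^ e k) = Pn.t p m (k + 1) ^ e k := fun k =>
        map_pow _ _ _
      simp only [h1]
      have h2 : ∀ k, m ≤ k → e k = 0 := by
        intro k hk
        have := he k
        rw [Nat.sub_eq_zero_of_le hk, pow_zero] at this
        omega
      rw [Fin.prod_univ_eq_prod_range (fun k => Pn.t p m (k + 1) ^ e k) m]
      refine Finset.prod_subset (fun k hk => ?_) fun k _ hk => ?_
      · rw [Finset.mem_range]
        by_contra hlt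
        exact (Finsupp.mem_support_iff.1 hk) (h2 k (by omega))
      · rw [Finsupp.notMem_support_iff.1 hk, pow_zero]
  | zero =>
    rw [map_zero]
    exact zero_mem _
  | add x y _ _ hx hy =>
    rw [map_add]
    exact add_mem (hx trivial) (hy trivial)
  | smul c x _ hx =>
    have : Pn.mk p m (c • x) = c • Pn.mk p m x := map_smul _ _ _
    rw [this]
    exact Submodule.smul_mem _ c (hx trivial)

/-- A subspace containing `1` and the generators has a power equal to everything. -/
theorem Pn.pow_eq_top (G : Submodule (ZMod p) (Pn p m)) (h1 : (1 : Pn p m) ∈ G)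
    (ht : ∀ i < m, Pn.t p m (i + 1) ∈ G) {n : ℕ}
    (hn : ∑ i : Fin m, (p ^ (m - i.1) - 1) ≤ n) : G ^ n = ⊤ :=
  NX.pow_eq_top (fun i : Fin m => Pn.t p m (i.1 + 1)) (fun i => p ^ (m - i.1)) G
    (Pn.span_monomials p m) h1 (fun i => ht i.1 i.2) hn

end Vale.Agent.P093.N
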