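import Vale.Agent.P093.N.NakAlg

/-!
# P093, block N3, T-side end: graded idempotents over a graded local ring (pure algebra)

`A` a commutative ring, `χ : A → F` a homomorphism to a field, `A0 ⊆ A` a subring (the elements of
degree `0`), `M` a free module with a basis `b_i` of degree `l i` (bounded below, finitely many in
each degree) and `e : M → M` an idempotent of degree `0`, that is: the coefficient of `b_i` in
`e b_j` is zero if `l j < l i`, and lies in `A0` if `l i = l j`.

Then there are sets `J`, `K` of indices such that the `e b_j`, `j ∈ J`, and the `b_k - e b_k`,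
`k ∈ K`, form a basis of `M`.
-/

open Finset

namespace Vale.Agent.P093.N.YSplit

open Vale.Agent.P093.Nak

section lin

variable {F V : Type*} [Field F] [AddCommGroup V] [Module F V] {ι : Type*}

/-- A subfamily of a family which is a basis of its span. -/
theorem exists_sub (v : ι → V) :
    ∃ s : Set ι, LinearIndependent F (fun i : s => v i) ∧
      Submodule.span F (Set.range v) ≤ Submodule.span F (Set.range fun i : s => v i) := by
  obtain ⟨s, -, -, h3, h4⟩ := exists_linearIndepOn_extension (linearIndepOn_empty F v)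
    (Set.empty_subset Set.univ)
  refine ⟨s, h4, ?_⟩
  rw [Submodule.span_le, ← Set.image_univ]
  have h5 : Set.range (fun i : s => v i) = v '' s := by rw [Set.image_eq_range]
  rw [h5]
  exact h3

/-- An idempotent endomorphism of a vector space with a basis: some of the images of the basis under
`e` and some of the images under `1 - e` form a basis. -/
theorem exists_idem (δ : ι → V) (hδ : ⊤ ≤ Submodule.span F (Set.range δ)) (ε : V →ₗ[F] V)
    (hε : ∀ x, ε (ε x) = ε x) :
    ∃ J K : Set ι, LinearIndependent F
        (Sum.elim (fun j : J => ε (δ j)) (fun k : K => δ k - ε (δ k))) ∧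
      ⊤ ≤ Submodule.span F (Set.range
        (Sum.elim (fun j : J => ε (δ j)) (fun k : K => δ k - ε (δ k)))) := by
  obtain ⟨J, hJ1, hJ2⟩ := exists_sub (F := F) (fun i => ε (δ i))
  obtain ⟨K, hK1, hK2⟩ := exists_sub (F := F) (fun i => δ i - ε (δ i))
  refine ⟨J, K, hJ1.sum_type hK1 ?_, ?_⟩
  · rw [Submodule.disjoint_def]
    intro x hx hx'
    have h1 : ∀ x ∈ Submodule.span F (Set.range fun j : J => ε (δ j)), ε x = x := by
      intro x hx
      have : Submodule.span F (Set.range fun j : J => ε (δ j)) ≤ LinearMap.ker (ε - LinearMap.id) := by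
        rw [Submodule.span_le]
        rintro _ ⟨j, rfl⟩
        simp [hε]
      have h2 := this hx
      rw [LinearMap.mem_ker, LinearMap.sub_apply, LinearMap.id_apply, sub_eq_zero] at h2
      exact h2
    have h2 : ∀ x ∈ Submodule.span F (Set.range fun k : K => δ k - ε (δ k)), ε x = 0 := by
      intro x hx
      have : Submodule.span F (Set.range fun k : K => δ k - ε (δ k)) ≤ LinearMap.ker ε := by
        rw [Submodule.span_le]
        rintro _ ⟨j, rfl⟩
        simp [hε]
      exact this hx
    rw [← h1 x hx, h2 x hx']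
  · refine hδ.trans ?_
    rw [Submodule.span_le]
    rintro _ ⟨i, rfl⟩
    have h1 : ε (δ i) ∈ Submodule.span F (Set.range
        (Sum.elim (fun j : J => ε (δ j)) (fun k : K => δ k - ε (δ k)))) := by
      have := hJ2 (Submodule.subset_span ⟨i, rfl⟩)
      refine Submodule.span_mono ?_ this
      rintro _ ⟨j, rfl⟩
      exact ⟨Sum.inl j, rfl⟩
    have h2 : δ i - ε (δ i) ∈ Submodule.span F (Set.range
        (Sum.elim (fun j : J => ε (δ j)) (fun k : K => δ k - ε (δ k)))) := by
      have := hK2 (Submodule.subset_span ⟨i, rfl⟩)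
      refine Submodule.span_mono ?_ this
      rintro _ ⟨j, rfl⟩
      exact ⟨Sum.inr j, rfl⟩
    have h3 := Submodule.add_mem _ h2 h1
    rw [sub_add_cancel] at h3
    exact h3

end lin

section Idem

variable {A F : Type*} [CommRing A] [Field F] (χ : A →+* F) (A0 : Subring A)
  (hloc : ∀ a ∈ A0, χ a ≠ 0 → IsUnit a) (hsurj : ∀ y : F, ∃ a ∈ A0, χ a = y)
  {M : Type*} [AddCommGroup M] [Module A M] {I : Type*} (b : Module.Basis I A M) (l : I → ℤ)
  (hB : ∃ B : ℤ, ∀ i, B ≤ l i) (hfin : ∀ n, {i | l i = n}.Finite)
  (e : M →ₗ[A] M) (he : ∀ x, e (e x) = e x)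
  (hhigh : ∀ i j, l j < l i → b.repr (e (b j)) i = 0)
  (h0 : ∀ i j, l i = l j → b.repr (e (b j)) i ∈ A0)

include hloc hsurj hB hfin he hhigh h0 in
/-- **Graded idempotents over a graded local ring.** -/
theorem exists_split_basis :
    ∃ (J K : Set I) (c : Module.Basis (J ⊕ K) A M), (∀ j : J, c (Sum.inl j) = e (b j)) ∧
      ∀ k : K, c (Sum.inr k) = b k - e (b k) := by
  classical
  -- the reduced matrix in degree `n`
  let u : ∀ n, {i // l i = n} → ({i // l i = n} → F) := fun n j i => χ (b.repr (e (b j)) i)
  have hu : ∀ n (j i : {i // l i = n}), ∑ᶠ x : {i // l i = n}, u n j x * u n x i = u n j i := by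
    intro n j i
    have : Fintype {i // l i = n} := (hfin n).fintype
    rw [finsum_eq_sum_of_fintype]
    have h1 : b.repr (e (b j)) i = ∑ x ∈ (b.repr (e (b j))).support,
        b.repr (e (b j)) x * b.repr (e (b x)) i := by
      have h2 := b.linearCombination_repr (e (b j))
      rw [Finsupp.linearCombination_apply, Finsupp.sum] at h2
      have h3 : e (b j) = ∑ x ∈ (b.repr (e (b j))).support, b.repr (e (b j)) x • e (b x) := by
        conv_lhs => rw [← he, ← h2, map_sum]
        simp only [map_smul]
      have h4 := congrArg (fun m => b.repr m i) h3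
      simp only [map_sum, map_smul, Finsupp.finsetSum_apply, Finsupp.smul_apply,
        smul_eq_mul] at h4
      exact h4
    have h2 : b.repr (e (b j)) i = ∑ x : {i // l i = n},
        b.repr (e (b j)) x * b.repr (e (b x)) i := by
      rw [h1]
      have h3 : ∀ x ∈ (b.repr (e (b j))).support, x ∉ (hfin n).toFinset →
          b.repr (e (b j)) x * b.repr (e (b x)) i = 0 := by
        intro x _ hx'
        have h5 : l x ≠ n := fun h => hx' (by rw [(hfin n).mem_toFinset]; exact h)
        rcases lt_or_gt_of_ne h5 with h6 | h6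
        · rw [hhigh i x (by rw [i.2]; exact h6), mul_zero]
        · rw [hhigh x j (by rw [j.2]; exact h6), zero_mul]
      have h6 : ∑ x ∈ (b.repr (e (b j))).support, b.repr (e (b j)) x * b.repr (e (b x)) i =
          ∑ x ∈ (hfin n).toFinset, b.repr (e (b j)) x * b.repr (e (b x)) i := by
        rw [← Finset.sum_filter_add_sum_filter_not (b.repr (e (b j))).support
          (fun x => x ∈ (hfin n).toFinset)]
        rw [Finset.sum_eq_zero (s := (b.repr (e (b j))).support.filter
          (fun x => x ∉ (hfin n).toFinset)) (fun x hx => by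
            rw [Finset.mem_filter] at hx
            exact h3 x hx.1 hx.2), add_zero]
        refine Finset.sum_subset (fun x hx => (Finset.mem_filter.1 hx).2) fun x hx hx' => ?_
        have : x ∉ (b.repr (e (b j))).support := fun h => hx' (Finset.mem_filter.2 ⟨h, hx⟩)
        rw [Finsupp.notMem_support_iff.1 this, zero_mul]
      rw [h6]
      exact Finset.sum_subtype _ (fun x => by simp) _
    change ∑ x : {i // l i = n}, u n j x * u n x i = χ (b.repr (e (b j)) i)
    rw [h2, map_sum]
    exact Finset.sum_congr rfl fun x _ => by rw [map_mul]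
  have hchoose : ∀ n, ∃ J K : Set {i // l i = n}, LinearIndependent F
        (Sum.elim (fun j : J => u n j) (fun k : K => Pi.single (k : {i // l i = n}) 1 - u n k)) ∧
      ⊤ ≤ Submodule.span F (Set.range
        (Sum.elim (fun j : J => u n j)
          (fun k : K => Pi.single (k : {i // l i = n}) (1 : F) - u n k))) := by
    intro n
    have : Fintype {i // l i = n} := (hfin n).fintype
    let δ : {i // l i = n} → ({i // l i = n} → F) := fun j => Pi.single j 1
    let ε : ({i // l i = n} → F) →ₗ[F] ({i // l i = n} → F) :=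
      (Pi.basisFun F {i // l i = n}).constr F (u n)
    have hεδ : ∀ j, ε (δ j) = u n j := fun j => by
      have := (Pi.basisFun F {i // l i = n}).constr_basis F (u n) j
      rw [Pi.basisFun_apply] at this
      exact this
    have hεε : ∀ x, ε (ε x) = ε x := by
      have h1 : ε ∘ₗ ε = ε := by
        refine (Pi.basisFun F {i // l i = n}).ext fun j => ?_
        rw [Pi.basisFun_apply, LinearMap.comp_apply]
        change ε (ε (δ j)) = ε (δ j)
        rw [hεδ]
        have h2 : u n j = ∑ x, u n j x • δ x := by
          ext i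
          simp [δ, Finset.sum_apply, Pi.single_apply]
        conv_lhs => rw [h2]
        rw [map_sum]
        ext i
        rw [Finset.sum_apply, ← hu n j i, finsum_eq_sum_of_fintype]
        refine Finset.sum_congr rfl fun x _ => ?_
        rw [map_smul, hεδ, Pi.smul_apply, smul_eq_mul]
      intro x
      exact LinearMap.congr_fun h1 x
    have hδ : ⊤ ≤ Submodule.span F (Set.range δ) := by
      rw [← (Pi.basisFun F {i // l i = n}).span_eq]
      refine Submodule.span_mono ?_
      rintro _ ⟨i, rfl⟩
      exact ⟨i, by rw [Pi.basisFun_apply]⟩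
    obtain ⟨J, K, h1, h2⟩ := exists_idem δ hδ ε hεε
    refine ⟨J, K, ?_⟩
    have h3 : (Sum.elim (fun j : J => ε (δ j)) (fun k : K => δ k - ε (δ k))) =
        (Sum.elim (fun j : J => u n j)
          (fun k : K => Pi.single (k : {i // l i = n}) 1 - u n k)) := by
      funext x
      rcases x with x | x
      · exact hεδ x
      · change δ x - ε (δ x) = _
        rw [hεδ]
        rfl
    rw [h3] at h1 h2
    exact ⟨h1, h2⟩
  choose J K hJK1 hJK2 using hchoose
  let J' : Set I := {i | (⟨i, rfl⟩ : {i' // l i' = l i}) ∈ J (l i)}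
  let K' : Set I := {i | (⟨i, rfl⟩ : {i' // l i' = l i}) ∈ K (l i)}
  have hJ' : ∀ (n : ℤ) (i : I) (h : l i = n), i ∈ J' ↔ (⟨i, h⟩ : {i' // l i' = n}) ∈ J n := by
    intro n i h
    subst h
    exact Iff.rfl
  have hK' : ∀ (n : ℤ) (i : I) (h : l i = n), i ∈ K' ↔ (⟨i, h⟩ : {i' // l i' = n}) ∈ K n := by
    intro n i h
    subst h
    exact Iff.rfl
  let v : J' ⊕ K' → M := Sum.elim (fun j => e (b j)) (fun k => b k - e (b k))
  let d : J' ⊕ K' → ℤ := Sum.elim (fun j => l j) (fun k => l k)
  have hbb : ∀ k i : I, b.repr (b k) i = if k = i then 1 else 0 := fun k i => by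
    rw [Module.Basis.repr_self, Finsupp.single_apply]
  have hhigh' : ∀ x i, d x < l i → b.repr (v x) i = 0 := by
    rintro (x | x) i hi
    · exact hhigh i x hi
    · change b.repr (b x - e (b x)) i = 0
      rw [map_sub, Finsupp.sub_apply, hhigh i x hi, hbb, if_neg, sub_zero]
      rintro rfl
      exact absurd hi (lt_irrefl _)
  have hmem' : ∀ x i, l i = d x → b.repr (v x) i ∈ A0 := by
    rintro (x | x) i hi
    · exact h0 i x hi
    · change b.repr (b x - e (b x)) i ∈ A0
      rw [map_sub, Finsupp.sub_apply, hbb]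
      refine A0.sub_mem ?_ (h0 i x hi)
      split_ifs
      · exact A0.one_mem
      · exact A0.zero_mem
  have hmain := isBasis_of_reduction χ A0 b l v d hB hfin hhigh' hloc hsurj hmem' (by
    intro n
    let f : {x // d x = n} → J n ⊕ K n := fun x =>
      match x with
      | ⟨Sum.inl j, h⟩ => Sum.inl ⟨⟨j, h⟩, (hJ' n j h).1 j.2⟩
      | ⟨Sum.inr k, h⟩ => Sum.inr ⟨⟨k, h⟩, (hK' n k h).1 k.2⟩
    have hf : Function.Bijective f := by
      constructor
      · rintro ⟨x | x, hx⟩ ⟨y | y, hy⟩ hxy
        · have h1 := Sum.inl_injective hxy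
          have h2 : (x : I) = (y : I) := congrArg (fun z => (z.1.1 : I)) h1
          have h3 : x = y := Subtype.ext h2
          subst h3
          rfl
        · exact absurd hxy (by simp [f])
        · exact absurd hxy (by simp [f])
        · have h1 := Sum.inr_injective hxy
          have h2 : (x : I) = (y : I) := congrArg (fun z => (z.1.1 : I)) h1
          have h3 : x = y := Subtype.ext h2
          subst h3
          rfl
      · rintro (x | x)
        · exact ⟨⟨Sum.inl ⟨x.1.1, (hJ' n x.1.1 x.1.2).2 x.2⟩, x.1.2⟩, rfl⟩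
        · exact ⟨⟨Sum.inr ⟨x.1.1, (hK' n x.1.1 x.1.2).2 x.2⟩, x.1.2⟩, rfl⟩
    let bb := Module.Basis.mk (hJK1 n) (hJK2 n)
    refine ⟨bb.reindex (Equiv.ofBijective f hf).symm, ?_⟩
    rintro ⟨x | x, hx⟩ i
    · rw [Module.Basis.reindex_apply, Equiv.symm_symm, Equiv.ofBijective_apply,
        Module.Basis.mk_apply]
      rfl
    · rw [Module.Basis.reindex_apply, Equiv.symm_symm, Equiv.ofBijective_apply,
        Module.Basis.mk_apply]
      change (Pi.single (⟨x, hx⟩ : {i // l i = n}) (1 : F) - u n ⟨x, hx⟩ : {i // l i = n} → F) i =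
        χ (b.repr (b x - e (b x)) i)
      rw [map_sub, Finsupp.sub_apply, hbb, map_sub, Pi.sub_apply, Pi.single_apply]
      congr 1
      by_cases hxi : (x : I) = i
      · rw [if_pos (Subtype.ext hxi.symm), if_pos hxi, map_one]
      · rw [if_neg (fun h => hxi (congrArg Subtype.val h).symm), if_neg hxi, map_zero])
  exact ⟨J', K', Module.Basis.mk hmain.1 hmain.2, fun j => by rw [Module.Basis.mk_apply]; rfl,
    fun k => by rw [Module.Basis.mk_apply]; rfl⟩

end Idem

end Vale.Agent.P093.N.YSplit
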