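import Vale.Agent.P093.N.YoungAlg

/-!
# P093, part N, block YOUNG: the place permutation action on tensor powers

The `κ`-fold tensor power of the free `k`-module with basis `ι` is `(κ → ι) → k`, with the place
permutation action `(σ F) f = F (f ∘ σ)` (so that `σ e_f = e_(f ∘ σ⁻¹)`).
-/

open Finset Equiv MonoidAlgebra

namespace Vale.Agent.P093.N.Young

variable {r q : ℕ}

noncomputable section

/-- place permutations of the tensor power `(κ → ι) → k` -/
def permRep (k ι κ : Type*) [CommRing k] : Perm κ →* Module.End k ((κ → ι) → k) where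
  toFun σ := LinearMap.funLeft k k fun f : κ → ι => f ∘ σ
  map_one' := rfl
  map_mul' _ _ := rfl

/-- the action of the integral group algebra on the tensor power `(κ → ι) → k` -/
def act (k ι κ : Type*) [CommRing k] :
    MonoidAlgebra ℤ (Perm κ) →ₐ[ℤ] Module.End k ((κ → ι) → k) :=
  MonoidAlgebra.lift ℤ _ _ (permRep k ι κ)

lemma permRep_apply {k ι κ : Type*} [CommRing k] (σ : Perm κ) (F : (κ → ι) → k) (f : κ → ι) :
    permRep k ι κ σ F f = F (f ∘ σ) := rfl

lemma act_single {k ι κ : Type*} [CommRing k] (σ : Perm κ) (n : ℤ) (F : (κ → ι) → k)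
    (f : κ → ι) : act k ι κ (single σ n) F f = n * F (f ∘ σ) := by
  unfold act
  rw [MonoidAlgebra.lift_single]
  change (n • permRep k ι κ σ F) f = _
  rw [Pi.smul_apply, permRep_apply, zsmul_eq_mul]

section

variable {k ι : Type*} [CommRing k]

/-- the row filling -/
def rowF (x : Cell r q) : Fin r := ⟨row x, (row_le_ht x).trans_lt (ht_lt x)⟩

/-- the reversed filling -/
def revF (x : Cell r q) : Fin r := ⟨rev x, by
  have := row_add_rev x
  have := ht_lt x
  omega⟩

variable [DecidableEq ι]

/-- the basis vector `e_f` -/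
abbrev E (k : Type*) {ι : Type*} [CommRing k] [DecidableEq ι] (f : Cell r q → ι) :
    (Cell r q → ι) → k :=
  Pi.single f 1

lemma E_apply (f g : Cell r q → ι) : E k f g = if g = f then 1 else 0 := by
  unfold E
  rw [Pi.single_apply]

lemma act_single_E (σ : Perm (Cell r q)) (n : ℤ) (f : Cell r q → ι) :
    act k ι (Cell r q) (single σ n) (E k f) = n • E k (f ∘ ⇑(σ⁻¹)) := by
  funext g
  rw [act_single, Pi.smul_apply, zsmul_eq_mul, E_apply, E_apply]
  congr 1
  have : g ∘ ⇑σ = f ↔ g = f ∘ ⇑(σ⁻¹) := by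
    constructor
    · rintro rfl
      funext x
      simp
    · rintro rfl
      funext x
      simp
  simp only [this]

lemma act_aa (f : Cell r q → ι) :
    act k ι (Cell r q) (aa r q) (E k f) =
      ∑ σ ∈ univ.filter (RowP (r := r) (q := q)), E k (f ∘ ⇑(σ⁻¹)) := by
  unfold aa
  rw [map_sum, LinearMap.sum_apply]
  refine Finset.sum_congr rfl fun σ _ => ?_
  rw [act_single_E, one_smul]

lemma act_bb (f : Cell r q → ι) :
    act k ι (Cell r q) (bb r q) (E k f) =
      ∑ τ ∈ univ.filter (ColP (r := r) (q := q)),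
        ((Perm.sign τ : ℤˣ) : ℤ) • E k (f ∘ ⇑(τ⁻¹)) := by
  unfold bb
  rw [map_sum, LinearMap.sum_apply]
  exact Finset.sum_congr rfl fun τ _ => act_single_E τ _ f

lemma swap_col {x z : Cell r q} (hxz : x.1 = z.1) : ColP (swap x z : Perm (Cell r q)) := fun w => by
  by_cases h1 : w = x
  · rw [h1, swap_apply_left, hxz]
  · by_cases h2 : w = z
    · rw [h2, swap_apply_right, hxz]
    · rw [swap_apply_of_ne_of_ne h1 h2]

/-- the column antisymmetrizer kills the fillings with a repetition in a column -/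
lemma act_bb_eq_zero (f : Cell r q → ι) {x z : Cell r q} (hne : x ≠ z) (hxz : x.1 = z.1)
    (hf : f x = f z) : act k ι (Cell r q) (bb r q) (E k f) = 0 := by
  rw [act_bb]
  refine Finset.sum_involution (fun τ _ => τ * swap x z) ?_ ?_ ?_ ?_
  · intro τ _
    have h1 : f ∘ ⇑((τ * swap x z)⁻¹) = f ∘ ⇑(τ⁻¹) := by
      funext w
      rw [mul_inv_rev, swap_inv]
      simp only [Function.comp_apply, Perm.mul_apply]
      by_cases h1 : τ⁻¹ w = x
      · rw [h1, swap_apply_left, hf]
      · by_cases h2 : τ⁻¹ w = z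
        · rw [h2, swap_apply_right, hf]
        · rw [swap_apply_of_ne_of_ne h1 h2]
    rw [h1, Perm.sign_mul, Perm.sign_swap hne]
    simp
  · intro τ _ _ h
    have : swap x z = 1 := by
      have := congrArg (fun s => τ⁻¹ * s) h
      simpa using this
    rw [Equiv.Perm.one_def, Equiv.swap_eq_refl_iff] at this
    exact hne this
  · intro τ hτ
    simp only [mem_filter, mem_univ, true_and] at hτ ⊢
    exact hτ.mul (swap_col hxz)
  · intro τ _
    rw [mul_assoc, swap_mul_self, mul_one]

lemma act_bb_comp {θ : Perm (Cell r q)} (hθ : ColP θ) (f : Cell r q → ι) :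
    act k ι (Cell r q) (bb r q) (E k (f ∘ ⇑θ)) =
      ((Perm.sign θ : ℤˣ) : ℤ) • act k ι (Cell r q) (bb r q) (E k f) := by
  have h1 : E k (f ∘ ⇑θ) = act k ι (Cell r q) (single θ⁻¹ 1) (E k f) := by
    rw [act_single_E, one_smul, inv_inv]
  rw [h1, ← Module.End.mul_apply, ← map_mul, bb_mul_single hθ.inv, map_smul, Perm.sign_inv]
  rfl

end

/-! ### The multiplicities -/

lemma mult_rev_le (i s : ℕ) : mult (rev : Cell r q → ℕ) i s ≤ q := by
  have := Finset.card_le_card_of_injOn (s := univ.filter fun x : Cell r q => row x = i ∧ rev x = s)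
    (t := (univ : Finset (Fin q))) (fun x => x.1.2) (fun x _ => by simp) (by
      intro x hx z hz hxz
      rw [Finset.mem_coe, mem_filter] at hx hz
      obtain ⟨-, hx1, hx2⟩ := hx
      obtain ⟨-, hz1, hz2⟩ := hz
      have e1 := row_add_rev x
      have e2 := row_add_rev z
      refine cell_ext (Prod.ext (Fin.ext ?_) hxz) (hx1.trans hz1.symm)
      change ht x = ht z
      omega)
  simpa [mult] using this

/-- the permutations preserving the rows and the filling `h` -/
def stab {α : Type*} [DecidableEq α] (h : Cell r q → α) : Finset (Perm (Cell r q)) :=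
  univ.filter fun σ => RowP σ ∧ ∀ x, h (σ x) = h x

lemma card_stab {α : Type*} [DecidableEq α] (h : Cell r q → α) :
    (stab h).card = ∏ y ∈ univ.image fun x : Cell r q => (row x, h x),
      (Fintype.card {x : Cell r q // (row x, h x) = y}).factorial := by
  rw [← DomMulAct.stabilizer_card' (f := fun x : Cell r q => (row x, h x)), Fintype.card_subtype]
  congr 1
  ext σ
  simp only [stab, mem_filter, mem_univ, true_and, funext_iff, Function.comp_apply, Prod.mk.injEq]
  exact ⟨fun hh x => ⟨hh.1 x, hh.2 x⟩, fun hh => ⟨fun x => (hh x).1, fun x => (hh x).2⟩⟩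

lemma card_fibre (h : Cell r q → ℕ) (y : ℕ × ℕ) :
    Fintype.card {x : Cell r q // (row x, h x) = y} = mult h y.1 y.2 := by
  rw [Fintype.card_subtype]
  unfold mult
  congr 1
  ext x
  simp [Prod.ext_iff]

lemma not_dvd_card_stab {p : ℕ} (hp : p.Prime) (hq : q < p) :
    ¬ p ∣ (stab (rev : Cell r q → ℕ)).card := by
  rw [card_stab, Prime.dvd_finsetProd_iff hp.prime]
  rintro ⟨y, -, hy⟩
  rw [hp.dvd_factorial, card_fibre] at hy
  exact absurd (hy.trans (mult_rev_le _ _)) (by omega)

lemma dvd_card_stab {p : ℕ} (h : Cell r q → ℕ) {i s : ℕ} (hp : p ≤ mult h i s) (h0 : 0 < p) :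
    p ∣ (stab h).card := by
  rw [card_stab]
  have hne : (univ.filter fun x : Cell r q => row x = i ∧ h x = s).Nonempty := by
    rw [← Finset.card_pos]
    exact h0.trans_le hp
  obtain ⟨x, hx⟩ := hne
  obtain ⟨-, h1, h2⟩ := mem_filter.1 hx
  refine dvd_trans ?_ (Finset.dvd_prod_of_mem _ (mem_image.2 ⟨x, mem_univ _, rfl⟩))
  rw [card_fibre]
  simp only [h1, h2]
  exact Nat.dvd_factorial h0 hp

end

end Vale.Agent.P093.N.Young
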