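import Vale.Agent.P093.N.YoungComb

/-!
# P093, part N, block YOUNG: the Young symmetrizer in `ℤ[Perm (Cell r q)]`
-/

open Finset Equiv MonoidAlgebra

namespace Vale.Agent.P093.N.Young

variable {r q : ℕ}

noncomputable section

/-- the integral group algebra of the permutations of the cells -/
abbrev GA (r q : ℕ) : Type := MonoidAlgebra ℤ (Perm (Cell r q))

/-- the row symmetrizer -/
def aa (r q : ℕ) : GA r q := ∑ σ ∈ univ.filter (RowP (r := r) (q := q)), single σ 1

/-- the column antisymmetrizer -/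
def bb (r q : ℕ) : GA r q :=
  ∑ τ ∈ univ.filter (ColP (r := r) (q := q)), single τ ((Perm.sign τ : ℤˣ) : ℤ)

/-- the Young symmetrizer -/
def yy (r q : ℕ) : GA r q := bb r q * aa r q

lemma single_mul_aa {σ : Perm (Cell r q)} (hσ : RowP σ) : single σ (1 : ℤ) * aa r q = aa r q := by
  unfold aa
  rw [Finset.mul_sum]
  simp only [single_mul_single, mul_one]
  refine Finset.sum_bij' (fun ρ _ => σ * ρ) (fun ρ _ => σ⁻¹ * ρ) ?_ ?_ ?_ ?_ ?_
  · intro ρ hρ
    simp only [mem_filter, mem_univ, true_and] at hρ ⊢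
    exact hσ.mul hρ
  · intro ρ hρ
    simp only [mem_filter, mem_univ, true_and] at hρ ⊢
    exact hσ.inv.mul hρ
  · intro ρ _
    group
  · intro ρ _
    group
  · intro ρ _
    rfl

lemma bb_mul_single {τ : Perm (Cell r q)} (hτ : ColP τ) :
    bb r q * single τ (1 : ℤ) = ((Perm.sign τ : ℤˣ) : ℤ) • bb r q := by
  unfold bb
  rw [Finset.sum_mul, Finset.smul_sum]
  simp only [single_mul_single, mul_one, smul_single, smul_eq_mul]
  refine Finset.sum_bij' (fun ρ _ => ρ * τ) (fun ρ _ => ρ * τ⁻¹) ?_ ?_ ?_ ?_ ?_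
  · intro ρ hρ
    simp only [mem_filter, mem_univ, true_and] at hρ ⊢
    exact hρ.mul hτ
  · intro ρ hρ
    simp only [mem_filter, mem_univ, true_and] at hρ ⊢
    exact hρ.mul hτ.inv
  · intro ρ _
    group
  · intro ρ _
    group
  · intro ρ _
    rw [Perm.sign_mul, ← Units.val_mul, mul_comm (Perm.sign ρ), ← mul_assoc, Int.units_mul_self,
      one_mul]

lemma eq_zero_of_eq_neg {x : GA r q} (h : x = -x) : x = 0 := by
  ext g
  have := congrArg (fun z => z.coeff g) h
  simp only [coeff_neg, Finsupp.neg_apply] at this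
  simp only [coeff_zero, Finsupp.zero_apply]
  omega

lemma vonNeumann_single (g : Perm (Cell r q)) :
    ∃ c : ℤ, bb r q * single g (1 : ℤ) * aa r q = c • (bb r q * aa r q) := by
  rcases dichotomy g with ⟨x, z, hne, hxz, hr⟩ | ⟨τ, σ, hτ, hσ, rfl⟩
  · refine ⟨0, ?_⟩
    rw [zero_smul]
    apply eq_zero_of_eq_neg
    have ht : ColP (swap x z : Perm (Cell r q)) := fun w => by
      by_cases h1 : w = x
      · rw [h1, swap_apply_left, hxz]
      · by_cases h2 : w = z
        · rw [h2, swap_apply_right, hxz]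
        · rw [swap_apply_of_ne_of_ne h1 h2]
    have hs : RowP (swap (g⁻¹ x) (g⁻¹ z) : Perm (Cell r q)) := fun w => by
      by_cases h1 : w = g⁻¹ x
      · rw [h1, swap_apply_left, hr]
      · by_cases h2 : w = g⁻¹ z
        · rw [h2, swap_apply_right, hr]
        · rw [swap_apply_of_ne_of_ne h1 h2]
    have hcomm : g * swap (g⁻¹ x) (g⁻¹ z) = swap x z * g := by
      rw [Equiv.mul_swap_eq_swap_mul]
      simp
    have h1 : bb r q * single g (1 : ℤ) * aa r q =
        bb r q * single (swap x z) (1 : ℤ) * single g (1 : ℤ) * aa r q := by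
      conv_lhs => rw [← single_mul_aa hs]
      rw [mul_assoc, ← mul_assoc (single g (1 : ℤ)), single_mul_single, mul_one, hcomm,
        ← mul_one (1 : ℤ), ← single_mul_single]
      simp only [mul_assoc, mul_one]
    have h2 : Perm.sign (swap x z) = -1 := Perm.sign_swap hne
    rw [bb_mul_single ht, h2] at h1
    simp only [Units.val_neg, Units.val_one, neg_smul, one_smul, neg_mul] at h1
    exact h1
  · refine ⟨((Perm.sign τ : ℤˣ) : ℤ), ?_⟩
    have : single (τ * σ) (1 : ℤ) = single τ (1 : ℤ) * single σ (1 : ℤ) := by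
      rw [single_mul_single, mul_one]
    rw [this, ← mul_assoc, bb_mul_single hτ, mul_assoc, single_mul_aa hσ, smul_mul_assoc]

lemma vonNeumann (x : GA r q) : ∃ c : ℤ, bb r q * x * aa r q = c • (bb r q * aa r q) := by
  induction x using MonoidAlgebra.induction_linear with
  | zero => exact ⟨0, by simp⟩
  | add f g hf hg =>
    obtain ⟨c, hc⟩ := hf
    obtain ⟨d, hd⟩ := hg
    exact ⟨c + d, by rw [mul_add, add_mul, hc, hd, add_smul]⟩
  | single g n =>
    obtain ⟨c, hc⟩ := vonNeumann_single g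
    refine ⟨n * c, ?_⟩
    have : single g n = n • single g (1 : ℤ) := by
      rw [smul_single, smul_eq_mul, mul_one]
    rw [this, mul_smul_comm, smul_mul_assoc, hc, mul_smul]

/-- the Young symmetrizer is quasi-idempotent -/
theorem yy_mul_yy (r q : ℕ) : ∃ n : ℤ, yy r q * yy r q = n • yy r q := by
  obtain ⟨n, hn⟩ := vonNeumann (aa r q * bb r q)
  refine ⟨n, ?_⟩
  unfold yy
  rw [← hn]
  simp only [mul_assoc]

end

end Vale.Agent.P093.N.Young
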