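import Vale.Agent.P093.N.SymPowH
import Vale.Agent.P093.N.Co.Pow
import Mathlib.LinearAlgebra.TensorProduct.Submodule

/-!
# P093, part N: the Young splitting of a power with a coaction

`F` a lax symmetric monoidal functor to vector spaces over the field `k`, `D : F.Coact G A` a
multiplicative coaction of the Hopf algebra `A` on the values of `F` (on a class `G` of good
objects). `W` good with `V W` finite dimensional and a colinear surjection `q : V W → A`.

* `Coact.qInj_powSub` : `V (tpow W m)` modulo the products of elements of `ker q` is injective;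
* `Coact.young` : if `X` is a retract of (a localization of) `tpow W (M p r)`, `r = dim V W`, with
  projection a multiple, prime to `p`, of the Young symmetrizer `Y p r`, then `V X` is an injective
  comodule and it is not zero.
-/

open CategoryTheory MonoidalCategory Equiv
open scoped TensorProduct

universe w v u

noncomputable section

namespace Vale.Agent.P093.SymPow

open Vale.Agent.P093.Cox Vale.Agent.P093.N.Young Vale.Agent.P093.N.Co Coalgebra

namespace LaxF

variable {k : Type*} [Field k] {C : Type u} [Category.{v} C] [MonoidalCategory C]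
    [SymmetricCategory C] (F : LaxF.{w} k C)

/-- A multiplicative coaction of the bialgebra `A` on the values of `F` at good objects. -/
structure Coact (G : C → Prop) (A : Type*) [CommRing A] [Bialgebra k A] where
  /-- the coaction -/
  rho (X : C) : F.V X →ₗ[k] A ⊗[k] F.V X
  isCoact {X : C} (hX : G X) : IsCoact (rho X)
  colin_map {X Y : C} (hX : G X) (hY : G Y) (f : X ⟶ Y) : Colin (rho X) (rho Y) (F.map f)
  colin_m {X Y : C} (hX : G X) (hY : G Y) :
    Colin (tens (rho X) (rho Y)) (rho (X ⊗ Y)) (TensorProduct.lift (F.m X Y))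
  unit : G (𝟙_ C)
  tensor {X Y : C} : G X → G Y → G (X ⊗ Y)

variable {F} {G : C → Prop} {A : Type*} [CommRing A] [Bialgebra k A] (D : F.Coact G A)

namespace Coact

include D in
theorem good_tpow {W : C} (hW : G W) : ∀ m : ℕ, G (tpow W m)
  | 0 => D.unit
  | m + 1 => D.tensor hW (good_tpow hW m)

theorem map₂_eq_map_tsub {U V W : Type*} [AddCommGroup U] [Module k U] [AddCommGroup V]
    [Module k V] [AddCommGroup W] [Module k W] (f : U →ₗ[k] V →ₗ[k] W) (N : Submodule k U)
    (P : Submodule k V) : Submodule.map₂ f N P = (tsub N P).map (TensorProduct.lift f) := by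
  unfold tsub
  rw [← LinearMap.range_comp]
  apply le_antisymm
  · rw [Submodule.map₂_le]
    intro x hx y hy
    exact ⟨(⟨x, hx⟩ : N) ⊗ₜ (⟨y, hy⟩ : P), rfl⟩
  · rintro _ ⟨t, rfl⟩
    induction t with
    | zero => rw [map_zero]; exact Submodule.zero_mem _
    | add x y hx hy => rw [map_add]; exact Submodule.add_mem _ hx hy
    | tmul x y => exact Submodule.apply_mem_map₂ f x.2 y.2

/-- **The power of `V W` modulo the power of `ker q` is injective.** -/
theorem qInj_powSub {S : A →ₗ[k] A} (hS : IsAnti S) {W : C} (hW : G W) (h : F.Kun W)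
    {q : F.V W →ₗ[k] A} (hq : Colin (D.rho W) (comul (R := k)) q) (hsurj : Function.Surjective q)
    (m : ℕ) : QInj (D.rho (tpow W m)) (F.powSub W (LinearMap.ker q) m) := by
  refine qInj_rec hS (D.isCoact hW) hq hsurj (fun m => F.V (tpow W m))
    (fun m => D.rho (tpow W m)) (fun m => D.isCoact (D.good_tpow hW m))
    (fun m => TensorProduct.lift (F.m W (tpow W m)))
    (fun m => D.colin_m hW (D.good_tpow hW m)) (fun m => h.bij m)
    (fun m => F.powSub W (LinearMap.ker q) m) ?_ ?_ m
  · change F.powSub W (LinearMap.ker q) 0 = ⊤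
    rw [F.powSub_zero, eq_top_iff]
    intro x _
    obtain ⟨a, rfl⟩ := h.unit.2 x
    exact Submodule.smul_mem _ a (Submodule.mem_span_singleton_self _)
  · intro m
    change F.powSub W (LinearMap.ker q) (m + 1) = _
    rw [F.powSub_succ, map₂_eq_map_tsub]

/-- The inverse of a colinear bijection is colinear. -/
theorem colin_symm {V V' : Type*} [AddCommGroup V] [Module k V] [AddCommGroup V'] [Module k V']
    {ρ : V →ₗ[k] A ⊗[k] V} {ρ' : V' →ₗ[k] A ⊗[k] V'} (e : V ≃ₗ[k] V')
    (he : Colin ρ ρ' e.toLinearMap) : Colin ρ' ρ e.symm.toLinearMap := by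
  refine Colin.of_surj he e.surjective ?_
  have h1 : e.symm.toLinearMap ∘ₗ e.toLinearMap = LinearMap.id := by
    ext x
    exact e.symm_apply_apply x
  rw [h1]
  exact Colin.id ρ

section young

variable [Preadditive C] (hadd : ∀ {X Y : C} (f g : X ⟶ Y) (x : F.V X),
  F.map (f + g) x = F.map f x + F.map g x) {p : ℕ} (hp : p.Prime)
  (hk : ∀ c : ℤ, ¬ (p : ℤ) ∣ c → (c : k) ≠ 0)

include hadd hp hk

/-- **The Young splitting.** -/
theorem young {S : A →ₗ[k] A} (hS : IsAnti S) [Nontrivial A] {W : C} (hW : G W) (h : F.Kun W)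
    [Module.Finite k (F.V W)] {q : F.V W →ₗ[k] A} (hq : Colin (D.rho W) (comul (R := k)) q)
    (hsurj : Function.Surjective q) {r : ℕ} (hr : Module.finrank k (F.V W) = r)
    {X Z : C} (hX : G X) (hZ : G Z) {i : X ⟶ Z} {s : Z ⟶ X} (his : i ≫ s = 𝟙 X)
    {u : tpow W (M p r) ⟶ Z} (hu : Function.Bijective (F.map u)) {y : Z ⟶ Z}
    (hy : u ≫ y = permAlg W (M p r) (Y p r) ≫ u) {n : ℤ} (hn : ¬ (p : ℤ) ∣ n)
    (hsi : n • (s ≫ i) = y) : Inj (D.rho X) ∧ Nontrivial (F.V X) := by
  have hnk : (n : k) ≠ 0 := hk n hn
  have hi : Function.Injective (F.map i) := by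
    intro a b hab
    have h1 : ∀ a, F.map s (F.map i a) = a := fun a => by rw [← F.map_comp, his, F.map_id]
    rw [← h1 a, hab, h1]
  -- the basic identity
  have key : ∀ x : F.V (tpow W (M p r)),
      (n : k) • F.map i (F.map s (F.map u x)) = F.map u (F.map (permAlg W (M p r) (Y p r)) x) := by
    intro x
    have h1 : F.map y (F.map u x) = F.map u (F.map (permAlg W (M p r) (Y p r)) x) := by
      rw [← F.map_comp, hy]
      exact F.map_comp _ _ _
    rw [← h1, ← hsi, F.map_zsmul' hadd, F.map_comp]
    exact (Int.cast_smul_eq_zsmul k n _)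
  constructor
  · -- injectivity
    let e : F.V (tpow W (M p r)) ≃ₗ[k] F.V Z := LinearEquiv.ofBijective (F.map u) hu
    have hGt : G (tpow W (M p r)) := D.good_tpow hW _
    have he : Colin (D.rho (tpow W (M p r))) (D.rho Z) e.toLinearMap := D.colin_map hGt hZ u
    have hfin : Module.finrank k (LinearMap.ker q) < r := by
      have h1 := LinearMap.finrank_range_add_finrank_ker q
      rw [LinearMap.range_eq_top.2 hsurj, finrank_top, hr] at h1
      have h2 : Module.Finite k A := Module.Finite.of_surjective q hsurj
      have h3 : 0 < Module.finrank k A := Module.finrank_pos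
      omega
    refine (D.qInj_powSub hS hW h hq hsurj (M p r)).retract
      (i := e.symm.toLinearMap ∘ₗ F.map i) (s := F.map s ∘ₗ e.toLinearMap)
      ((colin_symm e he).comp (D.colin_map hX hZ i)) ((D.colin_map hZ hX s).comp he) ?_ ?_
    · refine LinearMap.ext fun x => ?_
      change F.map s (e (e.symm (F.map i x))) = x
      rw [e.apply_symm_apply, ← F.map_comp, his, F.map_id]
    · intro x hx
      have h1 : F.map (permAlg W (M p r) (Y p r)) x = 0 := by
        refine F.map_young_eq_zero hadd hp W (LinearMap.ker q)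
          (v := Module.finBasis k (LinearMap.ker q)) (Module.Basis.span_eq _) ?_ hx
        rwa [Fintype.card_fin]
      have h2 := key x
      rw [h1, map_zero, smul_eq_zero] at h2
      have h3 := h2.resolve_left hnk
      apply hi
      rw [map_zero]
      exact h3
  · by_contra hne
    rw [not_nontrivial_iff_subsingleton] at hne
    refine F.map_young_ne_zero hadd hp h (Module.finBasis k (F.V W)) hk (r := r)
      (by rw [Fintype.card_fin, hr]) ?_
    refine LinearMap.ext fun x => ?_
    apply hu.1
    rw [← key x, Subsingleton.elim (F.map s (F.map u x)) 0, map_zero, smul_zero,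
      LinearMap.zero_apply, map_zero]

end young

end Coact

end LaxF

end Vale.Agent.P093.SymPow

end
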