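import Mathlib

/-!
# P093, part N, block YOUNG: combinatorics of the partition `(p-1)(r, r-1, …, 1)`

Cells are `⟨(c, k), i⟩` with column index `(c, k)`, `c < r`, `k < q` (`q = p - 1`), and row index
`i ≤ c`.
-/

open Finset Equiv

namespace Vale.Agent.P093.N.Young

variable {r q : ℕ}

/-- the cells of the diagram: columns `(c, k)` of height `c + 1` -/
abbrev Cell (r q : ℕ) : Type := Σ x : Fin r × Fin q, Fin (x.1.val + 1)

/-- the row of a cell -/
def row (x : Cell r q) : ℕ := x.2.val

/-- the height (minus one) of the column of a cell -/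
def ht (x : Cell r q) : ℕ := x.1.1.val

/-- the reversed row filling -/
def rev (x : Cell r q) : ℕ := x.1.1.val - x.2.val

lemma row_le_ht (x : Cell r q) : row x ≤ ht x := Nat.lt_succ_iff.1 x.2.isLt

lemma ht_lt (x : Cell r q) : ht x < r := x.1.1.isLt

lemma row_add_rev (x : Cell r q) : row x + rev x = ht x := by
  have := row_le_ht x
  unfold row rev ht at *
  omega

/-- a permutation preserves the columns -/
def ColP (τ : Perm (Cell r q)) : Prop := ∀ x, (τ x).1 = x.1

/-- a permutation preserves the rows -/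
def RowP (σ : Perm (Cell r q)) : Prop := ∀ x, row (σ x) = row x

instance : DecidablePred (ColP (r := r) (q := q)) := fun _ => by unfold ColP; infer_instance
instance : DecidablePred (RowP (r := r) (q := q)) := fun _ => by unfold RowP; infer_instance

lemma ColP.mul {σ τ : Perm (Cell r q)} (hσ : ColP σ) (hτ : ColP τ) : ColP (σ * τ) := fun x => by
  rw [Perm.mul_apply, hσ, hτ]

lemma ColP.inv {σ : Perm (Cell r q)} (hσ : ColP σ) : ColP σ⁻¹ := fun x => by
  have := hσ (σ⁻¹ x)
  rw [show σ (σ⁻¹ x) = x by simp] at this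
  exact this.symm

lemma RowP.mul {σ τ : Perm (Cell r q)} (hσ : RowP σ) (hτ : RowP τ) : RowP (σ * τ) := fun x => by
  rw [Perm.mul_apply, hσ, hτ]

lemma RowP.inv {σ : Perm (Cell r q)} (hσ : RowP σ) : RowP σ⁻¹ := fun x => by
  have := hσ (σ⁻¹ x)
  rw [show σ (σ⁻¹ x) = x by simp] at this
  exact this.symm

lemma ColP.one : ColP (1 : Perm (Cell r q)) := fun _ => rfl

lemma RowP.one : RowP (1 : Perm (Cell r q)) := fun _ => rfl

/-- a cell is determined by its column and row -/
lemma cell_ext {x z : Cell r q} (h : x.1 = z.1) (h' : row x = row z) : x = z := by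
  obtain ⟨κ, i⟩ := x
  obtain ⟨κ', i'⟩ := z
  obtain rfl : κ = κ' := h
  obtain rfl : i = i' := Fin.ext h'
  rfl

lemma eq_one_of_both {σ : Perm (Cell r q)} (h : ColP σ) (h' : RowP σ) : σ = 1 :=
  Equiv.ext fun x => cell_ext (h x) (h' x)

/-- two column permutations with the same row filling are equal -/
lemma colP_ext {σ τ : Perm (Cell r q)} (hσ : ColP σ) (hτ : ColP τ)
    (h : ∀ x, row (σ x) = row (τ x)) : σ = τ :=
  Equiv.ext fun x => cell_ext ((hσ x).trans (hτ x).symm) (h x)

/-- the column reversal -/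
def colRev : Perm (Cell r q) := Equiv.sigmaCongrRight fun _ => Fin.revPerm

lemma colRev_col : ColP (colRev : Perm (Cell r q)) := fun _ => rfl

lemma row_colRev (x : Cell r q) : row (colRev x) = rev x := by
  obtain ⟨κ, i⟩ := x
  change ((Fin.rev i : Fin (κ.1.val + 1)) : ℕ) = κ.1.val - i.val
  rw [Fin.val_rev]
  omega

/-! ### The flush lemma -/

theorem flush (ρ : Cell r q → ℕ) (hinj : ∀ x z : Cell r q, x.1 = z.1 → ρ x = ρ z → x = z)
    (hcard : ∀ s, (univ.filter fun x : Cell r q => ρ x < s).card =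
      (univ.filter fun x : Cell r q => row x < s).card) :
    ∃ θ : Perm (Cell r q), ColP θ ∧ ∀ x, row (θ x) = ρ x := by
  classical
  have hB : ∀ (κ : Fin r × Fin q) (s : ℕ),
      (univ.filter fun i : Fin (κ.1.val + 1) => row (⟨κ, i⟩ : Cell r q) < s).card =
        min (κ.1.val + 1) s := fun κ s => Fin.card_filter_val_lt
  have hA : ∀ (κ : Fin r × Fin q) (s : ℕ),
      (univ.filter fun i : Fin (κ.1.val + 1) => ρ ⟨κ, i⟩ < s).card ≤
        (univ.filter fun i : Fin (κ.1.val + 1) => row (⟨κ, i⟩ : Cell r q) < s).card := by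
    intro κ s
    rw [hB κ s]
    refine le_min ?_ ?_
    · exact (card_filter_le _ _).trans (by simp)
    · have := Finset.card_le_card_of_injOn
        (s := univ.filter fun i : Fin (κ.1.val + 1) => ρ ⟨κ, i⟩ < s)
        (t := range s) (fun i => ρ ⟨κ, i⟩) (fun i hi => by simpa using hi) (by
          intro i _ j _ hij
          have := hinj ⟨κ, i⟩ ⟨κ, j⟩ rfl hij
          simpa using this)
      simpa using this
  have hS : ∀ (f : Cell r q → ℕ) (s : ℕ), (univ.filter fun x : Cell r q => f x < s).card =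
      ∑ κ : Fin r × Fin q, (univ.filter fun i : Fin (κ.1.val + 1) => f ⟨κ, i⟩ < s).card := by
    intro f s
    simp only [card_filter]
    rw [← Finset.univ_sigma_univ, Finset.sum_sigma]
  have hlt : ∀ (κ : Fin r × Fin q) (i : Fin (κ.1.val + 1)), ρ ⟨κ, i⟩ < κ.1.val + 1 := by
    intro κ i
    have h1 := hcard (κ.1.val + 1)
    rw [hS, hS] at h1
    have h2 := (Finset.sum_eq_sum_iff_of_le fun κ' _ => hA κ' (κ.1.val + 1)).1 h1 κ (mem_univ _)
    rw [hB, min_self] at h2
    have h3 : (univ.filter fun i : Fin (κ.1.val + 1) => ρ ⟨κ, i⟩ < κ.1.val + 1) = univ :=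
      Finset.eq_univ_of_card _ (by rw [h2, Fintype.card_fin])
    have := (Finset.ext_iff.1 h3 i).2 (mem_univ _)
    simpa using this
  let e : ∀ κ : Fin r × Fin q, Perm (Fin (κ.1.val + 1)) := fun κ =>
    Equiv.ofBijective (fun i => (⟨ρ ⟨κ, i⟩, hlt κ i⟩ : Fin (κ.1.val + 1)))
      (Finite.injective_iff_bijective.1 fun i j hij => by
        have := hinj ⟨κ, i⟩ ⟨κ, j⟩ rfl (by simpa using hij)
        simpa using this)
  exact ⟨Equiv.sigmaCongrRight e, fun _ => rfl, fun x => rfl⟩

/-- von Neumann's dichotomy -/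
theorem dichotomy (g : Perm (Cell r q)) :
    (∃ x z : Cell r q, x ≠ z ∧ x.1 = z.1 ∧ row (g⁻¹ x) = row (g⁻¹ z)) ∨
      ∃ τ σ : Perm (Cell r q), ColP τ ∧ RowP σ ∧ g = τ * σ := by
  by_cases h : ∃ x z : Cell r q, x ≠ z ∧ x.1 = z.1 ∧ row (g⁻¹ x) = row (g⁻¹ z)
  · exact Or.inl h
  · right
    push Not at h
    obtain ⟨θ, hθ, hθ'⟩ := flush (fun x => row (g⁻¹ x)) (fun x z hxz hr => by
        by_contra hne
        exact h x z hne hxz hr) (fun s => by
        refine Finset.card_bij (fun x _ => g⁻¹ x) (fun x hx => by simpa using hx)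
          (fun x _ z _ hxz => g⁻¹.injective hxz) (fun x hx => ⟨g x, ?_, by simp⟩)
        simpa using hx)
    refine ⟨θ⁻¹, θ * g, hθ.inv, fun x => ?_, by group⟩
    rw [Perm.mul_apply, hθ']
    simp

/-! ### The only flush filling with small multiplicities is the reversed one -/

/-- the number of cells in row `i` with entry `s` -/
def mult (h : Cell r q → ℕ) (i s : ℕ) : ℕ := (univ.filter fun x => row x = i ∧ h x = s).card

lemma sum_mult (h : Cell r q → ℕ) (hh : ∀ x, h x < r) (F : ℕ → ℕ → ℤ) :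
    ∑ x, F (row x) (h x) = ∑ y ∈ range r ×ˢ range r, (mult h y.1 y.2 : ℤ) * F y.1 y.2 := by
  have hm : ∀ x ∈ (univ : Finset (Cell r q)), (row x, h x) ∈ range r ×ˢ range r := fun x _ => by
    simp only [mem_product, mem_range]
    exact ⟨(row_le_ht x).trans_lt (ht_lt x), hh x⟩
  rw [← Finset.sum_fiberwise_of_maps_to hm]
  refine Finset.sum_congr rfl fun y _ => ?_
  rw [Finset.sum_congr rfl (g := fun _ => F y.1 y.2) (fun x hx => by
    obtain ⟨-, hx⟩ := mem_filter.1 hx
    rw [← hx]), Finset.sum_const, nsmul_eq_mul]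
  congr 2
  unfold mult
  congr 1
  ext x
  simp [Prod.ext_iff]

theorem only_rev {θ : Perm (Cell r q)} (hθ : ColP θ)
    (hle : ∀ i s, mult (fun x => row (θ x)) i s ≤ q) (x : Cell r q) : row (θ x) = rev x := by
  set h : Cell r q → ℕ := fun x => row (θ x) with hh
  have hr : ∀ x, h x < r := fun x => (row_le_ht _).trans_lt (ht_lt _)
  have hr' : ∀ x : Cell r q, rev x < r := fun x => by
    have := row_add_rev x
    have := ht_lt x
    omega
  -- sums
  have hht : ∀ x, ht (θ x) = ht x := fun x => by unfold ht; rw [hθ x]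
  have s1 : ∑ x, (h x : ℤ) = ∑ x : Cell r q, (row x : ℤ) :=
    Equiv.sum_comp θ fun x => (row x : ℤ)
  have s2 : ∑ x : Cell r q, (rev x : ℤ) = ∑ x : Cell r q, (row x : ℤ) := by
    rw [← Equiv.sum_comp colRev fun x : Cell r q => (row x : ℤ)]
    simp only [row_colRev]
  have s3 : ∑ x, (ht x : ℤ) * h x = ∑ x : Cell r q, (ht x : ℤ) * row x := by
    rw [← Equiv.sum_comp θ fun x => (ht x : ℤ) * row x]
    simp only [hht, hh]
  have s4 : ∑ x : Cell r q, (ht x : ℤ) * rev x = ∑ x : Cell r q, (ht x : ℤ) * row x := by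
    rw [← Equiv.sum_comp colRev fun x : Cell r q => (ht x : ℤ) * row x]
    simp only [row_colRev]
    rfl
  -- multiplicities of `rev`
  have m1 : ∀ i s, i + s < r → q ≤ mult (rev : Cell r q → ℕ) i s := by
    intro i s his
    have := Finset.card_le_card_of_injOn (s := (univ : Finset (Fin q)))
      (t := univ.filter fun x : Cell r q => row x = i ∧ rev x = s)
      (fun k => ⟨(⟨i + s, his⟩, k), ⟨i, by simp⟩⟩)
      (fun k _ => by
        rw [Finset.mem_coe, mem_filter]
        exact ⟨mem_univ _, rfl, Nat.add_sub_cancel_left i s⟩) (fun k _ k' _ hk => by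
        simp only [Sigma.mk.injEq, Prod.mk.injEq, true_and] at hk
        exact hk.1)
    simpa [mult] using this
  have m2 : ∀ i s, r ≤ i + s → mult (rev : Cell r q → ℕ) i s = 0 := by
    intro i s his
    unfold mult
    rw [Finset.card_eq_zero, Finset.filter_eq_empty_iff]
    rintro x - ⟨h1, h2⟩
    have := row_add_rev x
    have := ht_lt x
    omega
  -- the weighted comparison
  have key : ∑ y ∈ range r ×ˢ range r,
      ((mult h y.1 y.2 : ℤ) - mult (rev : Cell r q → ℕ) y.1 y.2) *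
        (2 * ((y.1 : ℤ) + y.2) - (2 * r - 1)) = 0 := by
    simp only [sub_mul]
    rw [Finset.sum_sub_distrib]
    rw [← sum_mult h hr (fun i s => 2 * ((i : ℤ) + s) - (2 * r - 1)),
      ← sum_mult rev hr' (fun i s => 2 * ((i : ℤ) + s) - (2 * r - 1))]
    simp only [mul_add, Finset.sum_sub_distrib, Finset.sum_add_distrib, ← Finset.mul_sum]
    rw [s1, s2]
    ring
  have nonneg : ∀ y ∈ range r ×ˢ range r,
      0 ≤ ((mult h y.1 y.2 : ℤ) - mult (rev : Cell r q → ℕ) y.1 y.2) *
        (2 * ((y.1 : ℤ) + y.2) - (2 * r - 1)) := by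
    intro y _
    rcases lt_or_ge (y.1 + y.2) r with hy | hy
    · have h1 := m1 y.1 y.2 hy
      have h2 := hle y.1 y.2
      have h3 : ((mult h y.1 y.2 : ℤ) - mult (rev : Cell r q → ℕ) y.1 y.2) ≤ 0 := by
        have : mult h y.1 y.2 ≤ mult (rev : Cell r q → ℕ) y.1 y.2 := h2.trans h1
        omega
      exact mul_nonneg_of_nonpos_of_nonpos h3 (by omega)
    · rw [m2 y.1 y.2 hy]
      exact mul_nonneg (by simp) (by omega)
  have hmul : ∀ y ∈ range r ×ˢ range r,
      (mult h y.1 y.2 : ℤ) = mult (rev : Cell r q → ℕ) y.1 y.2 := by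
    intro y hy
    have := (Finset.sum_eq_zero_iff_of_nonneg nonneg).1 key y hy
    rcases mul_eq_zero.1 this with h1 | h1
    · omega
    · omega
  have s5 : ∑ x, ((row x : ℤ) + h x) ^ 2 = ∑ x : Cell r q, ((row x : ℤ) + rev x) ^ 2 := by
    rw [sum_mult h hr (fun i s => ((i : ℤ) + s) ^ 2), sum_mult rev hr' (fun i s => ((i : ℤ) + s) ^ 2)]
    exact Finset.sum_congr rfl fun y hy => by rw [hmul y hy]
  have e1 : ∀ x : Cell r q, (row x : ℤ) + rev x = ht x := fun x => by
    exact_mod_cast congrArg (Nat.cast : ℕ → ℤ) (row_add_rev x)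
  have s6 : ∑ x, ((row x : ℤ) + h x - ht x) ^ 2 = 0 := by
    have t1 : ∀ x : Cell r q, ((row x : ℤ) + h x - ht x) ^ 2 =
        ((row x : ℤ) + h x) ^ 2 - 2 * ((ht x : ℤ) * row x) - 2 * ((ht x : ℤ) * h x) +
          (ht x : ℤ) ^ 2 := fun x => by ring
    have t2 : ∑ x : Cell r q, (ht x : ℤ) ^ 2 = 2 * ∑ x : Cell r q, (ht x : ℤ) * row x := by
      have : ∀ x : Cell r q, (ht x : ℤ) ^ 2 = (ht x : ℤ) * row x + (ht x : ℤ) * rev x := fun x => by
        rw [← mul_add, e1, sq]
      simp only [this, Finset.sum_add_distrib]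
      rw [s4]
      ring
    simp only [t1, Finset.sum_add_distrib, Finset.sum_sub_distrib, ← Finset.mul_sum]
    rw [s3, s5]
    simp only [e1]
    rw [t2]
    ring
  have := (Finset.sum_eq_zero_iff_of_nonneg fun x _ => sq_nonneg _).1 s6 x (mem_univ _)
  have h1 := pow_eq_zero_iff (two_ne_zero) |>.1 this
  have h2 := e1 x
  have h3 : (h x : ℤ) = rev x := by linarith
  exact_mod_cast h3

end Vale.Agent.P093.N.Young
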