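import Vale.Agent.P093.N.YoungAct

/-!
# P093, part N, block YOUNG: evaluation of the Young symmetrizer
-/

open Finset Equiv MonoidAlgebra

namespace Vale.Agent.P093.N.Young

variable {r q : ℕ}

noncomputable section

lemma mult_comp_rowP {σ : Perm (Cell r q)} (hσ : RowP σ) (h : Cell r q → ℕ) (i s : ℕ) :
    mult (fun x => h (σ x)) i s = mult h i s := by
  unfold mult
  refine Finset.card_bij (fun x _ => σ x) ?_ (fun x _ z _ hxz => σ.injective hxz) ?_
  · intro x hx
    simp only [mem_filter, mem_univ, true_and] at hx ⊢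
    exact ⟨(hσ x).trans hx.1, hx.2⟩
  · intro x hx
    simp only [mem_filter, mem_univ, true_and] at hx
    have := hσ (σ⁻¹ x)
    rw [show σ (σ⁻¹ x) = x by simp] at this
    refine ⟨σ⁻¹ x, ?_, by simp⟩
    simp only [mem_filter, mem_univ, true_and]
    refine ⟨this.symm.trans hx.1, ?_⟩
    rw [show σ (σ⁻¹ x) = x by simp]
    exact hx.2

/-- a row permutation of the reversed filling which is column injective is the reversed filling -/
lemma rev_comp_eq {σ : Perm (Cell r q)} (hσ : RowP σ)
    (hinj : ∀ x z : Cell r q, x.1 = z.1 → rev (σ x) = rev (σ z) → x = z) (x : Cell r q) :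
    rev (σ x) = rev x := by
  obtain ⟨θ, hθ, hθ'⟩ := flush (fun x => rev (σ x)) hinj (fun s => by
    have h1 : (univ.filter fun x : Cell r q => rev (σ x) < s).card =
        (univ.filter fun x : Cell r q => rev x < s).card := by
      refine Finset.card_bij (fun x _ => σ x) (fun x hx => by simpa using hx)
        (fun x _ z _ hxz => σ.injective hxz) (fun x hx => ⟨σ⁻¹ x, ?_, by simp⟩)
      simpa using hx
    have h2 : (univ.filter fun x : Cell r q => rev x < s).card =
        (univ.filter fun x : Cell r q => row x < s).card := by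
      refine Finset.card_bij (fun x _ => colRev x) (fun x hx => by
        simpa [row_colRev] using hx)
        (fun x _ z _ hxz => colRev.injective hxz) (fun x hx => ⟨colRev⁻¹ x, ?_, by simp⟩)
      simp only [mem_filter, mem_univ, true_and] at hx ⊢
      rw [← row_colRev, show colRev (colRev⁻¹ x) = x by simp]
      exact hx
    rw [h1, h2])
  rw [← hθ' x]
  refine only_rev hθ (fun i s => ?_) x
  have : (fun x => row (θ x)) = fun x => rev (σ x) := funext hθ'
  rw [this, mult_comp_rowP hσ]
  exact mult_rev_le i s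

section

variable {k ι : Type*} [CommRing k] [DecidableEq ι] (s : Fin r → ι)

/-- the row filling with symbols in `ι` -/
def rowI (x : Cell r q) : ι := s (rowF x)

/-- the reversed filling with symbols in `ι` -/
def revI (x : Cell r q) : ι := s (revF x)

lemma rowF_colRev (x : Cell r q) : rowF (colRev x) = revF x := Fin.ext (row_colRev x)

omit [DecidableEq ι] in
lemma revI_eq : (revI s : Cell r q → ι) = rowI s ∘ ⇑colRev := by
  funext x
  change s (revF x) = s (rowF (colRev x))
  rw [rowF_colRev]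

variable {s}

/-- `b a e_rev = u b e_row` -/
theorem act_yy_rev (_hs : Function.Injective s) :
    act k ι (Cell r q) (yy r q) (E k (revI s)) =
      (((stab (rev : Cell r q → ℕ)).card : ℤ) * ((Perm.sign (colRev : Perm (Cell r q)) : ℤˣ) : ℤ)) •
        act k ι (Cell r q) (bb r q) (E k (rowI s)) := by
  unfold yy
  rw [map_mul, Module.End.mul_apply, act_aa, map_sum]
  have h1 : ∀ σ ∈ univ.filter (RowP (r := r) (q := q)),
      act k ι (Cell r q) (bb r q) (E k (revI s ∘ ⇑(σ⁻¹))) =
        if (∀ x, rev (σ x) = rev x) then act k ι (Cell r q) (bb r q) (E k (revI s)) else 0 := by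
    intro σ hσ
    have hσ : RowP σ := (mem_filter.1 hσ).2
    split_ifs with h
    · congr 2
      funext x
      change s (revF (σ⁻¹ x)) = s (revF x)
      congr 1
      refine Fin.ext ?_
      change rev (σ⁻¹ x) = rev x
      have := h (σ⁻¹ x)
      rw [show σ (σ⁻¹ x) = x by simp] at this
      exact this.symm
    · by_contra hne
      apply h
      have hinj : ∀ x z : Cell r q, x.1 = z.1 → rev (σ⁻¹ x) = rev (σ⁻¹ z) → x = z := by
        intro x z hxz hr
        by_contra hxz'
        refine hne (act_bb_eq_zero _ hxz' hxz ?_)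
        change s (revF (σ⁻¹ x)) = s (revF (σ⁻¹ z))
        congr 1
        exact Fin.ext hr
      intro x
      have := rev_comp_eq hσ.inv hinj (σ x)
      rw [show σ⁻¹ (σ x) = x by simp] at this
      exact this.symm
  rw [Finset.sum_congr rfl h1, ← Finset.sum_filter, Finset.sum_const, Finset.filter_filter,
    revI_eq, act_bb_comp colRev_col, mul_smul, natCast_zsmul]
  rfl

lemma act_bb_row_apply (hs : Function.Injective s) :
    act k ι (Cell r q) (bb r q) (E k (rowI s)) (rowI s) = 1 := by
  rw [act_bb, Finset.sum_apply]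
  rw [Finset.sum_eq_single_of_mem (1 : Perm (Cell r q)) (by simp [ColP.one])]
  · simp
  · intro τ hτ hne
    have hτ : ColP τ := (mem_filter.1 hτ).2
    rw [Pi.smul_apply, E_apply, if_neg, smul_zero]
    intro h
    apply hne
    rw [← inv_eq_one]
    refine eq_one_of_both hτ.inv fun x => ?_
    have := congrFun h x
    change s (rowF x) = s (rowF (τ⁻¹ x)) at this
    have := congrArg Fin.val (hs this)
    exact this.symm

/-- `b a b e_row = u b e_row` if `p = 0` in `k`, `p = q + 1` -/
theorem act_yy_bb_row (hs : Function.Injective s) (hq : ((q + 1 : ℕ) : k) = 0) :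
    act k ι (Cell r q) (yy r q) (act k ι (Cell r q) (bb r q) (E k (rowI s))) =
      ((stab (rev : Cell r q → ℕ)).card : ℤ) •
        act k ι (Cell r q) (bb r q) (E k (rowI s)) := by
  rw [act_bb, map_sum]
  rw [Finset.sum_eq_single_of_mem (colRev⁻¹ : Perm (Cell r q))
    (by simp only [mem_filter, mem_univ, true_and]; exact colRev_col.inv)]
  · rw [map_zsmul, inv_inv, ← revI_eq, act_yy_rev hs, ← act_bb, smul_smul, Perm.sign_inv]
    congr 1
    rw [mul_comm, mul_assoc, ← Units.val_mul, Int.units_mul_self, Units.val_one, mul_one]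
  · intro τ hτ hne
    have hτ : ColP τ := (mem_filter.1 hτ).2
    rw [map_zsmul]
    unfold yy
    rw [map_mul, Module.End.mul_apply]
    suffices h0 : act k ι (Cell r q) (aa r q) (E k (rowI s ∘ ⇑(τ⁻¹))) = 0 by
      rw [h0, map_zero, smul_zero]
    -- a filling with a large multiplicity
    have hex : ∃ i t, q + 1 ≤ mult (fun x => row (τ⁻¹ x)) i t := by
      by_contra hcon
      push Not at hcon
      apply hne
      refine (inv_inv τ).symm.trans (congrArg _ ?_)
      refine colP_ext hτ.inv colRev_col fun x => ?_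
      rw [row_colRev]
      exact only_rev hτ.inv (fun i t => Nat.lt_succ_iff.1 (hcon i t)) x
    obtain ⟨i, t, hit⟩ := hex
    obtain ⟨c, hc⟩ := dvd_card_stab (p := q + 1) (fun x => row (τ⁻¹ x)) hit (Nat.succ_pos _)
    rw [act_aa]
    funext f
    rw [Finset.sum_apply]
    simp only [E_apply]
    rw [Finset.sum_boole, Pi.zero_apply, Finset.filter_filter]
    by_cases hemp : ∃ σ₀ : Perm (Cell r q), RowP σ₀ ∧ f = (rowI s ∘ ⇑(τ⁻¹)) ∘ ⇑(σ₀⁻¹)
    · obtain ⟨σ₀, hσ₀, rfl⟩ := hemp
      have hcard : (univ.filter fun σ : Perm (Cell r q) => RowP σ ∧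
          (rowI s ∘ ⇑(τ⁻¹)) ∘ ⇑(σ₀⁻¹) = (rowI s ∘ ⇑(τ⁻¹)) ∘ ⇑(σ⁻¹)).card =
            (stab (fun x => row (τ⁻¹ x))).card := by
        refine Finset.card_bij (fun σ _ => σ⁻¹ * σ₀) ?_ ?_ ?_
        · intro σ hσ
          simp only [mem_filter, mem_univ, true_and, stab] at hσ ⊢
          refine ⟨hσ.1.inv.mul hσ₀, fun x => ?_⟩
          have := congrFun hσ.2 (σ₀ x)
          change s (rowF (τ⁻¹ (σ₀⁻¹ (σ₀ x)))) = s (rowF (τ⁻¹ (σ⁻¹ (σ₀ x)))) at this
          have := congrArg Fin.val (hs this)
          rw [show σ₀⁻¹ (σ₀ x) = x by simp] at this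
          exact this.symm
        · intro σ _ σ' _ h
          simpa using h
        · intro ρ hρ
          simp only [mem_filter, mem_univ, true_and, stab] at hρ
          refine ⟨σ₀ * ρ⁻¹, ?_, by group⟩
          simp only [mem_filter, mem_univ, true_and]
          refine ⟨hσ₀.mul hρ.1.inv, ?_⟩
          funext x
          change s (rowF (τ⁻¹ (σ₀⁻¹ x))) = s (rowF (τ⁻¹ ((σ₀ * ρ⁻¹)⁻¹ x)))
          congr 1
          refine Fin.ext ?_
          change row (τ⁻¹ (σ₀⁻¹ x)) = row (τ⁻¹ ((σ₀ * ρ⁻¹)⁻¹ x))
          rw [mul_inv_rev, inv_inv, Perm.mul_apply]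
          exact (hρ.2 (σ₀⁻¹ x)).symm
      rw [hcard, hc, Nat.cast_mul, hq, zero_mul]
    · have : (univ.filter fun σ : Perm (Cell r q) => RowP σ ∧
          f = (rowI s ∘ ⇑(τ⁻¹)) ∘ ⇑(σ⁻¹)) = ∅ := by
        rw [Finset.filter_eq_empty_iff]
        intro σ _ h
        exact hemp ⟨σ, h.1, h.2⟩
      rw [this, Finset.card_empty, Nat.cast_zero]

end

/-- the constant of the Young symmetrizer is prime to `p = q + 1` -/
theorem not_dvd_of_yy {p : ℕ} (hp : p.Prime) (hq : q + 1 = p) {n : ℤ}
    (hn : yy r q * yy r q = n • yy r q) : ¬ (p : ℤ) ∣ n := by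
  have : Fact p.Prime := ⟨hp⟩
  have hk : ((q + 1 : ℕ) : ZMod p) = 0 := by rw [hq, ZMod.natCast_self]
  have hs : Function.Injective (id : Fin r → Fin r) := Function.injective_id
  have h1 := congrArg (fun z => act (ZMod p) (Fin r) (Cell r q) z (E (ZMod p) (revI id))) hn
  simp only [map_mul, Module.End.mul_apply, map_zsmul, LinearMap.smul_apply] at h1
  rw [act_yy_rev hs, map_zsmul, act_yy_bb_row hs hk] at h1
  have h2 := congrFun h1 (rowI id)
  have h3 := act_bb_row_apply (k := ZMod p) (q := q) hs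
  simp only [Pi.smul_apply] at h2
  rw [h3] at h2
  simp only [zsmul_eq_mul, mul_one] at h2
  set N : ℕ := (stab (rev : Cell r q → ℕ)).card with hN
  have hN0 : (N : ZMod p) ≠ 0 := by
    rw [Ne, ZMod.natCast_eq_zero_iff]
    exact not_dvd_card_stab hp (by omega)
  have hsg : ((((Perm.sign (colRev : Perm (Cell r q)) : ℤˣ) : ℤ)) : ZMod p) ≠ 0 := by
    intro h0
    have : (((Perm.sign (colRev : Perm (Cell r q)) : ℤˣ) : ℤ) : ZMod p) *
        (((Perm.sign (colRev : Perm (Cell r q)) : ℤˣ) : ℤ) : ZMod p) = 1 := by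
      rw [← Int.cast_mul, ← Units.val_mul, Int.units_mul_self]
      simp
    rw [h0, zero_mul] at this
    exact zero_ne_one this
  intro hdvd
  have hn0 : (n : ZMod p) = 0 := (ZMod.intCast_zmod_eq_zero_iff_dvd n p).2 hdvd
  rw [hn0, zero_mul] at h2
  push_cast at h2
  exact mul_ne_zero (mul_ne_zero hN0 hsg) hN0 h2

/-- `y` kills the tensor powers of rank `< r` -/
theorem act_yy_eq_zero {k ι : Type*} [CommRing k] [Fintype ι] (hι : Fintype.card ι < r)
    (hq : 0 < q) : act k ι (Cell r q) (yy r q) = 0 := by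
  classical
  have hb : act k ι (Cell r q) (bb r q) = 0 := by
    refine LinearMap.pi_ext fun f c => ?_
    have hsm : Pi.single f c = c • E k f := by
      funext g
      rw [Pi.smul_apply, E_apply, Pi.single_apply]
      split_ifs <;> simp
    rw [hsm, map_smul, LinearMap.zero_apply]
    have hr : 0 < r := lt_of_le_of_lt (Nat.zero_le _) hι
    let g : Fin r → Cell r q := fun i => ⟨(⟨r - 1, by omega⟩, ⟨0, hq⟩), ⟨i, by
      have := i.isLt
      simp only
      omega⟩⟩
    have hg : ∀ i j, g i = g j → i = j := fun i j h => by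
      have := congrArg row h
      exact Fin.ext this
    obtain ⟨i, j, hij, hf⟩ := Fintype.exists_ne_map_eq_of_card_lt (fun i => f (g i))
      (by simpa using hι)
    rw [act_bb_eq_zero f (x := g i) (z := g j) (fun h => hij (hg i j h)) rfl hf, smul_zero]
  unfold yy
  rw [map_mul, hb, zero_mul]

/-- `y` acts non trivially on the tensor powers of rank `≥ r` if the integers prime to `p = q + 1`
do not vanish in `k` -/
theorem act_yy_ne_zero {k ι : Type*} [CommRing k] [Fintype ι] {p : ℕ} (hp : p.Prime)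
    (hq : q + 1 = p) (hk : ∀ c : ℤ, ¬ (p : ℤ) ∣ c → (c : k) ≠ 0) (hι : r ≤ Fintype.card ι) :
    act k ι (Cell r q) (yy r q) ≠ 0 := by
  classical
  obtain ⟨s⟩ : Nonempty (Fin r ↪ ι) := Function.Embedding.nonempty_of_card_le (by simpa using hι)
  intro h0
  have h1 := act_yy_rev (k := k) (q := q) (s := s) s.injective
  rw [h0, LinearMap.zero_apply] at h1
  have h2 := congrFun h1 (rowI s)
  rw [Pi.zero_apply, Pi.smul_apply, act_bb_row_apply s.injective, zsmul_eq_mul, mul_one] at h2
  refine hk _ ?_ h2.symm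
  intro hdvd
  have hu : IsUnit ((Perm.sign (colRev : Perm (Cell r q)) : ℤˣ) : ℤ) := Units.isUnit _
  rw [hu.dvd_mul_right, Int.natCast_dvd_natCast] at hdvd
  exact not_dvd_card_stab hp (by omega) hdvd

end

end Vale.Agent.P093.N.Young
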